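import Crest.Agent.R11.Defs

/-! # Row 11: small values force vanishing -/

set_option autoImplicit false

namespace Crest.Agent.R11

open MvPolynomial Filter

namespace Arith

noncomputable section

variable {m : ℕ}

abbrev B (m : ℕ) := MvPolynomial (Option (Fin m)) ℂ

/-- `Q` times the truncated logarithm of `1 + x`. -/
def Lg (q : ℂ) (n : ℕ) : B m :=
  ∑ i ∈ Finset.range n, C (q * (-1) ^ i / ((i : ℂ) + 1)) * X none ^ (i + 1)

/-- The change of coordinates. -/
def psi (e Q : Fin m → ℕ) (γ : Fin m → ℂ) : B m →ₐ[ℂ] B m :=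
  aeval fun o => o.elim (1 + X none) fun j => C (γ j) + Lg (Q j) (e j) + X (some j)

/-- The derivations in the new coordinates. -/
def Dt (e Q : Fin m → ℕ) : Option (Fin m) → Derivation ℂ (B m) (B m)
  | none => mkDerivation ℂ fun o => o.elim (1 + X none) fun j => C (Q j : ℂ) * (-X none) ^ e j
  | some j => pderiv (some j)

lemma der_Lg (D : Derivation ℂ (B m) (B m)) (q : ℂ) (n : ℕ) :
    D (Lg q n) = C q * (∑ i ∈ Finset.range n, (-X none) ^ i) * D (X none) := by
  rw [Lg, map_sum, Finset.mul_sum, Finset.sum_mul]
  refine Finset.sum_congr rfl fun i _ => ?_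
  have hi : ((i : ℂ) + 1) ≠ 0 := by exact_mod_cast Nat.succ_ne_zero i
  have h1 : (C (q * (-1) ^ i / ((i : ℂ) + 1)) : B m) * ((i : B m) + 1) = C q * (-1) ^ i := by
    have : ((i : B m) + 1) = C ((i : ℂ) + 1) := by simp
    rw [this, ← map_mul, div_mul_cancel₀ _ hi]; simp
  rw [Derivation.leibniz, derivation_C, smul_zero, add_zero, Derivation.leibniz_pow,
    neg_pow (X none : B m), Nat.add_sub_cancel, nsmul_eq_mul, smul_eq_mul, smul_eq_mul]
  push_cast
  linear_combination (X none ^ i * D (X none)) * h1

lemma psi_Dv (e Q : Fin m → ℕ) (γ : Fin m → ℂ) (i : Option (Fin m)) (f : B m) :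
    psi e Q γ (Dv (fun j => (Q j : ℂ)) i f) = Dt e Q i (psi e Q γ f) := by
  have hX : ∀ o, psi e Q γ (Dv (fun j => (Q j : ℂ)) i (X o)) = Dt e Q i (psi e Q γ (X o)) := by
    intro o
    rcases i with _ | i <;> rcases o with _ | j
    · simp [psi, Dv, Dt, mkDerivation_X]
    · simp only [psi, Dv, Dt, mkDerivation_X, Option.elim, aeval_X, aeval_C, map_add, der_Lg,
        derivation_C, algebraMap_eq]
      have := mul_neg_geom_sum (-X none : B m) (e j)
      linear_combination (-C (Q j : ℂ)) * this
    · simp [psi, Dv, Dt]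
    · simp only [psi, Dv, Dt, Option.elim, aeval_X, map_add, der_Lg, derivation_C]
      by_cases h : j = i
      · subst h; simp
      · simp [pderiv_X_of_ne h, pderiv_X_of_ne (show (some j : Option (Fin m)) ≠ some i by simpa)]
  induction f using MvPolynomial.induction_on with
  | C a => simp [psi]
  | add p q hp hq => simp only [map_add, hp, hq]
  | mul_X p o hp =>
    simp only [Derivation.leibniz, smul_eq_mul, map_add, map_mul, hp, hX]

lemma psi_word (e Q : Fin m → ℕ) (γ : Fin m → ℂ) (l : List (Option (Fin m))) (f : B m) :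
    psi e Q γ (word (Dv fun j => (Q j : ℂ)) l f) = word (Dt e Q) l (psi e Q γ f) := by
  induction l generalizing f with
  | nil => rfl
  | cons i l ih => rw [word_cons, word_cons, ih, psi_Dv]

/-- Polynomials without terms of weight less than `Y`. -/
def W (e : Fin m → ℕ) (Y : ℕ) : Submodule ℂ (B m) where
  carrier := {G | ∀ α, Finsupp.weight (wv e) α < Y → coeff α G = 0}
  zero_mem' := fun _ _ => rfl
  add_mem' := fun hf hg α h => by rw [coeff_add, hf α h, hg α h, add_zero]
  smul_mem' := fun c f hf α h => by rw [coeff_smul, hf α h, smul_zero]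

variable {e Q : Fin m → ℕ}

lemma W_anti {Y Y' : ℕ} (h : Y ≤ Y') {G : B m} (hG : G ∈ W e Y') : G ∈ W e Y :=
  fun α hα => hG α (hα.trans_le h)

lemma W_pderiv {Y : ℕ} {G : B m} (hG : G ∈ W e Y) (o : Option (Fin m)) :
    pderiv o G ∈ W e (Y - wv e o) := by
  intro α hα
  rw [coeff_pderiv, hG, zero_mul]
  rw [map_add, Finsupp.weight_single, one_smul]
  omega

lemma W_X_mul {Y : ℕ} {G : B m} (hG : G ∈ W e Y) : X none * G ∈ W e (Y + 1) := by
  classical
  intro α hα
  rw [coeff_X_mul']
  split_ifs with h
  · apply hG
    have h1 : Finsupp.single none 1 ≤ α := by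
      rw [Finsupp.single_le_iff]
      exact Nat.pos_of_ne_zero (Finsupp.mem_support_iff.mp h)
    have h2 := congrArg (Finsupp.weight (wv e)) (tsub_add_cancel_of_le h1)
    rw [map_add, Finsupp.weight_single, one_smul] at h2
    have : wv e none = 1 := rfl
    omega
  · rfl

lemma W_pow_mul {Y : ℕ} {G : B m} (hG : G ∈ W e Y) (k : ℕ) : (-X none) ^ k * G ∈ W e (Y + k) := by
  induction k with
  | zero => simpa using hG
  | succ k ih =>
    have := (W e _).neg_mem (W_X_mul ih)
    rw [pow_succ', ← add_assoc]
    convert this using 1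
    ring

lemma der_sum_apply {ι : Type} (s : Finset ι) (D : ι → Derivation ℂ (B m) (B m)) (G : B m) :
    (∑ j ∈ s, D j) G = ∑ j ∈ s, D j G := by
  classical
  induction s using Finset.induction_on with
  | empty => simp
  | insert a s ha ih => rw [Finset.sum_insert ha, Finset.sum_insert ha, Derivation.add_apply, ih]

lemma Dt_none_eq (G : B m) : Dt e Q none G = pderiv none G + (X none * pderiv none G +
    ∑ j, (Q j : ℂ) • ((-X none) ^ e j * pderiv (some j) G)) := by
  have : Dt e Q none = pderiv none + ((X none : B m) • pderiv none +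
      ∑ j, ((C (Q j : ℂ) : B m) * (-X none) ^ e j) • pderiv (some j)) := by
    refine derivation_ext fun o => ?_
    rcases o with _ | i
    · simp [Dt, mkDerivation_X, der_sum_apply]
    · simp only [Dt, mkDerivation_X, Option.elim, Derivation.add_apply, Derivation.smul_apply,
        der_sum_apply]
      rw [Finset.sum_eq_single i]
      · simp
      · intro j _ hj
        rw [pderiv_X_of_ne (by simpa using hj.symm), smul_zero]
      · intro h; exact absurd (Finset.mem_univ _) h
  rw [this]
  simp only [Derivation.add_apply, Derivation.smul_apply, der_sum_apply, smul_eq_mul,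
    smul_eq_C_mul, mul_assoc]

lemma W_rest {Y : ℕ} {G : B m} (hG : G ∈ W e Y) : X none * pderiv none G +
    ∑ j, (Q j : ℂ) • ((-X none) ^ e j * pderiv (some j) G) ∈ W e Y := by
  refine (W e Y).add_mem (W_anti ?_ (W_X_mul (W_pderiv hG none)))
    (Submodule.sum_mem _ fun j _ => Submodule.smul_mem _ _
      (W_anti ?_ (W_pow_mul (W_pderiv hG (some j)) (e j))))
  · have : wv e none = 1 := rfl
    omega
  · have : wv e (some j) = e j := rfl
    omega

lemma W_Dt {Y : ℕ} {G : B m} (hG : G ∈ W e Y) (o : Option (Fin m)) :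
    Dt e Q o G ∈ W e (Y - wv e o) := by
  rcases o with _ | j
  · rw [Dt_none_eq]
    exact (W e _).add_mem (W_pderiv hG none) (W_anti (Nat.sub_le _ _) (W_rest hG))
  · exact W_pderiv hG (some j)

lemma W_word {Y : ℕ} {G : B m} (hG : G ∈ W e Y) (l : List (Option (Fin m))) :
    word (Dt e Q) l G ∈ W e (Y - (l.map (wv e)).sum) := by
  induction l generalizing G Y with
  | nil => simpa using hG
  | cons i l ih =>
    rw [word_cons, List.map_cons, List.sum_cons, ← Nat.sub_sub]
    exact ih (W_Dt hG i)

lemma weight_emb (s : ℕ) (t : Fin m →₀ ℕ) :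
    Finsupp.weight (wv e) (Finsupp.single none s + t.mapDomain some) = s + Finsupp.weight e t := by
  rw [map_add, Finsupp.weight_single]
  congr 1
  · simp [wv]
  · rw [Finsupp.weight_apply, Finsupp.weight_apply,
      Finsupp.sum_mapDomain_index (by simp) (fun _ _ _ => add_smul _ _ _)]
    rfl

lemma coeff_iter (t : Fin m →₀ ℕ) (s : ℕ) : ∀ G : B m, G ∈ W e (s + Finsupp.weight e t) →
    coeff (t.mapDomain some) ((Dt e Q none)^[s] G) =
      s.factorial * coeff (Finsupp.single none s + t.mapDomain some) G := by
  induction s with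
  | zero => intro G _; simp
  | succ s ih =>
    intro G hG
    have h1 : Dt e Q none G ∈ W e (s + Finsupp.weight e t) := by
      have := W_Dt (Q := Q) hG none
      have h : wv e none = 1 := rfl
      exact W_anti (by omega) this
    rw [Function.iterate_succ_apply, ih _ h1, Dt_none_eq, coeff_add,
      W_rest hG _ (by rw [weight_emb]; omega), add_zero, coeff_pderiv]
    have h2 : (Finsupp.single none s + t.mapDomain some : Option (Fin m) →₀ ℕ) none = s := by
      rw [Finsupp.add_apply, Finsupp.single_eq_same, Finsupp.mapDomain_of_notMem_range _ _ (by simp),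
        add_zero]
    have h3 : (Finsupp.single none s + t.mapDomain some + Finsupp.single none 1 :
        Option (Fin m) →₀ ℕ) = Finsupp.single none (s + 1) + t.mapDomain some := by
      rw [Finsupp.single_add]; abel
    rw [h2, h3, Nat.factorial_succ]
    push_cast
    ring

lemma coeff_evP_one (γ : Fin m → ℂ) (t : Fin m →₀ ℕ) (f : B m) :
    coeff t (evP 1 γ f) = coeff (t.mapDomain some) (psi e Q γ f) := by
  rw [← coeff_killCompl (Option.some_injective _)]
  congr 1
  have : evP 1 γ = (killCompl (Option.some_injective (Fin m))).comp (psi e Q γ) := by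
    have h0 : killCompl (R := ℂ) (Option.some_injective (Fin m)) (X none) = 0 := by
      simp [killCompl]
    have h1 : ∀ j, killCompl (R := ℂ) (Option.some_injective (Fin m)) (X (some j)) = X j :=
      fun j => by
        have := killCompl_rename_app (R := ℂ) (Option.some_injective (Fin m)) (X j)
        rwa [rename_X] at this
    refine MvPolynomial.algHom_ext fun o => ?_
    rcases o with _ | j
    · simp [evP, psi, h0]
    · simp [evP, psi, h0, h1, Lg, killCompl_C]
  rw [this]; rfl

lemma eval_eq (γ : Fin m → ℂ) (f : B m) :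
    eval (fun o : Option (Fin m) => o.elim 1 γ) f = coeff 0 (psi e Q γ f) := by
  have : (eval fun o : Option (Fin m) => o.elim 1 γ) =
      (constantCoeff : B m →+* ℂ).comp (psi e Q γ : B m →+* B m) := by
    refine MvPolynomial.ringHom_ext (fun r => by simp [psi]) fun o => ?_
    rcases o with _ | j
    · simp [psi]
    · simp [psi, Lg]
  rw [this]; rfl

/-- The coefficient along the curve. -/
def phi (Q : Fin m → ℕ) (γ : Fin m → ℂ) (t : Fin m →₀ ℕ) (f : B m) (v : ℂ) : ℂ :=
  coeff t (evP (Complex.exp v) (fun j => γ j + Q j * v) f)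

lemma hasDerivAt_phi (γ : Fin m → ℂ) (f : B m) (v : ℂ) : ∀ t : Fin m →₀ ℕ,
    HasDerivAt (phi Q γ t f) (phi Q γ t (Dv (fun j => (Q j : ℂ)) none f) v) v := by
  classical
  induction f using MvPolynomial.induction_on with
  | C a =>
    intro t
    have h1 : phi Q γ t (C a) = fun _ => coeff t (C a : MvPolynomial (Fin m) ℂ) := by
      funext v; simp [phi, evP]
    have h2 : phi Q γ t (Dv (fun j => (Q j : ℂ)) none (C a)) v = 0 := by simp [phi]
    rw [h1, h2]
    exact hasDerivAt_const _ _
  | add p q hp hq =>
    intro t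
    have h1 : ∀ p q : B m, phi Q γ t (p + q) = phi Q γ t p + phi Q γ t q := by
      intro p q; funext v; simp [phi]
    rw [map_add, h1, h1]
    exact (hp t).add (hq t)
  | mul_X p o hp =>
    intro t
    have hadd : ∀ p q : B m, phi Q γ t (p + q) v = phi Q γ t p v + phi Q γ t q v := by
      intro p q; simp [phi]
    rcases o with _ | j
    · have h1 : ∀ p : B m, phi Q γ t (p * X none) = fun v => phi Q γ t p v * Complex.exp v := by
        intro p; funext v
        simp only [phi, map_mul, evP, aeval_X, Option.elim]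
        rw [mul_comm, coeff_C_mul, mul_comm]
      have h2 : Dv (fun j => (Q j : ℂ)) none (p * X none) =
          Dv (fun j => (Q j : ℂ)) none p * X none + p * X none := by
        simp only [Derivation.leibniz, smul_eq_mul, Dv, mkDerivation_X, Option.elim]; ring
      rw [h2, hadd, h1, h1]
      exact (hp t).mul (Complex.hasDerivAt_exp v)
    · have h1 : ∀ p : B m, phi Q γ t (p * X (some j)) = fun v =>
          phi Q γ t p v * (γ j + Q j * v) +
            if j ∈ t.support then phi Q γ (t - Finsupp.single j 1) p v else 0 := by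
        intro p; funext v
        simp only [phi, map_mul, evP, aeval_X, Option.elim]
        rw [mul_add, coeff_add, coeff_mul_X', mul_comm _ (C _), coeff_C_mul, mul_comm]
      have h2 : Dv (fun j => (Q j : ℂ)) none (p * X (some j)) =
          Dv (fun j => (Q j : ℂ)) none p * X (some j) + (Q j : ℂ) • p := by
        simp only [Derivation.leibniz, smul_eq_mul, Dv, mkDerivation_X, Option.elim,
          smul_eq_C_mul]; ring
      have h3 : phi Q γ t ((Q j : ℂ) • p) v = phi Q γ t p v * Q j := by
        simp [phi, mul_comm]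
      rw [h2, hadd, h1, h1, h3]
      have h4 : HasDerivAt (fun v : ℂ => γ j + Q j * v) (Q j : ℂ) v := by
        simpa using ((hasDerivAt_id v).const_mul (Q j : ℂ)).const_add (γ j)
      have h5 := (hp t).mul h4
      by_cases hj : j ∈ t.support
      · simp only [hj, if_true]
        refine (h5.add (hp (t - Finsupp.single j 1))).congr_deriv ?_
        ring
      · simp only [hj, if_false, add_zero]
        exact h5

lemma iteratedDeriv_phi (γ : Fin m → ℂ) (t : Fin m →₀ ℕ) (s : ℕ) : ∀ f : B m,
    iteratedDeriv s (phi Q γ t f) = phi Q γ t ((Dv (fun j => (Q j : ℂ)) none)^[s] f) := by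
  induction s with
  | zero => intro f; simp
  | succ s ih =>
    intro f
    have : deriv (phi Q γ t f) = phi Q γ t (Dv (fun j => (Q j : ℂ)) none f) :=
      funext fun v => (hasDerivAt_phi γ f v t).deriv
    rw [iteratedDeriv_succ', this, ih, Function.iterate_succ_apply]

lemma psi_iter (γ : Fin m → ℂ) (s : ℕ) (f : B m) :
    psi e Q γ ((Dv (fun j => (Q j : ℂ)) none)^[s] f) = (Dt e Q none)^[s] (psi e Q γ f) := by
  induction s generalizing f with
  | zero => rfl
  | succ s ih => rw [Function.iterate_succ_apply, Function.iterate_succ_apply, ih, psi_Dv]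

lemma psi_mem_range (γ : Fin m → GaussianInt) (hQ : ∀ j i, 1 ≤ i → i ≤ e j → i ∣ Q j)
    {P : B m} (hP : ∀ α, ∃ z : ℤ, coeff α P = z) :
    psi e Q (fun j => (γ j : ℂ)) P ∈ (MvPolynomial.map (σ := Option (Fin m))
      GaussianInt.toComplex).range := by
  set S := (MvPolynomial.map (σ := Option (Fin m)) GaussianInt.toComplex).range with hS
  have hC : ∀ z : GaussianInt, (C (z : ℂ) : B m) ∈ S := fun z => ⟨C z, by simp⟩
  have hZ : ∀ z : ℤ, (C (z : ℂ) : B m) ∈ S := fun z => by simpa using hC z
  have hX : ∀ o, (X o : B m) ∈ S := fun o => ⟨X o, by simp⟩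
  have hψ : ∀ o, psi e Q (fun j => (γ j : ℂ)) (X o) ∈ S := by
    intro o
    rcases o with _ | j
    · simpa [psi] using S.add_mem S.one_mem (hX none)
    · simp only [psi, aeval_X, Option.elim]
      refine S.add_mem (S.add_mem (hC _) (S.sum_mem fun i hi => ?_)) (hX _)
      refine S.mul_mem ?_ (S.pow_mem (hX _) _)
      obtain ⟨c, hc⟩ := hQ j (i + 1) (by omega) (by have := Finset.mem_range.mp hi; omega)
      have hi0 : ((i : ℂ) + 1) ≠ 0 := by exact_mod_cast Nat.succ_ne_zero i
      have : (Q j : ℂ) * (-1) ^ i / ((i : ℂ) + 1) = ((c * (-1) ^ i : ℤ) : ℂ) := by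
        rw [hc]; push_cast; field_simp
      rw [this]; exact hZ _
  rw [P.as_sum, map_sum]
  refine S.sum_mem fun α _ => ?_
  obtain ⟨z, hz⟩ := hP α
  rw [monomial_eq, map_mul, hz, Finsupp.prod, map_prod]
  refine S.mul_mem (by simpa [psi] using hZ z) (S.prod_mem fun o _ => ?_)
  rw [map_pow]; exact S.pow_mem (hψ o) _

lemma gauss_eq_zero {z : GaussianInt} (h : ‖(z : ℂ)‖ ≤ 1 / 2) : z = 0 := by
  rw [← GaussianInt.norm_eq_zero]
  have h1 : (z.norm : ℝ) < 1 := by
    rw [GaussianInt.intCast_real_norm, Complex.normSq_eq_norm_sq]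
    nlinarith [norm_nonneg (z : ℂ)]
  have h2 := GaussianInt.norm_nonneg z
  have h3 : z.norm < 1 := by exact_mod_cast h1
  omega

end

end Arith

open Arith in
theorem arithStmt : ArithStmt := by
  intro m e Q γ P H A' _ hQ hP hsmall
  have hint := psi_mem_range (e := e) γ hQ (P := P) fun α => (hP α).imp fun _ h => h.1
  have key : ∀ Y, Y ≤ A' → psi e Q (fun j => (γ j : ℂ)) P ∈ W e Y := by
    intro Y
    induction Y with
    | zero => intro _ α h; exact absurd h (Nat.not_lt_zero _)
    | succ Y ih =>
      intro hY α hα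
      have hW := ih (by omega)
      rcases Nat.lt_or_ge (Finsupp.weight (wv e) α) Y with h | h
      · exact hW α h
      have hα' : α = Finsupp.single none (α none) + (Finsupp.some α).mapDomain some := by
        ext o
        rcases o with _ | j
        · rw [Finsupp.add_apply, Finsupp.single_eq_same,
            Finsupp.mapDomain_of_notMem_range _ _ (by simp), add_zero]
        · rw [Finsupp.add_apply, Finsupp.mapDomain_apply (Option.some_injective _)]
          simp
      set s := α none
      set t := Finsupp.some α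
      have hw : s + Finsupp.weight e t = Y := by
        rw [← weight_emb, ← hα']; omega
      have h1 := coeff_iter (Q := Q) t s _ (hw ▸ hW)
      rw [← psi_iter, ← coeff_evP_one, ← hα'] at h1
      have h2 : iteratedDeriv s (phi Q (fun j => (γ j : ℂ)) t P) 0 =
          s.factorial * coeff α (psi e Q (fun j => (γ j : ℂ)) P) := by
        rw [iteratedDeriv_phi, ← h1]; simp [phi]
      have h3 := Complex.norm_iteratedDeriv_le_of_forall_mem_sphere_norm_le (c := 0) (R := 1)
        (C := 1 / 2) (f := phi Q (fun j => (γ j : ℂ)) t P) s one_pos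
        (Differentiable.diffContOnCl fun v => (hasDerivAt_phi _ P v t).differentiableAt)
        (fun v hv => hsmall t (by omega) v (by simpa using hv))
      rw [h2, norm_mul, Complex.norm_natCast, one_pow, div_one] at h3
      have h4 : ‖coeff α (psi e Q (fun j => (γ j : ℂ)) P)‖ ≤ 1 / 2 :=
        le_of_mul_le_mul_left h3 (by exact_mod_cast s.factorial_pos)
      obtain ⟨G, hG⟩ := hint
      rw [← hG, coeff_map] at h4 ⊢
      rw [gauss_eq_zero h4, map_zero]
  intro l hl
  change eval _ _ = 0
  rw [eval_eq (e := e) (Q := Q), psi_word]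
  exact W_word (key A' le_rfl) l 0 (by rw [map_zero]; omega)

end Crest.Agent.R11
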