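import Crest.Agent.R11.Bound

/-! Row 11: the auxiliary polynomial. -/

set_option autoImplicit false

namespace Crest.Agent.R11

open MvPolynomial Finset BoundA

namespace AuxP

/-- Taylor coefficients of `u ^ r * exp (b * u)`. -/
noncomputable def kap (r b s : ℕ) : ℝ :=
  if r ≤ s then (b : ℝ) ^ (s - r) / (s - r).factorial else 0

theorem kap_nonneg (r b s : ℕ) : 0 ≤ kap r b s := by
  unfold kap; split_ifs <;> positivity

theorem hasSum_C (r b : ℕ) (u : ℂ) :
    HasSum (fun s => (kap r b s : ℂ) * u ^ s) (u ^ r * Complex.exp u ^ b) := by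
  rw [← hasSum_nat_add_iff' r, sum_eq_zero (fun i hi => by
    rw [kap, if_neg (by simpa using hi)]; simp), sub_zero, ← Complex.exp_nat_mul,
    Complex.exp_eq_exp_ℂ]
  refine ((NormedSpace.expSeries_div_hasSum_exp ((b : ℂ) * u)).mul_left (u ^ r)).congr_fun ?_
  intro n
  simp [kap, mul_pow, pow_add]
  ring

theorem hasSum_R (r b : ℕ) (u : ℝ) :
    HasSum (fun s => kap r b s * u ^ s) (u ^ r * Real.exp (b * u)) := by
  have := hasSum_C r b u
  rw [← Complex.hasSum_ofReal]
  convert this using 1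
  · ext; simp
  · simp [Complex.exp_nat_mul]

theorem kap_le (r b s : ℕ) {R : ℝ} (hR : 0 ≤ R) :
    kap r b s * R ^ s ≤ (2 * R) ^ r * Real.exp (b * (2 * R)) := by
  refine le_trans ?_ (le_hasSum (hasSum_R r b (2 * R)) s fun i _ =>
    mul_nonneg (kap_nonneg _ _ _) (by positivity))
  gcongr
  · exact kap_nonneg _ _ _
  · linarith

theorem tail_le (r b S : ℕ) {R : ℝ} {u : ℂ} (hu : ‖u‖ ≤ R) :
    ‖u ^ r * Complex.exp u ^ b - ∑ s ∈ range S, (kap r b s : ℂ) * u ^ s‖ ≤
      (2 * R) ^ r * Real.exp (b * (2 * R)) / 2 ^ S := by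
  have hR : 0 ≤ R := (norm_nonneg _).trans hu
  have h1 := (hasSum_nat_add_iff' S).2 (hasSum_C r b u)
  have h2 := ((hasSum_nat_add_iff' S).2 (hasSum_R r b (2 * R))).div_const (2 ^ S)
  refine (h1.norm_le_of_bounded h2 fun n => ?_).trans ?_
  · rw [norm_mul, Complex.norm_real, Real.norm_eq_abs, abs_of_nonneg (kap_nonneg _ _ _), norm_pow,
      mul_div_assoc]
    refine mul_le_mul_of_nonneg_left ?_ (kap_nonneg _ _ _)
    rw [le_div_iff₀ (by positivity), mul_pow, mul_comm]
    gcongr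
    · norm_num
    · omega
  · gcongr
    exact sub_le_self _ (sum_nonneg fun s _ => mul_nonneg (kap_nonneg _ _ _) (by positivity))

/-- Dirichlet's box principle for nonnegative linear forms. -/
theorem box {ι τ : Type} [Fintype ι] [Fintype τ] (a : τ → ι → ℝ) (H : ℕ) (Z : ℝ)
    (ha : ∀ t i, 0 ≤ a t i) (hZ : ∀ t, ∑ i, H * a t i ≤ Z) (hZ1 : 1 ≤ Z)
    (hc : (2 * Z) ^ Fintype.card τ < ((H : ℝ) + 1) ^ Fintype.card ι) :
    ∃ d : ι → ℤ, d ≠ 0 ∧ (∀ i, |(d i : ℝ)| ≤ H) ∧ ∀ t, |∑ i, d i * a t i| ≤ 1 := by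
  classical
  obtain ⟨c, hc1, c', hc2, hne, he⟩ := exists_ne_map_eq_of_card_lt_of_maps_to
    (s := Fintype.piFinset fun _ : ι => range (H + 1))
    (t := Fintype.piFinset fun _ : τ => range (⌊Z⌋₊ + 1))
    (f := fun c t => ⌊∑ i, (c i : ℝ) * a t i⌋₊) (by
      simp only [Fintype.card_piFinset, card_range, prod_const, card_univ]
      have h1 : ((⌊Z⌋₊ + 1 : ℕ) : ℝ) ≤ 2 * Z := by
        push_cast; linarith [Nat.floor_le (show 0 ≤ Z by linarith)]
      have : (((⌊Z⌋₊ + 1) ^ Fintype.card τ : ℕ) : ℝ) < ((H + 1) ^ Fintype.card ι : ℕ) := by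
        rw [Nat.cast_pow, Nat.cast_pow, Nat.cast_add H, Nat.cast_one]
        exact lt_of_le_of_lt (pow_le_pow_left₀ (by positivity) h1 _) hc
      exact_mod_cast this) (by
      intro c hc
      simp only [mem_coe, Fintype.mem_piFinset, mem_range] at hc ⊢
      intro t
      refine Nat.lt_succ_of_le (Nat.floor_le_floor (le_trans (sum_le_sum fun i _ => ?_) (hZ t)))
      exact mul_le_mul_of_nonneg_right (Nat.cast_le.2 (Nat.le_of_lt_succ (hc i))) (ha t i))
  simp only [Fintype.mem_piFinset, mem_range] at hc1 hc2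
  refine ⟨fun i => (c i : ℤ) - c' i, fun h => hne (funext fun i => ?_), fun i => ?_, fun t => ?_⟩
  · have := congrFun h i
    simp only [Pi.zero_apply] at this
    omega
  · have h1 : (c i : ℝ) ≤ H := Nat.cast_le.2 (Nat.le_of_lt_succ (hc1 i))
    have h2 : (c' i : ℝ) ≤ H := Nat.cast_le.2 (Nat.le_of_lt_succ (hc2 i))
    push_cast
    rw [abs_le]
    constructor <;> linarith [(Nat.cast_nonneg (c i) : (0 : ℝ) ≤ _), (Nat.cast_nonneg (c' i) : (0 : ℝ) ≤ _)]
  · have h0 : ∀ c : ι → ℕ, 0 ≤ ∑ i, (c i : ℝ) * a t i := fun c =>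
      sum_nonneg fun i _ => mul_nonneg (Nat.cast_nonneg _) (ha t i)
    have h1 : (⌊∑ i, (c i : ℝ) * a t i⌋₊ : ℝ) = ⌊∑ i, (c' i : ℝ) * a t i⌋₊ :=
      congrArg Nat.cast (congrFun he t)
    push_cast
    simp only [sub_mul, sum_sub_distrib]
    rw [abs_le]
    constructor <;> linarith [Nat.floor_le (h0 c), Nat.floor_le (h0 c'),
      Nat.lt_floor_add_one (∑ i, (c i : ℝ) * a t i), Nat.lt_floor_add_one (∑ i, (c' i : ℝ) * a t i)]

end AuxP

open AuxP in
theorem auxStmt : AuxStmt := by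
  classical
  intro m ρ e Q R lam x G A A'' S h hρ he hR hlam hG hQ hx hcnt
  have hfin := mon_finite _ (wd_pos hρ he) A
  have hfin' := mon_finite _ he A''
  let _ := hfin.fintype
  let _ := hfin'.fintype
  have hNu : (Mon (wd ρ e) univ A).ncard = Fintype.card (Mon (wd ρ e) univ A) := by
    rw [← Nat.card_coe_set_eq, Nat.card_eq_fintype_card]
  have hNt : (Mon e univ A'').ncard = Fintype.card (Mon e univ A'') := by
    rw [← Nat.card_coe_set_eq, Nat.card_eq_fintype_card]
  have hNu0 : 0 < Fintype.card (Mon (wd ρ e) univ A) :=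
    Fintype.card_pos_iff.2 ⟨⟨0, subset_univ _, by simp⟩⟩
  rw [hNu] at hx hcnt
  rw [hNt] at hcnt
  let ent : (Option (Fin m) →₀ ℕ) → (Fin m →₀ ℕ) → ℝ := fun α t =>
    ∏ j, ((α (some j)).choose (t j) : ℝ) * (Q j : ℝ) ^ (α (some j) - t j)
  let r : (Option (Fin m) →₀ ℕ) → (Fin m →₀ ℕ) → ℕ := fun α t => ∑ j, (α (some j) - t j)
  have hent0 : ∀ α t, 0 ≤ ent α t := fun α t => prod_nonneg fun j _ => by positivity
  have hent : ∀ (α : Mon (wd ρ e) univ A) t, ent α t * ((2 * R) ^ r α t *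
      Real.exp (α.1 none * (2 * R))) ≤ 2 ^ A * Real.exp (lam * A + 2 * R * (A / ρ)) := by
    rintro ⟨α, -, hα⟩ t
    rw [wt_eq] at hα
    have h1 := prod_le he (fun j => α (some j)) t (fun j => 2 * R * Q j) lam
      (fun j => by positivity) hQ A (by omega)
    have h2 : ent α t * (2 * R) ^ r α t =
        ∏ j, ((α (some j)).choose (t j) : ℝ) * (2 * R * Q j) ^ (α (some j) - t j) := by
      simp only [ent, r, ← prod_pow_eq_pow_sum, ← prod_mul_distrib]
      exact prod_congr rfl fun j _ => by rw [mul_pow (2 * R)]; ring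
    have h3 : ((∑ j, (α (some j) - t j) * e j : ℕ) : ℝ) ≤ A := Nat.cast_le.2
      ((sum_le_sum fun j _ => Nat.mul_le_mul_right _ (Nat.sub_le _ _)).trans (by omega))
    have h4 : (α none : ℝ) ≤ A / ρ := by
      rw [le_div_iff₀ (by positivity)]
      exact_mod_cast (by omega : α none * ρ ≤ A)
    rw [← mul_assoc (ent α t), h2, Real.exp_add, ← mul_assoc (2 ^ A : ℝ), mul_comm (2 * R) (A / ρ)]
    gcongr
    exact h1.trans (by gcongr)
  have hsum : ∀ b : Mon (wd ρ e) univ A → ℝ,
      (∀ α, b α ≤ 2 ^ h * (2 ^ A * Real.exp (lam * A + 2 * R * (A / ρ)))) →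
      ∑ α, b α ≤ 2 ^ h * Real.exp x := fun b hb => by
    refine (sum_le_card_nsmul _ _ _ fun α _ => hb α).trans ?_
    rw [nsmul_eq_mul, card_univ, mul_left_comm, ← mul_assoc (Fintype.card _ : ℝ)]
    gcongr
  have hx0 : 0 ≤ x := by
    rw [← Real.one_le_exp_iff]
    refine le_trans ?_ hx
    have h1 : (1 : ℝ) ≤ Fintype.card (Mon (wd ρ e) univ A) := by exact_mod_cast hNu0
    exact one_le_mul_of_one_le_of_one_le (one_le_mul_of_one_le_of_one_le h1
      (one_le_pow₀ (by norm_num))) (Real.one_le_exp (by positivity))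
  obtain ⟨d, hd0, hd1, hd2⟩ := box (ι := Mon (wd ρ e) univ A) (τ := Fin S × Mon e univ A'')
    (fun p α => ent α p.2 * (kap (r α p.2) (α.1 none) p.1 * R ^ (p.1 : ℕ)) * Real.exp G) (2 ^ h)
    (2 ^ h * Real.exp x * Real.exp G)
    (fun p α => mul_nonneg (mul_nonneg (hent0 _ _) (mul_nonneg (kap_nonneg _ _ _) (by positivity)))
      (by positivity))
    (fun p => by
      simp only [← mul_assoc (_ : ℝ) _ (Real.exp G), ← sum_mul]
      gcongr
      refine hsum _ fun α => ?_
      push_cast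
      exact mul_le_mul_of_nonneg_left (le_trans (mul_le_mul_of_nonneg_left
        (kap_le _ _ _ (by linarith)) (hent0 _ _)) (hent α _)) (by positivity))
    (one_le_mul_of_one_le_of_one_le (one_le_mul_of_one_le_of_one_le (one_le_pow₀ (by norm_num))
      (Real.one_le_exp hx0)) (Real.one_le_exp hG))
    (by
      refine lt_of_le_of_lt (b := (2 ^ h) ^ Fintype.card (Mon (wd ρ e) univ A)) ?_
        (pow_lt_pow_left₀ (by simp) (by positivity) hNu0.ne')
      rw [← Real.log_le_log_iff (by positivity) (by positivity), Real.log_pow, Real.log_pow,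
        Real.log_pow, Real.log_mul (by positivity) (by positivity),
        Real.log_mul (by positivity) (by positivity), Real.log_mul (by positivity) (by positivity),
        Real.log_pow, Real.log_exp, Real.log_exp, Fintype.card_prod, Fintype.card_fin]
      linarith)
  have hcoef : ∀ β, coeff β (∑ α : Mon (wd ρ e) univ A, monomial α.1 (d α : ℂ)) =
      if hβ : β ∈ Mon (wd ρ e) univ A then (d ⟨β, hβ⟩ : ℂ) else 0 := by
    intro β
    simp only [coeff_sum, coeff_monomial]
    split_ifs with hβ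
    · rw [sum_eq_single ⟨β, hβ⟩ (fun α _ hα => if_neg fun h => hα (Subtype.ext h)) (by simp),
        if_pos rfl]
    · exact sum_eq_zero fun α _ => if_neg fun h : α.1 = β => hβ (h ▸ α.2)
  refine ⟨∑ α : Mon (wd ρ e) univ A, monomial α.1 (d α : ℂ), fun h0 => hd0 (funext fun α => ?_),
    mem_Deg.2 fun β hβ => ?_, fun β => ?_, fun t ht u hu => ?_⟩
  · have := hcoef α.1
    rw [h0, dif_pos α.2, coeff_zero] at this
    exact Int.cast_eq_zero.1 this.symm
  · by_contra hc
    exact mem_support_iff.1 hβ (by rw [hcoef, dif_neg fun h : β ∈ Mon (wd ρ e) univ A => hc h.2])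
  · rw [hcoef]
    split_ifs with hβ
    · exact ⟨_, rfl, by exact_mod_cast hd1 _⟩
    · exact ⟨0, by simp, by simp⟩
  · have hR0 : (R : ℂ) ≠ 0 := by exact_mod_cast (by linarith : R ≠ 0)
    have h1 : coeff t (evP (Complex.exp u) (fun j => Q j * u)
        (∑ α : Mon (wd ρ e) univ A, monomial α.1 (d α : ℂ))) =
        ∑ s : Fin S, ((∑ α : Mon (wd ρ e) univ A, d α * (ent α t * (kap (r α t) (α.1 none) s *
          R ^ (s : ℕ)) * Real.exp G) : ℝ) : ℂ) * ((Real.exp (-G) : ℝ) * (u / R) ^ (s : ℕ)) +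
        ∑ α : Mon (wd ρ e) univ A, d α * (ent α t : ℂ) * (u ^ r α t * Complex.exp u ^ α.1 none -
          ∑ s ∈ range S, (kap (r α t) (α.1 none) s : ℂ) * u ^ s) := by
      simp only [map_sum, coeff_sum, coeff_evP_monomial, Complex.ofReal_sum, sum_mul]
      rw [sum_comm, ← sum_add_distrib]
      refine sum_congr rfl fun α _ => ?_
      have h2 : ∏ j, ((α.1 (some j)).choose (t j) : ℂ) * (Q j * u) ^ (α.1 (some j) - t j) =
          (ent α t : ℂ) * u ^ r α t := by
        simp only [ent, r, ← prod_pow_eq_pow_sum, Complex.ofReal_prod, ← prod_mul_distrib]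
        exact prod_congr rfl fun j _ => by push_cast; ring
      rw [h2, ← Fin.sum_univ_eq_sum_range (fun s => (kap (r α t) (α.1 none) s : ℂ) * u ^ s),
        mul_sub, mul_sum, eq_comm, add_sub_left_comm, ← sum_sub_distrib, sum_eq_zero]
      · ring
      · intro s _
        push_cast
        rw [Complex.exp_neg, div_pow]
        field_simp
        ring
    rw [h1]
    refine (norm_add_le _ _).trans (add_le_add ?_ ?_)
    · refine (norm_sum_le _ _).trans ((sum_le_card_nsmul _ _ (Real.exp (-G)) fun s _ => ?_).trans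
        (by simp))
      rw [norm_mul, norm_mul, Complex.norm_real, Complex.norm_real, Real.norm_eq_abs,
        Real.norm_eq_abs, abs_of_pos (Real.exp_pos _), norm_pow]
      have h3 : ‖u / R‖ ^ (s : ℕ) ≤ 1 := pow_le_one₀ (norm_nonneg _) (by
        rw [norm_div, Complex.norm_real, Real.norm_eq_abs, abs_of_pos (by linarith)]
        exact div_le_one_of_le₀ hu (by linarith))
      calc _ ≤ 1 * (Real.exp (-G) * 1) := by
            gcongr
            exact hd2 (s, ⟨t, subset_univ _, ht⟩)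
        _ = _ := by ring
    · refine (norm_sum_le _ _).trans ?_
      rw [le_div_iff₀ (by positivity), sum_mul]
      refine hsum _ fun α => ?_
      rw [norm_mul, norm_mul, Complex.norm_intCast, Complex.norm_real, Real.norm_eq_abs,
        abs_of_nonneg (hent0 _ _), mul_assoc, mul_assoc]
      refine mul_le_mul ?_ ?_ (mul_nonneg (hent0 _ _) (by positivity)) (by positivity)
      · exact_mod_cast hd1 α
      · refine le_trans (mul_le_mul_of_nonneg_left ?_ (hent0 _ _)) (hent α t)
        rw [← le_div_iff₀ (by positivity)]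
        exact tail_le _ _ _ hu

end Crest.Agent.R11
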