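import Crest.Agent.R11.Defs

/-! Row 11: Taylor shift and the bound off the curve. -/

set_option autoImplicit false

namespace Crest.Agent.R11

open MvPolynomial Finset

namespace BoundA

theorem shift {m : ℕ} (y : Fin m → ℂ) (a : Fin m → ℕ) (t : Fin m →₀ ℕ) :
    coeff t (∏ j, (C (y j) + X j : MvPolynomial (Fin m) ℂ) ^ a j) =
      ∏ j, ((a j).choose (t j) : ℂ) * y j ^ (a j - t j) := by
  have h : ∀ j, (C (y j) + X j : MvPolynomial (Fin m) ℂ) ^ a j = ∑ i ∈ range (a j + 1),
      monomial (Finsupp.single j i) (((a j).choose i : ℂ) * y j ^ (a j - i)) := by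
    intro j
    rw [add_comm, add_pow]
    refine sum_congr rfl fun i _ => ?_
    rw [X_pow_eq_monomial, ← map_pow, ← map_natCast (C : ℂ →+* MvPolynomial (Fin m) ℂ), mul_assoc,
      ← map_mul, mul_comm, C_mul_monomial, mul_one, mul_comm]
  have h2 : ∀ p : Fin m → ℕ, (∑ j, Finsupp.single j (p j) = t) ↔ p = t := by
    intro p
    have : ∀ i, (∑ j, Finsupp.single j (p j) : Fin m →₀ ℕ) i = p i := fun i => by
      simp [Finsupp.finsetSum_apply, Finsupp.single_apply]
    exact ⟨fun h => funext fun i => by rw [← h, this], fun h => Finsupp.ext fun i => by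
      rw [this, h]⟩
  simp_rw [h, prod_univ_sum, coeff_sum, ← monomial_sum_prod, coeff_monomial, h2]
  rw [sum_ite_eq']
  split_ifs with ht
  · rfl
  · simp only [Fintype.mem_piFinset, mem_range, not_forall] at ht
    obtain ⟨j, hj⟩ := ht
    exact (prod_eq_zero (mem_univ j) (by rw [Nat.choose_eq_zero_of_lt (by omega)]; simp)).symm

theorem coeff_evP_monomial {m : ℕ} (w : ℂ) (z : Fin m → ℂ) (α : Option (Fin m) →₀ ℕ) (c : ℂ)
    (t : Fin m →₀ ℕ) : coeff t (evP w z (monomial α c)) =
      c * w ^ α none * ∏ j, ((α (some j)).choose (t j) : ℂ) * z j ^ (α (some j) - t j) := by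
  rw [evP, aeval_monomial, Finsupp.prod_fintype _ _ (by simp), Fintype.prod_option]
  simp only [Option.elim, algebraMap_eq]
  rw [← map_pow, ← mul_assoc, ← map_mul, coeff_C_mul, shift]

theorem coeff_evP {m : ℕ} (w : ℂ) (z : Fin m → ℂ) (P : MvPolynomial (Option (Fin m)) ℂ)
    (t : Fin m →₀ ℕ) : coeff t (evP w z P) = ∑ α ∈ P.support, coeff α P * w ^ α none *
      ∏ j, ((α (some j)).choose (t j) : ℂ) * z j ^ (α (some j) - t j) := by
  conv_lhs => rw [P.as_sum, map_sum, coeff_sum]
  exact sum_congr rfl fun α _ => coeff_evP_monomial _ _ _ _ _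

theorem coeff_evP_add {m : ℕ} (w : ℂ) (z y : Fin m → ℂ) (P : MvPolynomial (Option (Fin m)) ℂ)
    (t : Fin m →₀ ℕ) : coeff t (evP w (fun j => z j + y j) P) =
      ∑ t' ∈ (evP w z P).support, coeff t' (evP w z P) *
        ∏ j, ((t' j).choose (t j) : ℂ) * y j ^ (t' j - t j) := by
  have h : evP w (fun j => z j + y j) =
      (aeval fun j => (C (y j) + X j : MvPolynomial (Fin m) ℂ)).comp (evP w z) := by
    refine algHom_ext ?_
    rintro (_ | j) <;> simp [evP, add_assoc]
  rw [h, AlgHom.comp_apply]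
  conv_lhs => rw [(evP w z P).as_sum, map_sum, coeff_sum]
  refine sum_congr rfl fun t' _ => ?_
  rw [aeval_monomial, Finsupp.prod_fintype _ _ (by simp), algebraMap_eq, coeff_C_mul, shift]

theorem wt_eq {m : ℕ} (ρ : ℕ) (e : Fin m → ℕ) (α : Option (Fin m) →₀ ℕ) :
    Finsupp.weight (wd ρ e) α = α none * ρ + ∑ j, α (some j) * e j := by
  simp [Finsupp.weight_eq_sum, Fintype.sum_option, wd]

theorem wt_eq' {m : ℕ} (e : Fin m → ℕ) (t : Fin m →₀ ℕ) :
    Finsupp.weight e t = ∑ j, t j * e j := by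
  simp [Finsupp.weight_eq_sum]

theorem mon_finite {σ : Type} [Fintype σ] (w : σ → ℕ) (hw : ∀ i, 1 ≤ w i) (Y : ℕ) :
    (Mon w univ Y).Finite :=
  (Finsupp.finite_of_nat_weight_le w (fun i => by have := hw i; omega) Y).subset fun _ h => h.2

theorem wd_pos {m ρ : ℕ} {e : Fin m → ℕ} (hρ : 1 ≤ ρ) (he : ∀ j, 1 ≤ e j) (o : Option (Fin m)) :
    1 ≤ wd ρ e o := by
  rcases o with _ | j
  · exact hρ
  · exact he j

/-- the basic product bound -/
theorem prod_le {m : ℕ} {e : Fin m → ℕ} (he : ∀ j, 1 ≤ e j) (a t : Fin m → ℕ) (x : Fin m → ℝ)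
    (lam : ℝ) (hx0 : ∀ j, 0 ≤ x j) (hx : ∀ j, x j ≤ Real.exp (lam * e j)) (A : ℕ)
    (hA : ∑ j, a j * e j ≤ A) :
    ∏ j, ((a j).choose (t j) : ℝ) * x j ^ (a j - t j) ≤
      2 ^ A * Real.exp (lam * (∑ j, (a j - t j) * e j : ℕ)) := by
  calc _ ≤ ∏ j, (2 : ℝ) ^ (a j * e j) * Real.exp (lam * ((a j - t j) * e j : ℕ)) := by
        refine prod_le_prod (fun j _ => mul_nonneg (Nat.cast_nonneg _) (pow_nonneg (hx0 j) _))
          fun j _ => mul_le_mul ?_ ?_ (pow_nonneg (hx0 j) _) (by positivity)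
        · exact_mod_cast (Nat.choose_le_two_pow _ _).trans
            (Nat.pow_le_pow_right (by norm_num) (Nat.le_mul_of_pos_right _ (he j)))
        · refine (pow_le_pow_left₀ (hx0 j) (hx j) _).trans_eq ?_
          rw [← Real.exp_nat_mul]; push_cast; ring_nf
    _ = 2 ^ (∑ j, a j * e j) * Real.exp (lam * (∑ j, (a j - t j) * e j : ℕ)) := by
        rw [prod_mul_distrib, prod_pow_eq_pow_sum, ← Real.exp_sum, Nat.cast_sum, mul_sum]
    _ ≤ _ := by gcongr; norm_num

theorem norm_prod_eq {m : ℕ} (a t : Fin m → ℕ) (z : Fin m → ℂ) :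
    ‖∏ j, ((a j).choose (t j) : ℂ) * z j ^ (a j - t j)‖ =
      ∏ j, ((a j).choose (t j) : ℝ) * ‖z j‖ ^ (a j - t j) := by
  simp

theorem sub_wt {m : ℕ} (e a t : Fin m → ℕ) (h : ∀ j, t j ≤ a j) :
    ((∑ j, (a j - t j) * e j : ℕ) : ℝ) = (∑ j, a j * e j : ℕ) - (∑ j, t j * e j : ℕ) := by
  rw [eq_sub_iff_add_eq, ← Nat.cast_add, ← sum_add_distrib]
  congr 1
  exact sum_congr rfl fun j _ => by rw [← add_mul, Nat.sub_add_cancel (h j)]

theorem prod_zero {m : ℕ} (a t : Fin m → ℕ) (z : Fin m → ℂ) (h : ¬ ∀ j, t j ≤ a j) :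
    ∏ j, ((a j).choose (t j) : ℂ) * z j ^ (a j - t j) = 0 := by
  obtain ⟨j, hj⟩ := not_forall.1 h
  exact prod_eq_zero (mem_univ j) (by rw [Nat.choose_eq_zero_of_lt (by omega)]; simp)

end BoundA

open BoundA in
theorem boundStmt : BoundStmt := by
  intro m ρ e lam g H β A A' A'' w z y P hρ he hlam hg hβ hw hz hy hP hI hs t ht
  have hfin := mon_finite _ (wd_pos hρ he) A
  have hH : 0 ≤ H := by obtain ⟨_, -, h⟩ := hI 0; exact (abs_nonneg _).trans h
  have hc : ∀ α, ‖coeff α P‖ ≤ H := fun α => by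
    obtain ⟨x, h1, h2⟩ := hI α
    rw [h1, Complex.norm_intCast]; exact h2
  have hcard : (P.support.card : ℝ) ≤ (Mon (wd ρ e) univ A).ncard := by
    rw [← Set.ncard_coe_finset]
    exact Nat.cast_le.2 (Set.ncard_le_ncard (fun α hα => ⟨subset_univ _, hP hα⟩) hfin)
  have hsupp : ∀ t' ∈ (evP w z P).support, ∑ j, t' j * e j ≤ A := by
    intro t' ht'
    rw [mem_support_iff, coeff_evP] at ht'
    obtain ⟨α, hα, h⟩ := exists_ne_zero_of_sum_ne_zero ht'
    have h1 : ∀ j, t' j ≤ α (some j) := by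
      by_contra hc
      exact h (by rw [prod_zero (fun j => α (some j)) t' z hc, mul_zero])
    have h2 := mem_Deg.1 hP α hα
    rw [wt_eq] at h2
    exact (sum_le_sum fun j _ => Nat.mul_le_mul_right _ (h1 j)).trans (by omega)
  have hcard' : ((evP w z P).support.card : ℝ) ≤ (Mon (wd ρ e) univ A).ncard := by
    rw [← Set.ncard_coe_finset]
    refine Nat.cast_le.2 (Set.ncard_le_ncard_of_injOn
      (fun t' => Finsupp.equivFunOnFinite.symm fun o => o.elim 0 t') (fun t' ht' => ?_)
      (fun a _ b _ h => Finsupp.ext fun j => ?_) hfin)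
    · refine ⟨subset_univ _, ?_⟩
      rw [wt_eq]
      simpa using hsupp t' ht'
    · simpa using DFunLike.congr_fun h (some j)
  have hbig : ∀ t' : Fin m →₀ ℕ, ‖coeff t' (evP w z P)‖ ≤ (Mon (wd ρ e) univ A).ncard * H * 2 ^ A *
      Real.exp (A + lam * (A - (∑ j, t' j * e j : ℕ))) := by
    intro t'
    rw [coeff_evP]
    refine (norm_sum_le _ _).trans ((sum_le_card_nsmul _ _
      (H * 2 ^ A * Real.exp (A + lam * (A - (∑ j, t' j * e j : ℕ)))) ?_).trans ?_)
    · intro α hα
      have h2 := mem_Deg.1 hP α hα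
      rw [wt_eq] at h2
      by_cases h1 : ∀ j, t' j ≤ α (some j)
      · have h3 := prod_le he (fun j => α (some j)) t' (fun j => ‖z j‖) lam (fun _ => norm_nonneg _)
          hz A (by omega)
        rw [sub_wt e _ _ h1] at h3
        have h4 : ‖w‖ ^ α none ≤ Real.exp A := by
          refine (pow_le_pow_left₀ (norm_nonneg _) hw _).trans ?_
          rw [← Real.exp_nat_mul, mul_one]
          have := Nat.le_mul_of_pos_right (α none) hρ
          exact Real.exp_le_exp.2 (Nat.cast_le.2 (by omega))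
        have h5 : ((∑ j, α (some j) * e j : ℕ) : ℝ) ≤ A := Nat.cast_le.2 (by omega)
        rw [norm_mul, norm_mul, norm_pow, norm_prod_eq, Real.exp_add]
        calc _ ≤ H * Real.exp A * (2 ^ A * Real.exp (lam * (A - (∑ j, t' j * e j : ℕ)))) := by
              gcongr
              · exact hc α
              · exact h3.trans (by gcongr)
          _ = _ := by ring
      · rw [prod_zero (fun j => α (some j)) t' z h1, mul_zero, norm_zero]; positivity
    · rw [nsmul_eq_mul, mul_assoc (_ : ℝ) H, mul_assoc (_ : ℝ) (H * _)]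
      gcongr
  rw [coeff_evP_add]
  refine (norm_sum_le _ _).trans ((sum_le_card_nsmul _ _ (2 ^ A * (β + (Mon (wd ρ e) univ A).ncard *
    H * 2 ^ A * Real.exp (A + lam * (A - A'') - g * (A'' - A')))) ?_).trans ?_)
  · intro t' ht'
    by_cases h1 : ∀ j, t j ≤ t' j
    · have h3 := prod_le he t' t (fun j => ‖y j‖) (-g) (fun _ => norm_nonneg _)
        (fun j => by rw [neg_mul]; exact hy j) A (hsupp t' ht')
      rw [norm_mul, norm_prod_eq]
      by_cases h2 : Finsupp.weight e t' ≤ A''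
      · have h4 : Real.exp (-g * (∑ j, (t' j - t j) * e j : ℕ)) ≤ 1 :=
          Real.exp_le_one_iff.2 (mul_nonpos_of_nonpos_of_nonneg (by linarith) (Nat.cast_nonneg _))
        calc _ ≤ β * (2 ^ A * 1) := by
              gcongr
              · exact hs t' h2
              · exact h3.trans (by gcongr)
          _ = 2 ^ A * (β + 0) := by ring
          _ ≤ _ := by gcongr; positivity
      · rw [sub_wt e _ _ h1] at h3
        rw [wt_eq'] at h2 ht
        have h5 : (A'' : ℝ) ≤ (∑ j, t' j * e j : ℕ) := Nat.cast_le.2 (by omega)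
        have h6 : ((∑ j, t j * e j : ℕ) : ℝ) ≤ A' := Nat.cast_le.2 ht
        calc _ ≤ ((Mon (wd ρ e) univ A).ncard * H * 2 ^ A * Real.exp (A + lam * (A - A''))) *
              (2 ^ A * Real.exp (-(g * (A'' - A')))) := by
              gcongr
              · exact (hbig t').trans (by gcongr)
              · refine h3.trans ?_
                rw [neg_mul]
                gcongr
          _ = 2 ^ A * (0 + (Mon (wd ρ e) univ A).ncard * H * 2 ^ A *
              Real.exp (A + lam * (A - A'') - g * (A'' - A'))) := by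
              rw [sub_eq_add_neg (_ + _), Real.exp_add (_ + _)]; ring
          _ ≤ _ := by gcongr
    · rw [prod_zero t' t y h1, mul_zero, norm_zero]; positivity
  · rw [nsmul_eq_mul, ← mul_assoc]
    gcongr

end Crest.Agent.R11
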