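import Crest.Agent.R11.Defs

/-! Row 11: lattice points in a simplex. -/

set_option autoImplicit false

namespace Crest.Agent.R11

open Finset

namespace Cnt

theorem up (x w n : ℕ) : x ^ (n + 1) + (n + 1) * w * x ^ n ≤ (x + w) ^ (n + 1) := by
  induction n with
  | zero => simp
  | succ n ih =>
    calc _ ≤ (x ^ (n + 1) + (n + 1) * w * x ^ n) * (x + w) := by
          ring_nf; omega
      _ ≤ _ := by rw [pow_succ (x + w) (n + 1)]; gcongr

theorem low (x w n : ℕ) : (x + w) ^ (n + 1) ≤ (n + 1) * w * (x + w) ^ n + x ^ (n + 1) := by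
  induction n with
  | zero => simp [add_comm]
  | succ n ih =>
    have h : w * x ^ (n + 1) ≤ w * (x + w) ^ (n + 1) := by gcongr; omega
    calc _ = (x + w) ^ (n + 1) * (x + w) := pow_succ _ _
      _ ≤ ((n + 1) * w * (x + w) ^ n + x ^ (n + 1)) * (x + w) := by gcongr
      _ = (n + 1) * w * (x + w) ^ (n + 1) + w * x ^ (n + 1) + x ^ (n + 1 + 1) := by ring
      _ ≤ (n + 1) * w * (x + w) ^ (n + 1) + w * (x + w) ^ (n + 1) + x ^ (n + 1 + 1) := by gcongr
      _ = _ := by ring

variable {σ : Type} [DecidableEq σ] {w : σ → ℕ} {I : Finset σ} {i : σ}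

theorem split (Y : ℕ) : Mon w (insert i I) Y =
    Mon w I Y ∪ (· + Finsupp.single i 1) '' {α ∈ Mon w (insert i I) (Y - w i) | w i ≤ Y} := by
  ext α
  constructor
  · rintro ⟨h1, h2⟩
    by_cases h : α i = 0
    · refine Or.inl ⟨fun j hj => (mem_insert.1 (h1 hj)).resolve_left ?_, h2⟩
      rintro rfl
      exact Finsupp.mem_support_iff.1 hj h
    · have h3 := Finsupp.weight_sub_single_add (w := w) h
      refine Or.inr ⟨α - Finsupp.single i 1, ⟨⟨Finsupp.support_tsub.trans h1, by omega⟩, by omega⟩,
        tsub_add_cancel_of_le (Finsupp.single_le_iff.2 (by omega))⟩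
  · rintro (⟨h1, h2⟩ | ⟨β, ⟨⟨h1, h2⟩, h3⟩, rfl⟩)
    · exact ⟨h1.trans (subset_insert _ _), h2⟩
    · refine ⟨Finsupp.support_add.trans (union_subset h1 (Finsupp.support_single_subset.trans
        (by simp))), ?_⟩
      rw [map_add, Finsupp.weight_single, one_smul]
      omega

omit [DecidableEq σ] in
theorem disj (hi : i ∉ I) (Y : ℕ) (s : Set (σ →₀ ℕ)) :
    Disjoint (Mon w I Y) ((· + Finsupp.single i 1) '' s) := by
  rw [Set.disjoint_left]
  rintro _ ⟨h1, -⟩ ⟨β, -, rfl⟩
  exact hi (h1 (by simp))

end Cnt

open Cnt in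
theorem cntStmt : CntStmt := by
  classical
  intro σ w I
  induction I using Finset.induction_on with
  | empty =>
    intro _ Y
    have : Mon w ∅ Y = {0} := by
      ext α
      simp only [Mon, subset_empty, Finsupp.support_eq_empty, Set.mem_ofPred_eq,
        Set.mem_singleton_iff, and_iff_left_iff_imp]
      rintro rfl
      simp
    simp [this]
  | insert i I hi ih =>
    intro hw Y
    have hwi := hw i (mem_insert_self _ _)
    replace ih := ih fun j hj => hw j (mem_insert_of_mem hj)
    rw [card_insert_of_notMem hi, prod_insert hi, sum_insert hi]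
    induction Y using Nat.strong_induction_on with
    | _ Y ihY =>
      obtain ⟨h1, h2, h3⟩ := ih Y
      have e : ∀ c, (#I + 1).factorial * (w i * ∏ j ∈ I, w j) * ((Mon w I Y).ncard + c) =
          (#I + 1) * w i * ((#I).factorial * (∏ j ∈ I, w j) * (Mon w I Y).ncard) +
          (#I + 1).factorial * (w i * ∏ j ∈ I, w j) * c := fun c => by
        rw [Nat.factorial_succ]; ring
      have hup := up (Y + ∑ j ∈ I, w j) (w i) #I
      rw [show Y + ∑ j ∈ I, w j + w i = Y + (w i + ∑ j ∈ I, w j) by ring] at hup
      have h2' := Nat.mul_le_mul_left ((#I + 1) * w i) h2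
      have h3' := Nat.mul_le_mul_left ((#I + 1) * w i) h3
      by_cases h : w i ≤ Y
      · obtain ⟨h4, h5, h6⟩ := ihY (Y - w i) (by omega)
        rw [split Y]
        simp only [h, and_true, Set.ofPred_mem_eq]
        rw [Set.ncard_union_eq (disj hi Y _) h1 (h4.image _),
          Set.ncard_image_of_injective _ (add_left_injective _), e]
        have hlow := low (Y - w i + 1) (w i) #I
        rw [show Y - w i + 1 + w i = Y + 1 by omega] at hlow
        rw [show Y - w i + (w i + ∑ j ∈ I, w j) = Y + ∑ j ∈ I, w j by omega] at h6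
        exact ⟨h1.union (h4.image _), by omega, by omega⟩
      · rw [split Y]
        simp only [h, and_false, Set.ofPred_false, Set.image_empty, Set.union_empty]
        have e0 := e 0
        rw [add_zero, mul_zero, add_zero] at e0
        rw [e0]
        refine ⟨h1, le_trans ?_ h2', by omega⟩
        rw [pow_succ']
        gcongr
        nlinarith

end Crest.Agent.R11
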