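import Mathlib

/-!
# Row 11 (S0012): the irrationality exponent of `π` — interface

Polynomials `P(w, z₁, …, z_m)` (variables `none`, `some j`), small along the curve
`u ↦ (e^u, Q₁ u, …, Q_m u)` to a high order in the normal directions, vanish to a high weighted
order at the `K` points `(1, k Q_j · 2 i p_j / q_j)`; a multi-point zero estimate
(a Dyson lemma proved by a Hilbert function argument) gives the contradiction.
-/

set_option autoImplicit false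

namespace Crest.Agent.R11

open MvPolynomial Filter

/-! ## 1. Counting -/

/-- Exponents supported in `I` of weight at most `Y`. -/
def Mon {σ : Type} (w : σ → ℕ) (I : Finset σ) (Y : ℕ) : Set (σ →₀ ℕ) :=
  {α | α.support ⊆ I ∧ Finsupp.weight w α ≤ Y}

/-- Lattice points in a simplex. -/
def CntStmt : Prop :=
  ∀ (σ : Type) (w : σ → ℕ) (I : Finset σ), (∀ i ∈ I, 1 ≤ w i) → ∀ Y : ℕ,
    (Mon w I Y).Finite ∧
    (Y + 1) ^ I.card ≤ I.card.factorial * (∏ i ∈ I, w i) * (Mon w I Y).ncard ∧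
    I.card.factorial * (∏ i ∈ I, w i) * (Mon w I Y).ncard ≤ (Y + ∑ i ∈ I, w i) ^ I.card

/-! ## 2. The abstract Bezout type inequality -/

/-- Comparison of a local and a global Hilbert function. -/
def PhiStmt : Prop :=
  ∀ (A B : Type) [CommRing A] [IsDomain A] [CommRing B] [IsNoetherianRing B] [Algebra ℂ B]
    [Algebra A B] (V : ℕ → Submodule A B) (J : ℕ → Ideal B) (L : Submodule ℂ B) (n : ℕ),
    Monotone V → (∀ N M, ∀ x ∈ V N, ∀ y ∈ V M, x * y ∈ V (N + M)) → (∀ x, ∃ N, x ∈ V N) →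
    (∀ N, (V N).FG) → (∃ C : ℕ, ∀ N, Module.finrank A (V N) ≤ C * (N + 1) ^ n) →
    J 0 = ⊤ → (∀ N M, ∀ x ∈ J N, ∀ y ∈ J M, x * y ∈ J (N + M)) →
    (∀ N, Module.rank A (B ⧸ J N) < Cardinal.aleph0) →
    (∀ f ∈ L, f ∈ V 1 ∧ f ∈ J 1) →
    (∀ q : Ideal B, q.IsPrime → (∀ f ∈ L, f ∈ q) → ∀ c : ℕ, ∀ᶠ N in atTop,
      Module.finrank A (B ⧸ (q ⊔ J (N + c))) ≤
        Module.finrank A ((V N).map (Ideal.Quotient.mkₐ A q).toLinearMap)) →
    ∀ ε > (0 : ℝ), ∀ᶠ N in atTop,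
      (Module.finrank A (B ⧸ J N) : ℝ) ≤ Module.finrank A (V N) + ε * (N : ℝ) ^ n

/-- Finite rank of quotients by ideals containing a power of `p`. -/
def FinStmt : Prop :=
  ∀ (A B : Type) [CommRing A] [IsDomain A] [CommRing B] [IsNoetherianRing B] [Algebra A B]
    (p J : Ideal B) (Y : ℕ), Module.rank A (B ⧸ p) < Cardinal.aleph0 → p ^ Y ≤ J →
    Module.rank A (B ⧸ J) < Cardinal.aleph0

/-! ## 3. Jets -/

section jets

variable {B ι : Type} [CommRing B] [Algebra ℂ B] (E : ι → Derivation ℂ B B) (w : ι → ℕ)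

/-- A word in the derivations, the head of the list being applied first. -/
def word (l : List ι) (f : B) : B := l.foldl (fun g i => E i g) f

@[simp] theorem word_nil (f : B) : word E [] f = f := rfl

@[simp] theorem word_cons (i : ι) (l : List ι) (f : B) : word E (i :: l) f = word E l (E i f) := rfl

theorem word_append (l l' : List ι) (f : B) : word E (l ++ l') f = word E l' (word E l f) :=
  List.foldl_append

theorem word_add (l : List ι) (f g : B) : word E l (f + g) = word E l f + word E l g := by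
  induction l generalizing f g with
  | nil => rfl
  | cons i l ih => simp [ih]

theorem word_smul (l : List ι) (c : ℂ) (f : B) : word E l (c • f) = c • word E l f := by
  induction l generalizing f with
  | nil => rfl
  | cons i l ih => simp [ih]

@[simp] theorem word_zero (l : List ι) : word E l 0 = 0 := by
  induction l with
  | nil => rfl
  | cons i l ih => simp [ih]

theorem word_mul (p : Ideal B) (l : List ι) : ∀ (Y Y' : ℕ) (f g : B),
    (∀ l' : List ι, (l'.map w).sum < Y → word E l' f ∈ p) →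
    (∀ l' : List ι, (l'.map w).sum < Y' → word E l' g ∈ p) →
    (l.map w).sum < Y + Y' → word E l (f * g) ∈ p := by
  induction l with
  | nil =>
    intro Y Y' f g hf hg h
    rcases Nat.eq_zero_or_pos Y with h0 | h0
    · exact p.mul_mem_left _ (hg [] (by simpa [h0] using h))
    · exact p.mul_mem_right _ (hf [] (by simpa using h0))
  | cons i l ih =>
    intro Y Y' f g hf hg h
    rw [word_cons, Derivation.leibniz, word_add, smul_eq_mul, smul_eq_mul, mul_comm g]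
    simp only [List.map_cons, List.sum_cons] at h
    refine p.add_mem (ih Y (Y' - w i) _ _ hf (fun l' hl' => hg (i :: l') ?_) (by omega))
      (ih (Y - w i) Y' _ _ (fun l' hl' => hf (i :: l') ?_) hg (by omega))
    · simp only [List.map_cons, List.sum_cons]; omega
    · simp only [List.map_cons, List.sum_cons]; omega

/-- Elements all of whose derivatives of weight less than `Y` lie in `p`. -/
def Jet (p : Ideal B) (Y : ℕ) : Ideal B where
  carrier := {f | ∀ l : List ι, (l.map w).sum < Y → word E l f ∈ p}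
  zero_mem' := fun l _ => by simp
  add_mem' := fun hf hg l hl => by rw [word_add]; exact p.add_mem (hf l hl) (hg l hl)
  smul_mem' := fun c f hf l hl =>
    word_mul E w p l 0 Y c f (fun _ h => absurd h (Nat.not_lt_zero _)) hf (by omega)

variable {E w} {p : Ideal B}

theorem mem_Jet {Y : ℕ} {f : B} :
    f ∈ Jet E w p Y ↔ ∀ l : List ι, (l.map w).sum < Y → word E l f ∈ p := Iff.rfl

theorem Jet_zero : Jet E w p 0 = ⊤ :=
  eq_top_iff.2 fun _ _ _ h => absurd h (Nat.not_lt_zero _)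

theorem Jet_anti {Y Y' : ℕ} (h : Y ≤ Y') : Jet E w p Y' ≤ Jet E w p Y :=
  fun _ hf l hl => hf l (hl.trans_le h)

theorem Jet_mul {Y Y' : ℕ} {f g : B} (hf : f ∈ Jet E w p Y) (hg : g ∈ Jet E w p Y') :
    f * g ∈ Jet E w p (Y + Y') := fun l hl => word_mul E w p l Y Y' f g hf hg hl

theorem Jet_le {Y : ℕ} (h : 0 < Y) : Jet E w p Y ≤ p := fun _ hf => hf [] (by simpa using h)

theorem Jet_word {Y : ℕ} {f : B} (hf : f ∈ Jet E w p Y) (l : List ι) :
    word E l f ∈ Jet E w p (Y - (l.map w).sum) := fun l' hl' => by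
  rw [← word_append]
  exact hf _ (by rw [List.map_append, List.sum_append]; omega)

theorem Jet_der {Y : ℕ} {f : B} (hf : f ∈ Jet E w p Y) (i : ι) :
    E i f ∈ Jet E w p (Y - w i) := by simpa using Jet_word hf [i]

theorem mem_Jet_of {Y : ℕ} {f : B} (h0 : f ∈ p) (h : ∀ i, E i f ∈ Jet E w p (Y - w i)) :
    f ∈ Jet E w p Y := by
  rintro (_ | ⟨i, l⟩) hl
  · exact h0
  · simp only [List.map_cons, List.sum_cons] at hl
    exact h i l (by omega)

theorem le_Jet_one (hw : ∀ i, 1 ≤ w i) : p ≤ Jet E w p 1 := fun _ hf =>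
  mem_Jet_of hf fun i => by rw [Nat.sub_eq_zero_of_le (hw i), Jet_zero]; trivial

theorem pow_le_Jet (hw : ∀ i, 1 ≤ w i) (Y : ℕ) : p ^ Y ≤ Jet E w p Y := by
  induction Y with
  | zero => rw [Jet_zero]; exact le_top
  | succ Y ih =>
    rw [pow_succ, Ideal.mul_le]
    exact fun f hf g hg => Jet_mul (ih hf) (le_Jet_one hw hg)

end jets

/-- `g` is a system of elements of `p` dual to the derivations `E i`, `i ∈ I`, modulo `p`. -/
def DualSys {B ι : Type} [CommRing B] [Algebra ℂ B] [DecidableEq ι] (E : ι → Derivation ℂ B B)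
    (p : Ideal B) (I : Finset ι) (g : ι → B) (Δ : B) : Prop :=
  Δ ∉ p ∧ (∀ i ∈ I, g i ∈ p) ∧ ∀ i ∈ I, ∀ i' ∈ I, E i' (g i) - (if i = i' then Δ else 0) ∈ p

/-- Monomials in a dual system are independent modulo the jet ideal. -/
def LowStmt : Prop :=
  ∀ (A B ι : Type) [CommRing A] [CommRing B] [Algebra ℂ B] [Algebra A B] [DecidableEq ι]
    (E : ι → Derivation ℂ B B) (w : ι → ℕ) (p : Ideal B), p.IsPrime →
    (∀ a : A, algebraMap A B a ∈ p → a = 0) →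
    ∀ (I : Finset ι) (g : ι → B) (Δ : B), DualSys E p I g Δ → ∀ Y : ℕ,
      LinearIndependent A fun α : Mon w I Y =>
        Ideal.Quotient.mk (Jet E w p (Y + 1)) (α.1.prod fun i k => g i ^ k)

/-! ## 4. Polynomial rings -/

/-- Polynomials of weighted degree at most `Y`. -/
noncomputable def Deg {σ : Type} (δ : σ → ℕ) (Y : ℕ) : Submodule ℂ (MvPolynomial σ ℂ) :=
  restrictSupport ℂ {α | Finsupp.weight δ α ≤ Y}

theorem mem_Deg {σ : Type} {δ : σ → ℕ} {Y : ℕ} {f : MvPolynomial σ ℂ} :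
    f ∈ Deg δ Y ↔ ∀ α ∈ f.support, Finsupp.weight δ α ≤ Y := Iff.rfl

/-- The variables in `J` are algebraically independent modulo `p`. -/
def Indep {σ : Type} (p : Ideal (MvPolynomial σ ℂ)) (J : Finset σ) : Prop :=
  ∀ R ∈ supported ℂ (J : Set σ), R ∈ p → R = 0

/-- Multiplicity estimate along an isolated prime. -/
def MultStmt : Prop :=
  ∀ (σ : Type) [Fintype σ] [DecidableEq σ]
    (E : σ → Derivation ℂ (MvPolynomial σ ℂ) (MvPolynomial σ ℂ)) (w δ : σ → ℕ),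
    (∀ i, 1 ≤ w i) → (∀ i, 1 ≤ δ i) →
    ∀ (p : Ideal (MvPolynomial σ ℂ)) (L : Submodule ℂ (MvPolynomial σ ℂ)) (A a : ℕ), 1 ≤ A → 1 ≤ a →
    p ∈ (Ideal.span (L : Set (MvPolynomial σ ℂ))).minimalPrimes →
    (∀ f ∈ L, f ∈ Deg δ A ∧ f ∈ Jet E w p a) →
    ∀ J : Finset σ, Indep p J → (∀ s ∉ J, ¬ Indep p (insert s J)) →
    ∀ (I : Finset σ) (g : σ → MvPolynomial σ ℂ) (Δ : MvPolynomial σ ℂ), DualSys E p I g Δ →
      I.card ≤ Jᶜ.card ∧
      (I.card = Jᶜ.card → a ^ I.card * ∏ j ∈ Jᶜ, δ j ≤ A ^ I.card * ∏ i ∈ I, w i)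

/-- Valuation weights. -/
def wv {m : ℕ} (e : Fin m → ℕ) : Option (Fin m) → ℕ := fun o => o.elim 1 e

/-- Degree weights. -/
def wd {m : ℕ} (ρ : ℕ) (e : Fin m → ℕ) : Option (Fin m) → ℕ := fun o => o.elim ρ e

/-- Rapidly increasing weights. -/
def Fast {m : ℕ} (Γ : ℕ) (e : Fin m → ℕ) : Prop :=
  ∀ j, Γ * ∏ i ∈ Finset.univ.filter (· < j), e i ≤ e j

/-- `I` is a set of coordinates mapping `N` isomorphically. -/
def Valid {κ σ : Type} [Field κ] (N : Submodule κ (σ → κ)) (I : Finset σ) : Prop :=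
  (∀ n ∈ N, (∀ i ∈ I, n i = 0) → n = 0) ∧ I.card = Module.finrank κ N

/-- The linear algebra behind the product theorem. `N'` is the conormal space in the coordinates
`∂_w, ∂_j`, and `N` the same in the coordinates `u ∂_w + ∑ c_j ∂_j, ∂_j`. -/
def LinStmt : Prop :=
  ∀ (κ : Type) [Field κ] (m : ℕ) (N N' : Submodule κ (Option (Fin m) → κ)) (u : κ)
    (c : Fin m → κ) (e : Fin m → ℕ) (ρ Γ A a : ℕ), u ≠ 0 →
    (∀ n, n ∈ N ↔ ∃ n' ∈ N', n none = u * n' none + ∑ j, c j * n' (some j) ∧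
      ∀ j, n (some j) = n' (some j)) →
    2 ≤ Γ → Fast Γ e → 1 ≤ a → a ≤ A → A < a * ρ → A ^ (m + 1) < Γ * a ^ (m + 1) →
    (∀ I I', Valid N I → Valid N' I' →
      a ^ I.card * ∏ j ∈ I', wd ρ e j ≤ A ^ I.card * ∏ i ∈ I, wv e i) →
    (∃ I, Valid N' I ∧ none ∉ I ∧ ∀ n ∈ N, ∀ s ∉ I, n s = 0) ∨
    (∃ I, Valid N' I ∧ none ∈ I ∧ (∃ j, some j ∈ I) ∧ ∀ n ∈ N', ∀ s ∉ I, n s = 0)

/-- The invariant derivations: `w ∂_w + ∑ c_j ∂_j` and `∂_j`. -/
noncomputable def Dv {m : ℕ} (c : Fin m → ℂ) : Option (Fin m) →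
    Derivation ℂ (MvPolynomial (Option (Fin m)) ℂ) (MvPolynomial (Option (Fin m)) ℂ)
  | none => mkDerivation ℂ fun o => o.elim (X none) fun j => C (c j)
  | some j => pderiv (some j)

/-- Structure of a prime along which a linear system vanishes to high order. -/
def StructStmt : Prop :=
  ∀ (m : ℕ) (c : Fin m → ℂ) (e : Fin m → ℕ) (ρ Γ A a : ℕ), (∀ j, c j ≠ 0) →
    2 ≤ Γ → Fast Γ e → 1 ≤ a → a ≤ A → A < a * ρ → A ^ (m + 1) < Γ * a ^ (m + 1) →
    ∀ (p : Ideal (MvPolynomial (Option (Fin m)) ℂ))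
      (L : Submodule ℂ (MvPolynomial (Option (Fin m)) ℂ)),
    p ∈ (Ideal.span (L : Set (MvPolynomial (Option (Fin m)) ℂ))).minimalPrimes →
    (∀ f ∈ L, f ∈ Deg (wd ρ e) A ∧ f ∈ Jet (Dv c) (wv e) p a) → p ≠ ⊥ → X none ∉ p →
    (∃ x : ℂ, X none - C x ∈ p) ∧ ∃ (j : Fin m) (x : ℂ), X (some j) - C x ∈ p

/-- The maximal ideal of the point `(1, γ)`. -/
noncomputable def mx {m : ℕ} (γ : Fin m → ℂ) : Ideal (MvPolynomial (Option (Fin m)) ℂ) :=
  RingHom.ker (eval fun o : Option (Fin m) => o.elim 1 γ)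

/-- Primes through a point containing all derivatives of small weight. -/
def ChainStmt : Prop :=
  ∀ (m : ℕ) (c : Fin m → ℂ) (e : Fin m → ℕ) (ρ Γ A a : ℕ), (∀ j, c j ≠ 0) →
    2 ≤ Γ → Fast Γ e → 1 ≤ a → a ≤ A → A < a * ρ → A ^ (m + 1) < Γ * a ^ (m + 1) →
    ∀ P : MvPolynomial (Option (Fin m)) ℂ, P ≠ 0 → P ∈ Deg (wd ρ e) A →
    ∀ (q : Ideal (MvPolynomial (Option (Fin m)) ℂ)) (γ : Fin m → ℂ), q.IsPrime → q ≤ mx γ →
    P ∈ Jet (Dv c) (wv e) q ((m + 1) * a + 1) →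
    X none - 1 ∈ q ∧ ∃ j : Fin m, X (some j) - C (γ j) ∈ q

/-- The zero estimate. -/
def ZeroStmt : Prop :=
  ∀ (m : ℕ) (c : Fin m → ℂ) (e : Fin m → ℕ) (ρ Γ A a : ℕ), (∀ j, c j ≠ 0) →
    2 ≤ Γ → Fast Γ e → 1 ≤ a → a ≤ A → A < a * ρ → A ^ (m + 1) < Γ * a ^ (m + 1) →
    ∀ P : MvPolynomial (Option (Fin m)) ℂ, P ≠ 0 → P ∈ Deg (wd ρ e) A →
    ∀ (K A' : ℕ) (γ : Fin K → Fin m → ℂ), (∀ j, Function.Injective fun k => γ k j) → A' ≤ A →
    (∀ k, P ∈ Jet (Dv c) (wv e) (mx (γ k)) A') →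
    K * ρ * (A' - (m + 1) * a) ^ (m + 1) ≤ A ^ (m + 1)

/-! ## 5. Analysis and arithmetic -/

/-- `P(w, z + n)` as a polynomial in `n`. -/
noncomputable def evP {m : ℕ} (w : ℂ) (z : Fin m → ℂ) :
    MvPolynomial (Option (Fin m)) ℂ →ₐ[ℂ] MvPolynomial (Fin m) ℂ :=
  aeval fun o => o.elim (C w) fun j => C (z j) + X j

/-- Integer coefficients bounded by `H`. -/
def IntBd {σ : Type} (P : MvPolynomial σ ℂ) (H : ℝ) : Prop :=
  ∀ α, ∃ z : ℤ, coeff α P = z ∧ |(z : ℝ)| ≤ H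

/-- Small values force vanishing. -/
def ArithStmt : Prop :=
  ∀ (m : ℕ) (e Q : Fin m → ℕ) (γ : Fin m → GaussianInt) (P : MvPolynomial (Option (Fin m)) ℂ)
    (H : ℝ) (A' : ℕ), (∀ j, 1 ≤ e j) → (∀ j i, 1 ≤ i → i ≤ e j → i ∣ Q j) → IntBd P H →
    (∀ t : Fin m →₀ ℕ, Finsupp.weight e t < A' → ∀ v : ℂ, ‖v‖ = 1 →
      ‖coeff t (evP (Complex.exp v) (fun j => (γ j : ℂ) + Q j * v) P)‖ ≤ 1 / 2) →
    P ∈ Jet (Dv fun j => (Q j : ℂ)) (wv e) (mx fun j => (γ j : ℂ)) A'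

/-- The auxiliary polynomial. -/
def AuxStmt : Prop :=
  ∀ (m ρ : ℕ) (e Q : Fin m → ℕ) (R lam x G : ℝ) (A A'' S h : ℕ), 1 ≤ ρ → (∀ j, 1 ≤ e j) →
    1 ≤ R → 0 ≤ lam → 0 ≤ G → (∀ j, 2 * R * Q j ≤ Real.exp (lam * e j)) →
    ((Mon (wd ρ e) Finset.univ A).ncard * 2 ^ A * Real.exp (lam * A + 2 * R * (A / ρ)) ≤
      Real.exp x) →
    ((S * (Mon e Finset.univ A'').ncard : ℕ) * ((h + 1) * Real.log 2 + x + G) ≤
      h * (Mon (wd ρ e) Finset.univ A).ncard * Real.log 2) →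
    ∃ P : MvPolynomial (Option (Fin m)) ℂ, P ≠ 0 ∧ P ∈ Deg (wd ρ e) A ∧ IntBd P (2 ^ h) ∧
      ∀ t : Fin m →₀ ℕ, Finsupp.weight e t ≤ A'' → ∀ u : ℂ, ‖u‖ ≤ R →
        ‖coeff t (evP (Complex.exp u) (fun j => Q j * u) P)‖ ≤
          S * Real.exp (-G) + 2 ^ h * Real.exp x / 2 ^ S

/-- Moving off the curve. -/
def BoundStmt : Prop :=
  ∀ (m ρ : ℕ) (e : Fin m → ℕ) (lam g H β : ℝ) (A A' A'' : ℕ) (w : ℂ) (z y : Fin m → ℂ)
    (P : MvPolynomial (Option (Fin m)) ℂ), 1 ≤ ρ → (∀ j, 1 ≤ e j) → 0 ≤ lam → 0 ≤ g → 0 ≤ β →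
    ‖w‖ ≤ Real.exp 1 → (∀ j, ‖z j‖ ≤ Real.exp (lam * e j)) →
    (∀ j, ‖y j‖ ≤ Real.exp (-(g * e j))) → P ∈ Deg (wd ρ e) A → IntBd P H →
    (∀ t : Fin m →₀ ℕ, Finsupp.weight e t ≤ A'' → ‖coeff t (evP w z P)‖ ≤ β) →
    ∀ t : Fin m →₀ ℕ, Finsupp.weight e t ≤ A' →
      ‖coeff t (evP w (fun j => z j + y j) P)‖ ≤
        (Mon (wd ρ e) Finset.univ A).ncard * 2 ^ A * (β + (Mon (wd ρ e) Finset.univ A).ncard *
          H * 2 ^ A * Real.exp (A + lam * (A - A'') - g * (A'' - A')))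

end Crest.Agent.R11
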