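import Crest.Agent.R11.Defs

/-! Row 11: choice of the parameters. -/

set_option autoImplicit false

namespace Crest.Agent.R11

open MvPolynomial Filter Topology

namespace Fin'

theorem ev_sq (C r : ℝ) (hC : 0 < C) (hr : 0 < r) (hr1 : r < 1) :
    ∀ᶠ m : ℕ in atTop, C * ((m : ℝ) + 1) ^ 2 * r ^ m < 1 := by
  have h := tendsto_pow_const_mul_const_pow_of_abs_lt_one 2 (r := r) (by rwa [abs_of_pos hr])
  have h2 := (h.comp (tendsto_add_atTop_nat 1)).eventually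
    (gt_mem_nhds (show (0 : ℝ) < r / C by positivity))
  filter_upwards [h2] with m hm
  simp only [Function.comp, Nat.cast_add, Nat.cast_one] at hm
  rw [lt_div_iff₀ hC, pow_succ r] at hm
  by_contra hc
  push Not at hc
  nlinarith

theorem exists_m (D c : ℕ) (θ θ₂ : ℝ) (hD : 1 ≤ D) (hc : 1 ≤ c) (hθ : 0 < θ) (hθ1 : θ < 1)
    (h2 : θ ^ 2 < θ₂) :
    ∃ m ρ : ℕ, c * ((m : ℝ) + 1) * ρ * θ ^ m ≤ 1 ∧ 2 * D * (m + 1) ≤ ρ ∧
      1 < (ρ : ℝ) ^ 2 * θ₂ ^ (m + 1) := by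
  have hθ₂ : 0 < θ₂ := lt_of_le_of_lt (sq_nonneg _) h2
  have hc' : (0 : ℝ) < c := by exact_mod_cast hc
  have hD' : (0 : ℝ) < D := by exact_mod_cast hD
  obtain ⟨m, h3, h4⟩ := ((ev_sq (2 * D * c) θ (by positivity) hθ hθ1).and
    (ev_sq (4 * c ^ 2 / θ₂) (θ ^ 2 / θ₂) (by positivity) (by positivity)
      ((div_lt_one hθ₂).2 h2))).exists
  set z : ℝ := c * ((m : ℝ) + 1) * θ ^ m with hz
  have hz0 : 0 < z := by positivity
  have h5 : 2 * D * (m + 1) ≤ ⌊1 / z⌋₊ := by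
    refine Nat.le_floor ?_
    rw [le_div_iff₀ hz0]
    push_cast
    nlinarith
  refine ⟨m, ⌊1 / z⌋₊, ?_, h5, ?_⟩
  · have := Nat.floor_le (a := 1 / z) (by positivity)
    rw [le_div_iff₀ hz0] at this
    nlinarith
  · have h6 : (1 : ℝ) ≤ ⌊1 / z⌋₊ := by
      have : 1 ≤ ⌊1 / z⌋₊ := le_trans (by nlinarith) h5
      exact_mod_cast this
    have h7 := Nat.lt_floor_add_one (1 / z)
    rw [div_lt_iff₀ hz0] at h7
    have h8 : 1 ≤ 2 * z * ⌊1 / z⌋₊ := by nlinarith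
    have h9 : 4 * z ^ 2 < θ₂ ^ (m + 1) := by
      have : 4 * c ^ 2 / θ₂ * ((m : ℝ) + 1) ^ 2 * (θ ^ 2 / θ₂) ^ m = 4 * z ^ 2 / θ₂ ^ (m + 1) := by
        rw [hz, div_pow, ← pow_mul, mul_comm 2 m, pow_mul]
        field_simp
        ring
      rwa [this, div_lt_one (by positivity)] at h4
    calc (1 : ℝ) ≤ (2 * z * ⌊1 / z⌋₊) ^ 2 := one_le_pow₀ h8
      _ = (⌊1 / z⌋₊ : ℝ) ^ 2 * (4 * z ^ 2) := by ring
      _ < _ := by gcongr

theorem ev_exp (n c : ℕ) : ∀ᶠ A : ℕ in atTop, ((A : ℝ) + c) ^ n ≤ Real.exp A := by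
  have h := (Real.tendsto_pow_mul_exp_neg_atTop_nhds_zero n).comp
    (tendsto_atTop_add_const_right atTop (c : ℝ) tendsto_natCast_atTop_atTop)
  filter_upwards [h.eventually (gt_mem_nhds (Real.exp_pos (-c)))] with A hA
  simp only [Function.comp] at hA
  rw [neg_add, Real.exp_add, ← mul_assoc, mul_lt_iff_lt_one_left (Real.exp_pos _), Real.exp_neg,
    ← div_eq_mul_inv, div_lt_one (Real.exp_pos _)] at hA
  exact hA.le

theorem exists_seq {α : Type} (good : α → Prop) (e : α → ℕ) (h : ∀ b, ∃ x, good x ∧ b ≤ e x)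
    (Γ E₀ m : ℕ) : ∃ f : Fin m → α, (∀ j, good (f j) ∧ E₀ ≤ e (f j)) ∧ Fast Γ fun j => e (f j) := by
  choose F hF hF' using h
  let pr : ℕ → ℕ := fun n => Nat.rec 1 (fun _ x => x * e (F (Γ * x + E₀))) n
  have hpr : ∀ n, pr n = ∏ i ∈ Finset.range n, e (F (Γ * pr i + E₀)) := by
    intro n
    induction n with
    | zero => rfl
    | succ n ih => rw [Finset.prod_range_succ, ← ih]
  refine ⟨fun j => F (Γ * pr j + E₀), fun j => ⟨hF _, le_trans (by omega) (hF' _)⟩, fun j => ?_⟩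
  have : ∏ i ∈ Finset.univ.filter (· < j), e (F (Γ * pr (i : Fin m) + E₀)) = pr j := by
    rw [hpr j]
    refine Finset.prod_nbij (fun i => (i : ℕ))
      (fun a ha => Finset.mem_range.2 (Finset.mem_filter.1 ha).2) (fun a _ b _ h => Fin.ext h) ?_
      fun _ _ => rfl
    intro i hi
    have hi' : i < j := by simpa using hi
    exact ⟨⟨i, hi'.trans j.2⟩, Finset.mem_coe.2 (Finset.mem_filter.2 ⟨Finset.mem_univ _, hi'⟩), rfl⟩
  rw [this]
  exact le_trans (by omega) (hF' _)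

theorem log_lcm (n : ℕ) : (Nat.lcmUpto n : ℝ) ≤ Real.exp (6 * n) := by
  have h1 := Chebyshev.psi_le_const_mul_self (x := n) (Nat.cast_nonneg n)
  rw [Chebyshev.psi_eq_log_lcmUpto] at h1
  have h2 : Real.log 4 ≤ 2 := by
    rw [show (4 : ℝ) = 2 ^ 2 by norm_num, Real.log_pow]
    have := Real.log_two_lt_d9
    norm_num at this ⊢
    linarith
  rw [← Real.log_le_iff_le_exp (by exact_mod_cast Nat.lcmUpto_pos n)]
  nlinarith [(Nat.cast_nonneg n : (0 : ℝ) ≤ n)]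

theorem two_pow_le (k : ℕ) : (2 : ℝ) ^ k ≤ Real.exp k := by
  rw [← mul_one (k : ℝ), Real.exp_nat_mul]
  gcongr
  linarith [Real.add_one_le_exp 1]

theorem num_bound (l A Nu : ℕ) (ex : ℝ) (hl : (120 : ℝ) ≤ l) (hA : 40 * (l : ℝ) ≤ A)
    (hNu : (Nu : ℝ) ≤ Real.exp A) (hA2 : (A : ℝ) ^ 2 ≤ Real.exp A) (hex : ex ≤ -(24 * A)) :
    (Nu : ℝ) * 2 ^ A * (((40 * l * A : ℕ) * Real.exp (-(4 * A)) +
      2 ^ (10 * A) * Real.exp ((17 * l + 9) * A) / 2 ^ (40 * l * A)) +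
      Nu * 2 ^ (10 * A) * 2 ^ A * Real.exp ex) ≤ 1 / 2 := by
  have hA0 : (0 : ℝ) < A := by linarith
  have hlog := Real.log_two_gt_d9
  have hS : ((40 * l * A : ℕ) : ℝ) ≤ Real.exp A := by
    refine le_trans ?_ hA2
    push_cast; nlinarith
  have h2S : Real.exp (27 * l * A) ≤ (2 : ℝ) ^ (40 * l * A) := by
    rw [← Real.exp_log (show (0 : ℝ) < 2 ^ (40 * l * A) by positivity), Real.log_pow]
    refine Real.exp_le_exp.2 ?_
    push_cast
    nlinarith [mul_pos (show (0 : ℝ) < l by linarith) hA0]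
  have hfin : Real.exp (-(A : ℝ)) ≤ 1 / 6 := by
    rw [Real.exp_neg, one_div]
    exact inv_anti₀ (by norm_num) (by linarith [Real.add_one_le_exp (A : ℝ)])
  have e1 : Real.exp A * Real.exp A * (Real.exp A * Real.exp (-(4 * A))) = Real.exp (-A) := by
    simp only [← Real.exp_add]; congr 1; ring
  have e2 : Real.exp A * Real.exp A * (Real.exp (10 * A : ℕ) * Real.exp ((17 * l + 9) * A) /
      Real.exp (27 * l * A)) ≤ Real.exp (-A) := by
    simp only [← Real.exp_add, ← Real.exp_sub]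
    gcongr; push_cast; nlinarith
  have e3 : Real.exp A * Real.exp A * (Real.exp A * Real.exp (10 * A : ℕ) * Real.exp A *
      Real.exp (-(24 * A))) ≤ Real.exp (-A) := by
    simp only [← Real.exp_add]
    gcongr; push_cast; nlinarith
  calc _ ≤ Real.exp A * Real.exp A * ((Real.exp A * Real.exp (-(4 * A)) +
        Real.exp (10 * A : ℕ) * Real.exp ((17 * l + 9) * A) / Real.exp (27 * l * A)) +
        Real.exp A * Real.exp (10 * A : ℕ) * Real.exp A * Real.exp (-(24 * A))) := by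
        gcongr
        all_goals exact two_pow_le _
    _ ≤ _ := by rw [mul_add, mul_add, e1]; linarith

theorem num_ex (ν l D D₂ x' M E A A'' A' : ℝ) (hx : 2 * ν - 1 ≤ (x' + 2) * (ν - 2))
    (hD : D = D₂ + 2 * x' + 3) (hl : l = 40 * D) (hD₂ : 0 ≤ D₂) (hx' : 0 ≤ x') (hM : 0 ≤ M)
    (hA : A = D * M) (hA'' : A'' + E = (D₂ + x' + 1) * M) (hA' : A' = (D₂ + 1) * M)
    (hE : (l + 7 + ((ν - 1) * l - 7)) * E ≤ A) :
    A + (l + 7) * (A - A'') - ((ν - 1) * l - 7) * (A'' - A') ≤ -(24 * A) := by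
  have h5 : (l + 7) * (x' + 2) - ((ν - 1) * l - 7) * x' ≤ -(26 * D) := by
    have h6 : l * 1 ≤ l * ((ν - 1) * x' - (x' + 2)) :=
      mul_le_mul_of_nonneg_left (by linarith) (by linarith)
    linarith
  have h6 := mul_le_mul_of_nonneg_right h5 hM
  have h7 : A + (l + 7) * (A - A'') - ((ν - 1) * l - 7) * (A'' - A') =
      A + (l + 7 + ((ν - 1) * l - 7)) * E + ((l + 7) * (x' + 2) - ((ν - 1) * l - 7) * x') * M := by
    rw [eq_sub_of_add_eq hA'', hA', hA, hD]; ring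
  rw [h7]; linarith

theorem approx (ν : ℝ) (hν : 2 < ν) (l K : ℕ) (hl : (1 : ℝ) ≤ l) (p : ℤ) (q e : ℕ) (hq : 1 ≤ q)
    (h : |Real.pi - (p : ℝ) / (q : ℝ)| < 1 / (q : ℝ) ^ ν) (he : e = ⌈Real.log q / l⌉₊)
    (he' : 16 * K + ⌈(ν - 1) * l⌉₊ ≤ e) :
    p ≠ 0 ∧ 1 ≤ e ∧ 2 * (8 * (K : ℝ)) * (q * Nat.lcmUpto e : ℕ) ≤ Real.exp ((l + 7) * e) ∧
      ∀ k : ℕ, k ≤ K → ∀ v : ℂ, ‖(2 * k * Nat.lcmUpto e * p * Complex.I + (q * Nat.lcmUpto e : ℕ) * v -
        (q * Nat.lcmUpto e : ℕ) * (k * (2 * Real.pi * Complex.I) + v) : ℂ)‖ ≤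
        Real.exp (-(((ν - 1) * l - 7) * e)) := by
  have he0 : 16 * (K : ℝ) + (ν - 1) * l ≤ e := by
    have h1 : ((16 * K + ⌈(ν - 1) * l⌉₊ : ℕ) : ℝ) ≤ e := by exact_mod_cast he'
    push_cast at h1
    linarith [Nat.le_ceil ((ν - 1) * l)]
  have hνl : 1 ≤ (ν - 1) * l := by nlinarith
  have hK : (0 : ℝ) ≤ K := Nat.cast_nonneg K
  have hq0 : (1 : ℝ) ≤ q := by exact_mod_cast hq
  have hq1 : Real.log q ≤ l * e := by
    have := Nat.le_ceil (Real.log q / l)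
    rwa [div_le_iff₀ (by linarith), mul_comm, ← he] at this
  have hq2 : l * (e - 1) ≤ Real.log q := by
    have := (Nat.ceil_lt_add_one (a := Real.log q / l)
      (div_nonneg (Real.log_nonneg hq0) (by linarith))).le
    rwa [← sub_le_iff_le_add, le_div_iff₀ (by linarith), mul_comm, ← he] at this
  have hKe : 16 * (K : ℝ) ≤ Real.exp (e - (ν - 1) * l) := by
    linarith [Real.add_one_le_exp (e - (ν - 1) * l)]
  refine ⟨fun h0 => ?_, ?_, ?_, fun k hk v => ?_⟩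
  · rw [h0] at h
    have h2 : 1 / (q : ℝ) ^ ν ≤ 1 :=
      div_le_one_of_le₀ (Real.one_le_rpow hq0 (by linarith)) (by positivity)
    have h3 := Real.pi_gt_three
    simp only [Int.cast_zero, zero_div, sub_zero] at h
    linarith [le_abs_self Real.pi]
  · have : (1 : ℝ) ≤ e := by linarith
    exact_mod_cast this
  · have h1 : (q : ℝ) ≤ Real.exp (l * e) := by
      rw [← Real.log_le_iff_le_exp (by linarith)]; exact hq1
    have h2 := hKe.trans (Real.exp_le_exp.2 (show e - (ν - 1) * l ≤ e by linarith))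
    calc _ = 16 * (K : ℝ) * (q * Nat.lcmUpto e) := by push_cast; ring
      _ ≤ Real.exp e * (Real.exp (l * e) * Real.exp (6 * e)) := by
          gcongr; exact log_lcm _
      _ = _ := by rw [← Real.exp_add, ← Real.exp_add]; congr 1; ring
  · have hq' : (q : ℂ) ≠ 0 := by exact_mod_cast (by omega : q ≠ 0)
    have hk' : (k : ℝ) ≤ K := by exact_mod_cast hk
    have h1 : (2 * k * Nat.lcmUpto e * p * Complex.I + (q * Nat.lcmUpto e : ℕ) * v -
        (q * Nat.lcmUpto e : ℕ) * (k * (2 * Real.pi * Complex.I) + v) : ℂ) =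
        ((-(2 * k * Nat.lcmUpto e * q * (Real.pi - p / q)) : ℝ) : ℂ) * Complex.I := by
      push_cast
      field_simp
      ring
    rw [h1, norm_mul, Complex.norm_I, mul_one, Complex.norm_real, Real.norm_eq_abs, abs_neg,
      abs_mul, abs_of_nonneg (by positivity)]
    have h2 : (q : ℝ) * (1 / (q : ℝ) ^ ν) = Real.exp ((1 - ν) * Real.log q) := by
      rw [mul_comm (1 - ν), ← Real.rpow_def_of_pos (by linarith), Real.rpow_sub (by linarith),
        Real.rpow_one, mul_one_div]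
    calc _ ≤ 16 * K * Real.exp (6 * e) * q * (1 / (q : ℝ) ^ ν) := by
          gcongr
          · linarith
          · exact log_lcm _
      _ ≤ Real.exp (e - (ν - 1) * l) * Real.exp (6 * e) * Real.exp ((1 - ν) * (l * (e - 1))) := by
          rw [mul_assoc _ (q : ℝ), h2]
          gcongr ?_ * _ * Real.exp ?_
          nlinarith
      _ = _ := by rw [← Real.exp_add, ← Real.exp_add]; congr 1; ring

theorem cnt_ineq (c m ρ A Nt Nu Pe Z : ℕ) (hρ : 0 < ρ) (hPe : 0 < Pe)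
    (h2 : c * (m + 1) * ρ * Z ^ m ≤ A ^ m) (ht2 : m.factorial * Pe * Nt ≤ Z ^ m)
    (hu1 : (A + 1) ^ (m + 1) ≤ (m + 1).factorial * (ρ * Pe) * Nu) : c * A * Nt ≤ Nu := by
  refine Nat.le_of_mul_le_mul_left (c := (m + 1).factorial * (ρ * Pe)) ?_ (by positivity)
  calc _ = A * (c * (m + 1) * ρ * (m.factorial * Pe * Nt)) := by
        rw [Nat.factorial_succ]; ring
    _ ≤ A * A ^ m := Nat.mul_le_mul_left _ (le_trans (Nat.mul_le_mul_left _ ht2) h2)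
    _ ≤ (A + 1) ^ (m + 1) := by rw [← pow_succ']; gcongr; omega
    _ ≤ _ := hu1

theorem aux_ineq (l A Nt Nu : ℕ) (hl : (120 : ℝ) ≤ l) (hA : 40 * (l : ℝ) ≤ A)
    (h : 120 * l ^ 2 * A * Nt ≤ Nu) :
    ((40 * l * A * Nt : ℕ) : ℝ) * ((((10 * A : ℕ) : ℝ) + 1) * Real.log 2 + (17 * l + 9) * A + 4 * A) ≤
      (10 * A : ℕ) * Nu * Real.log 2 := by
  have hlog := Real.log_two_gt_d9
  have hlog' := Real.log_two_lt_d9
  have h1 : (120 : ℝ) * l ^ 2 * A * Nt ≤ Nu := by exact_mod_cast h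
  have h2 : (((10 * A : ℕ) : ℝ) + 1) * Real.log 2 + (17 * l + 9) * A + 4 * A ≤ 18 * l * A := by
    push_cast; nlinarith
  calc _ ≤ ((40 * l * A * Nt : ℕ) : ℝ) * (18 * l * A) := by gcongr
    _ = 6 * A * (120 * l ^ 2 * A * Nt) := by push_cast; ring
    _ ≤ 6 * A * Nu := by gcongr
    _ = (10 * A : ℕ) * Nu * (6 / 10) := by push_cast; ring
    _ ≤ _ := by gcongr; linarith

theorem last (D D₂ m ρ K N : ℕ) (hD : 0 < D) (hN : 0 < N) (hK : ρ ≤ K) (hm2 : 2 * D * (m + 1) ≤ ρ)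
    (hm3 : 1 < (ρ : ℝ) ^ 2 * ((D₂ : ℝ) / D) ^ (m + 1))
    (hz : K * ρ * ((D₂ + 1) * ρ * N - (m + 1) * (2 * D * N)) ^ (m + 1) ≤ (D * ρ * N) ^ (m + 1)) :
    False := by
  have hρ : 0 < ρ := lt_of_lt_of_le (by positivity) hm2
  have h1 : D₂ * (ρ * N) ≤ (D₂ + 1) * ρ * N - (m + 1) * (2 * D * N) := by
    refine Nat.le_sub_of_add_le ?_
    nlinarith [Nat.mul_le_mul_right N hm2]
  have h2 : ρ ^ 2 * D₂ ^ (m + 1) * (ρ * N) ^ (m + 1) ≤ D ^ (m + 1) * (ρ * N) ^ (m + 1) := by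
    calc _ = ρ * ρ * (D₂ * (ρ * N)) ^ (m + 1) := by rw [mul_pow D₂]; ring
      _ ≤ K * ρ * ((D₂ + 1) * ρ * N - (m + 1) * (2 * D * N)) ^ (m + 1) := by gcongr
      _ ≤ _ := by rw [← mul_pow, ← mul_assoc D]; exact hz
  have h3 : ((ρ : ℝ)) ^ 2 * (D₂ : ℝ) ^ (m + 1) ≤ D ^ (m + 1) := by
    exact_mod_cast Nat.le_of_mul_le_mul_right h2 (by positivity)
  rw [div_pow, ← mul_div_assoc, lt_div_iff₀ (by positivity)] at hm3
  linarith

theorem params (ν : ℝ) (hν : 2 < ν) : ∃ x' D₂ D l m ρ : ℕ, 2 * ν - 1 ≤ (x' + 2) * (ν - 2) ∧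
    D = D₂ + 2 * x' + 3 ∧ l = 40 * D ∧
    (∀ M, 120 * l ^ 2 * (m + 1) * ρ * ((D₂ + x' + 1) * M) ^ m ≤ (D * M) ^ m) ∧
    2 * D * (m + 1) ≤ ρ ∧ 1 < (ρ : ℝ) ^ 2 * ((D₂ : ℝ) / D) ^ (m + 1) := by
  obtain ⟨x, hx⟩ := exists_nat_ge ((2 * ν - 1) / (ν - 2))
  rw [div_le_iff₀ (by linarith)] at hx
  have hx2 : 2 ≤ x := by
    have : (2 : ℝ) ≤ x := by nlinarith
    exact_mod_cast this
  obtain ⟨x', rfl⟩ : ∃ x', x = x' + 2 := ⟨x - 2, by omega⟩
  obtain ⟨D₂, hD₂⟩ : ∃ D₂, D₂ = (x' + 1) ^ 2 + 1 := ⟨_, rfl⟩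
  obtain ⟨D, hD⟩ : ∃ D, D = D₂ + 2 * x' + 3 := ⟨_, rfl⟩
  have hD0 : (0 : ℝ) < D := by rw [hD]; positivity
  have hD₂' : (D₂ : ℝ) = (x' + 1) ^ 2 + 1 := by exact_mod_cast hD₂
  have hDr : (D : ℝ) = D₂ + 2 * x' + 3 := by exact_mod_cast hD
  obtain ⟨m, ρ, hm1, hm2, hm3⟩ := exists_m D (120 * (40 * D) ^ 2) ((D₂ + x' + 1 : ℕ) / D) (D₂ / D)
    (by omega) (Nat.one_le_iff_ne_zero.2 (by rw [hD]; positivity)) (by positivity)
    (by rw [div_lt_one hD0]; exact_mod_cast (by omega)) (by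
      rw [div_pow, div_lt_div_iff₀ (by positivity) hD0]
      have : ((D₂ + x' + 1 : ℕ) : ℝ) ^ 2 < D₂ * D := by rw [hDr]; push_cast; nlinarith
      nlinarith)
  refine ⟨x', D₂, D, _, m, ρ, by exact_mod_cast hx, hD, rfl, fun M => ?_, hm2, hm3⟩
  have h1 : (120 * (40 * D) ^ 2 : ℕ) * ((m : ℝ) + 1) * ρ * (((D₂ + x' + 1) * M : ℕ) : ℝ) ^ m ≤
      ((D * M : ℕ) : ℝ) ^ m := by
    have : (((D₂ + x' + 1) * M : ℕ) : ℝ) = ((D₂ + x' + 1 : ℕ) / D) * (D * M : ℕ) := by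
      push_cast; field_simp
    rw [this, mul_pow _ ((D * M : ℕ) : ℝ), ← mul_assoc]
    exact mul_le_of_le_one_left (by positivity) hm1
  exact_mod_cast h1

end Fin'

open Fin' in
theorem final_of (hC : CntStmt) (hZ : ZeroStmt) (hA : ArithStmt) (hX : AuxStmt) (hB : BoundStmt)
    (ν : ℝ) (hν : 2 < ν) :
    ∃ Q : ℕ, ∀ (p : ℤ) (q : ℕ), Q ≤ q → 1 / (q : ℝ) ^ ν ≤ |Real.pi - (p : ℝ) / (q : ℝ)| := by
  by_contra hcon
  push Not at hcon
  obtain ⟨x', D₂, D, l, m, ρ, hx, hD, hl, hm1, hm2, hm3⟩ := params ν hν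
  have hD0 : 0 < D := by omega
  have hρ2 : 2 ≤ ρ := le_trans (Nat.le_mul_of_pos_right 2 (show 0 < D * (m + 1) by positivity))
    (by rwa [← mul_assoc])
  have hρ0 : (0 : ℝ) < ρ := by positivity
  have hl0 : (120 : ℝ) ≤ l := by exact_mod_cast (by omega : 120 ≤ l)
  obtain ⟨K, hK⟩ : ∃ K, K = l * ρ := ⟨_, rfl⟩
  have hKρ : ρ ≤ K := hK ▸ Nat.le_mul_of_pos_left _ (by omega)
  have hK0 : (1 : ℝ) ≤ K := by exact_mod_cast (by omega : 1 ≤ K)
  -- approximations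
  obtain ⟨f, hf, hfast⟩ := exists_seq
    (fun z : ℤ × ℕ => 1 ≤ z.2 ∧ |Real.pi - (z.1 : ℝ) / (z.2 : ℝ)| < 1 / (z.2 : ℝ) ^ ν)
    (fun z => ⌈Real.log z.2 / l⌉₊) (fun b => by
      obtain ⟨p, q, h1, h2⟩ := hcon (⌈Real.exp (l * b)⌉₊ + 1)
      refine ⟨(p, q), ⟨le_trans (Nat.le_add_left _ _) h1, h2⟩, ?_⟩
      have h3 : Real.exp (l * b) ≤ q :=
        (Nat.le_ceil _).trans (Nat.cast_le.2 (le_trans (Nat.le_add_right _ _) h1))
      have h4 : (b : ℝ) ≤ Real.log q / l := by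
        rw [le_div_iff₀ (by linarith), Real.le_log_iff_exp_le ((Real.exp_pos _).trans_le h3),
          mul_comm]
        exact h3
      exact_mod_cast h4.trans (Nat.le_ceil _))
    (ρ ^ (m + 1)) (16 * K + ⌈(ν - 1) * l⌉₊) m
  obtain ⟨e, he⟩ : ∃ e : Fin m → ℕ, e = fun j => ⌈Real.log (f j).2 / l⌉₊ := ⟨_, rfl⟩
  rw [← he] at hfast
  have hap := fun j => approx ν hν l K (by linarith) (f j).1 (f j).2 (e j) (hf j).1.1 (hf j).1.2
    (by rw [he]) (by rw [he]; exact (hf j).2)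
  have he1 : ∀ j, 1 ≤ e j := fun j => (hap j).2.1
  let Q : Fin m → ℕ := fun j => (f j).2 * Nat.lcmUpto (e j)
  have hQ1 : ∀ j, 2 * (8 * (K : ℝ)) * Q j ≤ Real.exp ((l + 7) * e j) := fun j => (hap j).2.2.1
  have hg0 : 0 ≤ (ν - 1) * l - 7 := by
    have := mul_le_mul_of_nonneg_right (show 1 ≤ ν - 1 by linarith) (show (0 : ℝ) ≤ l by linarith)
    linarith
  -- the degree
  obtain ⟨E, hE⟩ : ∃ E, E = ∑ j, e j := ⟨_, rfl⟩
  obtain ⟨N₀, hN⟩ := eventually_atTop.1 ((ev_exp (m + 1) (ρ + E)).and ((ev_exp 2 0).and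
    (eventually_ge_atTop (40 * l + ⌈(l + 7 + ((ν - 1) * l - 7)) * E⌉₊ + E))))
  obtain ⟨N, hN4⟩ : ∃ N, N = N₀ + E + 1 := ⟨_, rfl⟩
  obtain ⟨A, hAdef⟩ : ∃ A, A = D * ρ * N := ⟨_, rfl⟩
  obtain ⟨hN1, hN2, hN3⟩ := hN A
    (le_trans (by omega) (hAdef ▸ Nat.le_mul_of_pos_left N (by positivity)))
  have hA1 : 40 * (l : ℝ) ≤ A := by exact_mod_cast (by omega : 40 * l ≤ A)
  have hA2 : (l + 7 + ((ν - 1) * l - 7)) * E ≤ A :=
    (Nat.le_ceil _).trans (Nat.cast_le.2 (by omega))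
  have hA0 : (0 : ℝ) < A := by linarith
  obtain ⟨A'', hA''⟩ : ∃ A'', A'' + E = (D₂ + x' + 1) * (ρ * N) :=
    ⟨_, Nat.sub_add_cancel (le_trans (by omega)
      (mul_assoc (D₂ + x' + 1) ρ N ▸ Nat.le_mul_of_pos_left N (by positivity)))⟩
  have hwd : ∀ o, 1 ≤ wd ρ e o := by
    rintro (_ | j)
    · exact le_trans (by norm_num) hρ2
    · exact he1 j
  obtain ⟨-, hu1, hu2⟩ := hC _ (wd ρ e) Finset.univ (fun o _ => hwd o) A
  obtain ⟨-, -, ht2⟩ := hC _ e Finset.univ (fun j _ => he1 j) A''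
  simp only [Finset.card_univ, Fintype.card_option, Fintype.card_fin, Fintype.prod_option,
    Fintype.sum_option, wd, Option.elim, ← hE, hA''] at hu1 hu2 ht2
  have hPe : 0 < ∏ j, e j := Finset.prod_pos fun j _ => he1 j
  have hNu1 : ((Mon (wd ρ e) Finset.univ A).ncard : ℝ) ≤ Real.exp A := by
    refine le_trans ?_ hN1
    exact_mod_cast le_trans (Nat.le_mul_of_pos_left _ (by positivity)) hu2
  have hNu2 := cnt_ineq (120 * l ^ 2) m ρ A _ _ _ _ (by omega) hPe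
    (by rw [hAdef, mul_assoc D]; exact hm1 (ρ * N)) ht2 hu1
  obtain ⟨P, hP0, hPd, hPi, hPs⟩ := hX m ρ e Q (8 * K) (l + 7) ((17 * l + 9) * A) (4 * A) A A''
    (40 * l * A) (10 * A) (by omega) he1 (by linarith) (by linarith) (by linarith) hQ1 (by
      have : 2 * (8 * (K : ℝ)) * (A / ρ) = 16 * l * A := by
        rw [hK]; push_cast; field_simp; ring
      rw [this]
      calc _ ≤ Real.exp A * Real.exp A * Real.exp ((l + 7) * A + 16 * l * A) := by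
            gcongr; exact two_pow_le A
        _ = _ := by rw [← Real.exp_add, ← Real.exp_add]; congr 1; ring)
    (aux_ineq l A _ _ hl0 hA1 hNu2)
  -- vanishing at the points
  let γ : Fin K → Fin m → GaussianInt := fun k j =>
    ⟨0, 2 * (k : ℕ) * Nat.lcmUpto (e j) * (f j).1⟩
  have hγ : ∀ k j, (γ k j : ℂ) =
      2 * (k : ℕ) * Nat.lcmUpto (e j) * (f j).1 * Complex.I := fun k j => by
    rw [GaussianInt.toComplex_def]; simp [γ]
  have hvan : ∀ k, P ∈ Jet (Dv fun j => (Q j : ℂ)) (wv e) (mx fun j => (γ k j : ℂ))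
      ((D₂ + 1) * ρ * N) := by
    intro k
    refine hA m e Q (γ k) P _ _ he1 (fun j i h1 h2 => Dvd.dvd.mul_left
      (Finset.dvd_lcm (f := id) (Finset.mem_Icc.2 ⟨h1, h2⟩)) _) hPi fun t ht v hv => ?_
    have hk : ((k : ℕ) : ℝ) ≤ K := by exact_mod_cast k.2.le
    obtain ⟨u, hu⟩ : ∃ u : ℂ, u = (k : ℕ) * (2 * Real.pi * Complex.I) + v := ⟨_, rfl⟩
    have hu1 : Complex.exp u = Complex.exp v := by
      rw [hu, Complex.exp_add, Complex.exp_nat_mul_two_pi_mul_I, one_mul]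
    have hu2 : ‖u‖ ≤ 8 * K := by
      rw [hu]
      refine (norm_add_le _ _).trans ?_
      have h0 := Real.pi_pos
      simp only [hv, norm_mul, Complex.norm_natCast, Complex.norm_ofNat, Complex.norm_real,
        Real.norm_eq_abs, abs_of_pos h0, Complex.norm_I]
      have := mul_le_mul hk Real.pi_lt_d2.le h0.le (by linarith)
      linarith
    have hb := hB m ρ e (l + 7) ((ν - 1) * l - 7) _ _ A ((D₂ + 1) * ρ * N) A'' (Complex.exp u)
      (fun j => Q j * u) (fun j => (γ k j : ℂ) + Q j * v - Q j * u) P (by omega) he1 (by linarith)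
      hg0 (by positivity) (by
        rw [hu1, Complex.norm_exp]
        exact Real.exp_le_exp.2 ((Complex.re_le_norm v).trans hv.le))
      (fun j => by
        refine le_trans ?_ (hQ1 j)
        rw [norm_mul, Complex.norm_natCast, mul_comm]
        exact mul_le_mul_of_nonneg_right (by linarith) (Nat.cast_nonneg _))
      (fun j => by rw [hγ, hu]; exact (hap j).2.2.2 k k.2.le v)
      hPd hPi (fun t ht => hPs t ht u hu2) t ht.le
    simp only [add_sub_cancel, hu1] at hb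
    refine hb.trans (num_bound l A _ _ hl0 hA1 hNu1 (by simpa using hN2) ?_)
    exact num_ex ν l D D₂ x' (ρ * N) E A A'' _ hx (by exact_mod_cast hD) (by exact_mod_cast hl)
      (by positivity) (by positivity) (by positivity) (by rw [hAdef]; push_cast; ring)
      (by exact_mod_cast hA'') (by push_cast; ring) hA2
  -- the zero estimate
  have hN0 : 0 < N := by omega
  have ha : A < 2 * D * N * ρ := by
    have h1 : 0 < D * ρ * N := by positivity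
    calc A < 2 * (D * ρ * N) := by omega
      _ = _ := by ring
  refine last D D₂ m ρ K N hD0 hN0 hKρ hm2 hm3 (hAdef ▸ hZ m (fun j => (Q j : ℂ)) e ρ (ρ ^ (m + 1))
    A (2 * D * N) (fun j => ?_) (le_trans hρ2 (Nat.le_self_pow (by omega) _)) hfast
    (Nat.one_le_iff_ne_zero.2 (by positivity)) ?_ ha ?_ P hP0 hPd K ((D₂ + 1) * ρ * N)
    (fun k j => (γ k j : ℂ)) (fun j k k' h => ?_) ?_ hvan)
  · exact Nat.cast_ne_zero.2 (mul_ne_zero (by have := (hf j).1.1; omega) (Nat.lcmUpto_ne_zero _))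
  · rw [hAdef, mul_comm 2 D]; gcongr
  · rw [← mul_pow, mul_comm ρ]
    exact Nat.pow_lt_pow_left ha (by omega)
  · simp only [hγ] at h
    have h1 : (Nat.lcmUpto (e j) : ℂ) ≠ 0 := Nat.cast_ne_zero.2 (Nat.lcmUpto_ne_zero _)
    have h2 : ((f j).1 : ℂ) ≠ 0 := Int.cast_ne_zero.2 (hap j).1
    have h3 := mul_left_cancel₀ two_ne_zero
      (mul_right_cancel₀ h1 (mul_right_cancel₀ h2 (mul_right_cancel₀ Complex.I_ne_zero h)))
    exact Fin.ext (Nat.cast_injective h3)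
  · rw [hAdef]; gcongr; omega

end Crest.Agent.R11
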