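import Crest.Agent.R11.Defs

/-!
# Row 11: the linear algebra behind the product theorem
-/

set_option autoImplicit false

namespace Crest.Agent.R11

open Finset

namespace Lin

section valid

variable {κ σ : Type} [Field κ] [Fintype σ] [DecidableEq σ] {N : Submodule κ (σ → κ)}

/-- Projection to the coordinates in `I`. -/
def pr (N : Submodule κ (σ → κ)) (I : Finset σ) : N →ₗ[κ] (I → κ) where
  toFun n i := n.1 i.1
  map_add' _ _ := rfl
  map_smul' _ _ := rfl

omit [Fintype σ] [DecidableEq σ] in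
theorem pr_inj {I : Finset σ} (h : ∀ n ∈ N, (∀ i ∈ I, n i = 0) → n = 0) :
    Function.Injective (pr N I) := by
  rw [injective_iff_map_eq_zero]
  intro n hn
  exact Subtype.ext (h n.1 n.2 fun i hi => congrFun hn ⟨i, hi⟩)

theorem exists_dual {I : Finset σ} (h : Valid N I) {i : σ} (hi : i ∈ I) :
    ∃ n ∈ N, n i = 1 ∧ ∀ i' ∈ I, i' ≠ i → n i' = 0 := by
  have hs : Function.Surjective (pr N I) :=
    (LinearMap.injective_iff_surjective_of_finrank_eq_finrank (by simp [h.2])).1 (pr_inj h.1)
  obtain ⟨n, hn⟩ := hs (Pi.single ⟨i, hi⟩ 1)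
  refine ⟨n.1, n.2, ?_, fun i' hi' hne => ?_⟩
  · simpa [pr] using congrFun hn ⟨i, hi⟩
  · have := congrFun hn ⟨i', hi'⟩
    rw [Pi.single_eq_of_ne (by simpa using hne)] at this
    exact this

omit [Fintype σ] in
theorem exchange {I : Finset σ} (h : Valid N I) {i j : σ} (hi : i ∈ I) (hj : j ∉ I) {n : σ → κ}
    (hn : n ∈ N) (h1 : n i = 1) (h0 : ∀ i' ∈ I, i' ≠ i → n i' = 0) (hnj : n j ≠ 0) :
    Valid N (insert j (I.erase i)) := by
  refine ⟨fun v hv hz => ?_, ?_⟩
  · have e : v - v i • n = 0 := by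
      refine h.1 _ (N.sub_mem hv (N.smul_mem _ hn)) fun i' hi' => ?_
      by_cases hne : i' = i
      · simp [hne, h1]
      · simp [h0 i' hi' hne, hz i' (mem_insert_of_mem (mem_erase.2 ⟨hne, hi'⟩))]
    have e2 := congrFun e j
    simp only [Pi.sub_apply, Pi.smul_apply, smul_eq_mul, Pi.zero_apply,
      hz j (mem_insert_self _ _), zero_sub, neg_eq_zero, mul_eq_zero, hnj, or_false] at e2
    rwa [e2, zero_smul, sub_zero] at e
  · rw [card_insert_of_notMem (fun hm => hj (mem_of_mem_erase hm)), card_erase_add_one hi, h.2]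

theorem vanish {I : Finset σ} (h : Valid N I)
    (hx : ∀ i ∈ I, ∀ j ∉ I, ¬Valid N (insert j (I.erase i))) : ∀ n ∈ N, ∀ s ∉ I, n s = 0 := by
  intro v hv s hs
  choose! d hd using fun i (hi : i ∈ I) => exists_dual h hi
  have e : v - ∑ i ∈ I, v i • d i = 0 := by
    refine h.1 _ (N.sub_mem hv (N.sum_mem fun i hi => N.smul_mem _ (hd i hi).1)) fun i' hi' => ?_
    simp only [Pi.sub_apply, Finset.sum_apply, Pi.smul_apply, smul_eq_mul]
    rw [sum_eq_single_of_mem i' hi' fun i hi hne => by rw [(hd i hi).2.2 i' hi' hne.symm, mul_zero],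
      (hd i' hi').2.1, mul_one, sub_self]
  have e2 := congrFun e s
  simp only [Pi.sub_apply, Finset.sum_apply, Pi.smul_apply, smul_eq_mul, Pi.zero_apply] at e2
  rw [sum_eq_zero fun i hi => ?_, sub_zero] at e2
  · exact e2
  · by_contra hc
    exact hx i hi s hs (exchange h hi hs (hd i hi).1 (hd i hi).2.1 (hd i hi).2.2
      (right_ne_zero_of_mul hc))

theorem exists_valid (N : Submodule κ (σ → κ)) : ∃ I, Valid N I := by
  classical
  obtain ⟨I, hI, hmin⟩ := exists_min_image
    ((univ : Finset (Finset σ)).filter fun I => ∀ n ∈ N, (∀ i ∈ I, n i = 0) → n = 0) card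
    ⟨univ, mem_filter.2 ⟨mem_univ _, fun n _ h => funext fun i => h i (mem_univ _)⟩⟩
  have h1 := (mem_filter.1 hI).2
  refine ⟨I, h1, le_antisymm ?_ ?_⟩
  · have hd : ∀ i ∈ I, ∃ n ∈ N, n i = 1 ∧ ∀ i' ∈ I, i' ≠ i → n i' = 0 := by
      intro i hi
      have : ¬∀ n ∈ N, (∀ i' ∈ I.erase i, n i' = 0) → n = 0 := fun hc => by
        have h2 := hmin (I.erase i) (mem_filter.2 ⟨mem_univ _, hc⟩)
        have h3 := card_erase_lt_of_mem hi
        omega
      push Not at this
      obtain ⟨n, hn, hz, hne⟩ := this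
      have hni : n i ≠ 0 := fun h0 => hne (h1 n hn fun i' hi' => by
        by_cases e : i' = i
        · rw [e, h0]
        · exact hz i' (mem_erase.2 ⟨e, hi'⟩))
      refine ⟨(n i)⁻¹ • n, N.smul_mem _ hn, by simp [hni], fun i' hi' e => ?_⟩
      simp [hz i' (mem_erase.2 ⟨e, hi'⟩)]
    choose! d hd using hd
    have hs : Function.Surjective (pr N I) := by
      intro y
      refine ⟨⟨∑ i : I, y i • d i.1, N.sum_mem fun i _ => N.smul_mem _ (hd i.1 i.2).1⟩, ?_⟩
      funext i'
      simp only [pr, LinearMap.coe_mk, AddHom.coe_mk, Finset.sum_apply, Pi.smul_apply, smul_eq_mul]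
      rw [sum_eq_single_of_mem i' (mem_univ _) fun i _ hne => by
        rw [(hd i.1 i.2).2.2 i'.1 i'.2 fun e => hne (Subtype.ext e.symm), mul_zero],
        (hd i'.1 i'.2).2.1, mul_one]
    simpa using LinearMap.finrank_le_finrank_of_surjective hs
  · simpa using LinearMap.finrank_le_finrank_of_injective (pr_inj h1)

end valid

section fast

variable {m Γ : ℕ} {e : Fin m → ℕ}

theorem two_le (hΓ : 2 ≤ Γ) (h : Fast Γ e) (j : Fin m) : 2 ≤ e j := by
  induction j using WellFoundedLT.induction with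
  | ind j ih =>
    have h1 : 1 ≤ ∏ i ∈ univ.filter (· < j), e i :=
      one_le_prod' fun i hi => by have := ih i (mem_filter.1 hi).2; omega
    have := h j
    nlinarith

theorem one_le_wv (hΓ : 2 ≤ Γ) (h : Fast Γ e) (o : Option (Fin m)) : 1 ≤ wv e o := by
  cases o with
  | none => exact le_rfl
  | some j => have := two_le hΓ h j; simp only [wv, Option.elim]; omega

theorem lt_of_lt (hΓ : 2 ≤ Γ) (h : Fast Γ e) {i j : Fin m} (hij : i < j) : e i < e j := by
  have h1 : e i ≤ ∏ i ∈ univ.filter (· < j), e i :=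
    single_le_prod' (f := e) (fun k _ => by have := two_le hΓ h k; omega)
      (mem_filter.2 ⟨mem_univ _, hij⟩)
  have h2 := h j
  have h3 := two_le hΓ h i
  nlinarith

theorem wv_inj (hΓ : 2 ≤ Γ) (h : Fast Γ e) {i j : Option (Fin m)} (hij : wv e i = wv e j) :
    i = j := by
  cases i with
  | none =>
    cases j with
    | none => rfl
    | some j => have := two_le hΓ h j; simp only [wv, Option.elim] at hij; omega
  | some i =>
    cases j with
    | none => have := two_le hΓ h i; simp only [wv, Option.elim] at hij; omega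
    | some j =>
      simp only [wv, Option.elim] at hij
      rcases lt_trichotomy i j with hl | hl | hl
      · exact absurd hij (lt_of_lt hΓ h hl).ne
      · rw [hl]
      · exact absurd hij (lt_of_lt hΓ h hl).ne'

theorem prod_pos' (hΓ : 2 ≤ Γ) (h : Fast Γ e) (X : Finset (Option (Fin m))) :
    0 < ∏ i ∈ X, wv e i := prod_pos fun i _ => one_le_wv hΓ h i

theorem gap_aux (hΓ : 2 ≤ Γ) (h : Fast Γ e) {X Y : Finset (Option (Fin m))} {j : Fin m}
    (hY : some j ∈ Y) (hX : some j ∉ X) (hk : ∀ k, j < k → some k ∈ X → some k ∈ Y) :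
    Γ * ∏ i ∈ X, wv e i ≤ ∏ i ∈ Y, wv e i := by
  have e1 : ∏ i ∈ X, wv e i = (∏ i ∈ X ∩ Y, wv e i) * ∏ i ∈ X \ Y, wv e i :=
    (prod_inter_mul_prod_sdiff X Y _).symm
  have e2 : ∏ i ∈ Y, wv e i = (∏ i ∈ X ∩ Y, wv e i) * ∏ i ∈ Y \ X, wv e i := by
    rw [inter_comm]; exact (prod_inter_mul_prod_sdiff Y X _).symm
  have h1 : e j ≤ ∏ i ∈ Y \ X, wv e i :=
    single_le_prod' (f := wv e) (fun k _ => one_le_wv hΓ h k) (mem_sdiff.2 ⟨hY, hX⟩)
  have h2 : ∏ i ∈ X \ Y, wv e i ≤ ∏ i ∈ univ.filter (· < j), e i := by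
    have e3 : ∏ i ∈ univ.filter (· < j), e i =
        ∏ i ∈ insertNone (univ.filter (· < j)), wv e i := by
      rw [prod_insertNone]; simp [wv]
    rw [e3]
    refine prod_le_prod_of_subset_of_one_le' (fun o ho => ?_) fun k _ _ => one_le_wv hΓ h k
    obtain ⟨h3, h4⟩ := mem_sdiff.1 ho
    cases o with
    | none => simp
    | some k =>
      simp only [some_mem_insertNone, mem_filter, mem_univ, true_and]
      rcases lt_trichotomy k j with hl | hl | hl
      · exact hl
      · exact absurd (hl ▸ h3) hX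
      · exact absurd (hk k hl h3) h4
  rw [e1, e2, mul_left_comm]
  exact Nat.mul_le_mul_left _ ((Nat.mul_le_mul_left _ h2).trans ((h j).trans h1))

theorem gap (hΓ : 2 ≤ Γ) (h : Fast Γ e) {X Y : Finset (Option (Fin m))} (hne : X ≠ Y)
    (hc : X.card = Y.card) (hle : ∏ i ∈ X, wv e i ≤ ∏ i ∈ Y, wv e i) :
    Γ * ∏ i ∈ X, wv e i ≤ ∏ i ∈ Y, wv e i := by
  have hS : (univ.filter fun j : Fin m => ¬(some j ∈ X ↔ some j ∈ Y)).Nonempty := by
    by_contra hc'
    rw [not_nonempty_iff_eq_empty, filter_eq_empty_iff] at hc'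
    have hs : ∀ j, some j ∈ X ↔ some j ∈ Y := fun j => not_not.1 (hc' (mem_univ j))
    by_cases hn : none ∈ X
    · refine hne (eq_of_subset_of_card_le (fun o ho => ?_) hc.le).symm
      cases o with
      | none => exact hn
      | some k => exact (hs k).2 ho
    · refine hne (eq_of_subset_of_card_le (fun o ho => ?_) hc.ge)
      cases o with
      | none => exact absurd ho hn
      | some k => exact (hs k).1 ho
  obtain ⟨j, hj, hmax⟩ := exists_max_image _ id hS
  have hj' := (mem_filter.1 hj).2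
  have hk : ∀ k, j < k → (some k ∈ X ↔ some k ∈ Y) := fun k hk => by
    by_contra hc'
    exact absurd (hmax k (mem_filter.2 ⟨mem_univ _, hc'⟩)) (not_le.2 hk)
  by_cases hY : some j ∈ Y
  · exact gap_aux hΓ h hY (fun hX => hj' ⟨fun _ => hY, fun _ => hX⟩) fun k hl => (hk k hl).1
  · have hX : some j ∈ X := by
      by_contra hX
      exact hj' ⟨fun a => absurd a hX, fun a => absurd a hY⟩
    have h1 := gap_aux hΓ h hX hY fun k hl => (hk k hl).2
    have h2 := prod_pos' hΓ h Y
    nlinarith

theorem prod_exch {X : Finset (Option (Fin m))} {i j : Option (Fin m)} (hi : i ∈ X) (hj : j ∉ X) :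
    ∃ P, ∏ k ∈ X.erase i, wv e k = P ∧ ∏ k ∈ X, wv e k = wv e i * P ∧
      ∏ k ∈ insert j (X.erase i), wv e k = wv e j * P :=
  ⟨_, rfl, (mul_prod_erase X _ hi).symm, prod_insert fun hm => hj (mem_of_mem_erase hm)⟩

end fast

theorem pow_lt {m Γ A a c : ℕ} (haA : a ≤ A) (h : A ^ (m + 1) < Γ * a ^ (m + 1))
    (hc : c ≤ m + 1) : A ^ c < Γ * a ^ c := by
  obtain ⟨d, hd⟩ := Nat.exists_eq_add_of_le hc
  rw [hd, pow_add, pow_add, ← mul_assoc] at h
  exact lt_of_mul_lt_mul_right
    ((Nat.mul_le_mul_left _ (Nat.pow_le_pow_left haA d)).trans_lt h) (Nat.zero_le _)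

end Lin

open Lin in
theorem linStmt : LinStmt := by
  intro κ _ m N N' u c e ρ Γ A a hu hN hΓ hF ha haA hρ hA H
  classical
  -- the linear equivalence
  let τ : (Option (Fin m) → κ) →ₗ[κ] (Option (Fin m) → κ) :=
    { toFun := fun n o => o.elim (u * n none + ∑ j, c j * n (some j)) fun j => n (some j)
      map_add' := fun x y => by
        funext o
        cases o with
        | none => simp [mul_add, sum_add_distrib]; ring
        | some j => simp
      map_smul' := fun r x => by
        funext o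
        cases o with
        | none => simp [mul_add, mul_sum, mul_left_comm]
        | some j => simp }
  have τn : ∀ n, τ n none = u * n none + ∑ j, c j * n (some j) := fun _ => rfl
  have τs : ∀ n j, τ n (some j) = n (some j) := fun _ _ => rfl
  have τinj : Function.Injective τ := by
    rw [injective_iff_map_eq_zero]
    intro n hn
    have h1 : ∀ j, n (some j) = 0 := fun j => congrFun hn (some j)
    have h2 := congrFun hn none
    rw [τn] at h2
    simp only [h1, mul_zero, sum_const_zero, add_zero, Pi.zero_apply, mul_eq_zero, hu,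
      false_or] at h2
    funext o
    cases o with
    | none => exact h2
    | some j => exact h1 j
  have hmap : N = N'.map τ := by
    ext n
    rw [hN, Submodule.mem_map]
    refine ⟨fun ⟨n', h1, h2, h3⟩ => ⟨n', h1, ?_⟩, fun ⟨n', h1, h2⟩ => ⟨n', h1, ?_, fun j => ?_⟩⟩
    · funext o
      cases o with
      | none => rw [τn, h2]
      | some j => rw [τs, h3]
    · rw [← h2, τn]
    · rw [← h2, τs]
  have hrk : Module.finrank κ N = Module.finrank κ N' := by
    rw [hmap]
    exact (LinearEquiv.finrank_eq (Submodule.equivMapOfInjective τ τinj N')).symm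
  have hiff : ∀ I : Finset (Option (Fin m)), none ∉ I → (Valid N I ↔ Valid N' I) := by
    intro I hI
    have hs : ∀ n, ∀ i ∈ I, τ n i = n i := fun n i hi => by
      cases i with
      | none => exact absurd hi hI
      | some j => exact τs n j
    refine and_congr ⟨fun h n hn hz => ?_, fun h n hn hz => ?_⟩ (by rw [hrk])
    · refine τinj ?_
      rw [map_zero]
      exact h _ (hmap ▸ Submodule.mem_map_of_mem hn) fun i hi => by rw [hs n i hi, hz i hi]
    · rw [hmap] at hn
      obtain ⟨n', h1, rfl⟩ := hn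
      rw [h n' h1 fun i hi => by rw [← hs n' i hi, hz i hi], map_zero]
  obtain ⟨I, hI, hmin⟩ := exists_min_image (univ.filter fun I => Valid N I)
    (fun I => ∏ i ∈ I, wv e i) (by
      obtain ⟨I, h⟩ := exists_valid N
      exact ⟨I, mem_filter.2 ⟨mem_univ _, h⟩⟩)
  obtain ⟨I', hI', hmax⟩ := exists_max_image (univ.filter fun I => Valid N' I)
    (fun I => ∏ i ∈ I, wv e i) (by
      obtain ⟨I, h⟩ := exists_valid N'
      exact ⟨I, mem_filter.2 ⟨mem_univ _, h⟩⟩)
  replace hI := (mem_filter.1 hI).2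
  replace hI' := (mem_filter.1 hI').2
  replace hmin : ∀ X, Valid N X → ∏ i ∈ I, wv e i ≤ ∏ i ∈ X, wv e i :=
    fun X hX => hmin X (mem_filter.2 ⟨mem_univ _, hX⟩)
  replace hmax : ∀ X, Valid N' X → ∏ i ∈ X, wv e i ≤ ∏ i ∈ I', wv e i :=
    fun X hX => hmax X (mem_filter.2 ⟨mem_univ _, hX⟩)
  have hρ1 : 1 ≤ ρ := by
    rcases Nat.eq_zero_or_pos ρ with h | h
    · simp [h] at hρ
    · exact h
  have hwd : ∏ i ∈ I', wv e i ≤ ∏ i ∈ I', wd ρ e i := prod_le_prod' fun o _ => by
    cases o with
    | none => exact hρ1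
    | some j => exact le_rfl
  have hEq : Valid N I' → I = I' := by
    intro hv
    by_contra hne
    have h1 := gap hΓ hF hne (by rw [hI.2, hv.2]) (hmin I' hv)
    have h2 := H I I' hI hI'
    have h3 := pow_lt (c := I.card) haA hA (by simpa using card_le_univ I)
    have h4 := prod_pos' hΓ hF I
    have h5 : Γ * a ^ I.card * ∏ i ∈ I, wv e i ≤ A ^ I.card * ∏ i ∈ I, wv e i :=
      calc Γ * a ^ I.card * ∏ i ∈ I, wv e i = a ^ I.card * (Γ * ∏ i ∈ I, wv e i) := by ring
        _ ≤ a ^ I.card * ∏ i ∈ I', wd ρ e i := Nat.mul_le_mul_left _ (h1.trans hwd)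
        _ ≤ _ := h2
    exact absurd (Nat.le_of_mul_le_mul_right h5 h4) (not_le.2 h3)
  by_cases h0 : Pi.single none (1 : κ) ∈ N'
  · -- case B
    right
    have hNN : N = N' := by
      refine Submodule.eq_of_le_of_finrank_eq (fun n hn => ?_) hrk
      rw [hmap] at hn
      obtain ⟨n', h1, rfl⟩ := hn
      have : τ n' = n' + (τ n' none - n' none) • Pi.single none (1 : κ) := by
        funext o
        cases o with
        | none => simp
        | some j => simp [τs]
      rw [this]
      exact N'.add_mem h1 (N'.smul_mem _ h0)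
    subst hNN
    obtain rfl := hEq hI'
    have hn : none ∈ I := by
      by_contra hn
      have := congrFun (hI.1 _ h0 fun i hi => Pi.single_eq_of_ne (by rintro rfl; exact hn hi) _) none
      simp at this
    refine ⟨I, hI, hn, ?_, vanish hI fun i hi j hj hv => ?_⟩
    · by_contra hc
      push Not at hc
      have e1 : I = {none} := by
        refine eq_singleton_iff_unique_mem.2 ⟨hn, fun o ho => ?_⟩
        cases o with
        | none => rfl
        | some j => exact absurd ho (hc j)
      have h2 := H I I hI hI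
      rw [e1] at h2
      simp [wd, wv] at h2
      omega
    · obtain ⟨P, hP, e1, e2⟩ := prod_exch (e := e) hi hj
      have h1 := hmin _ hv
      have h2 := hmax _ hv
      have h3 : 0 < P := hP ▸ prod_pos' hΓ hF _
      rw [e1, e2] at h1 h2
      have := wv_inj hΓ hF (Nat.eq_of_mul_eq_mul_right h3 (le_antisymm h1 h2))
      exact hj (this ▸ hi)
  · -- case A
    left
    have hn : none ∉ I' := by
      intro hn
      obtain ⟨n, h1, h2, h3⟩ := exists_dual hI' hn
      have : ∃ j, j ∉ I' ∧ n j ≠ 0 := by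
        by_contra hc
        push Not at hc
        refine h0 ?_
        convert h1
        funext o
        by_cases ho : o = none
        · rw [ho, h2]; simp
        · rw [Pi.single_eq_of_ne ho]
          by_cases hm : o ∈ I'
          · exact (h3 o hm ho).symm
          · exact (hc o hm).symm
      obtain ⟨j, hj, hnj⟩ := this
      obtain ⟨P, hP, e1, e2⟩ := prod_exch (e := e) hn hj
      have h4 := hmax _ (exchange hI' hn hj h1 h2 h3 hnj)
      have h5 : 0 < P := hP ▸ prod_pos' hΓ hF _
      rw [e1, e2] at h4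
      have h6 := Nat.le_of_mul_le_mul_right h4 h5
      have := wv_inj hΓ hF (le_antisymm h6 (one_le_wv hΓ hF j))
      exact hj (this ▸ hn)
    obtain rfl := hEq ((hiff I' hn).2 hI')
    refine ⟨I, hI', hn, vanish hI fun i hi j hj hv => ?_⟩
    obtain ⟨P, hP, e1, e2⟩ := prod_exch (e := e) hi hj
    have h1 := hmin _ hv
    have h3 : 0 < P := hP ▸ prod_pos' hΓ hF _
    rw [e1, e2] at h1
    have h4 := Nat.le_of_mul_le_mul_right h1 h3
    have hj0 : j ≠ none := by
      rintro rfl
      have := wv_inj hΓ hF (le_antisymm h4 (one_le_wv hΓ hF i))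
      exact hn (this ▸ hi)
    have h2 := hmax _ ((hiff _ (by
      intro hm
      rcases mem_insert.1 hm with h | h
      · exact hj0 h.symm
      · exact hn (mem_of_mem_erase h))).1 hv)
    rw [e1, e2] at h2
    have := wv_inj hΓ hF (le_antisymm h4 (Nat.le_of_mul_le_mul_right h2 h3))
    exact hj (this ▸ hi)

end Crest.Agent.R11
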