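import Crest.Agent.R11.Defs

/-! Row 11: independence of monomials in a dual system modulo jets. -/

set_option autoImplicit false

namespace Crest.Agent.R11

open MvPolynomial Finset

namespace Low

variable {B ι : Type} [CommRing B] [Algebra ℂ B] [DecidableEq ι] {E : ι → Derivation ℂ B B}
  {p : Ideal B} {I : Finset ι} {g : ι → B} {Δ : B}

omit [DecidableEq ι] in
theorem der_pow (D : Derivation ℂ B B) (k : ℕ) {r : B} (hr : r ∈ p ^ (k + 1)) : D r ∈ p ^ k := by
  induction k generalizing r with
  | zero => simp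
  | succ k ih =>
    rw [pow_succ] at hr
    refine Submodule.mul_induction_on hr (fun x hx y hy => ?_) fun x y hx hy => ?_
    · rw [Derivation.leibniz, smul_eq_mul, smul_eq_mul]
      refine add_mem (Ideal.mul_mem_right _ _ hx) ?_
      rw [pow_succ, mul_comm y]
      exact Ideal.mul_mem_mul (ih hx) hy
    · rw [map_add]; exact add_mem hx hy

/-- monomial in `g` -/
def G (g : ι → B) (α : ι →₀ ℕ) : B := α.prod fun i k => g i ^ k

omit [Algebra ℂ B] [DecidableEq ι] in
theorem G_add (α : ι →₀ ℕ) (j : ι) : G g (α + Finsupp.single j 1) = G g α * g j := by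
  rw [G, Finsupp.prod_add_index' (by simp) (by simp [pow_add]), Finsupp.prod_single_index (by simp),
    pow_one, G]

omit [DecidableEq ι] in
theorem exists_add {α : ι →₀ ℕ} {k : ℕ} (h : α.degree = k + 1) (hα : α.support ⊆ I) :
    ∃ j ∈ I, ∃ β : ι →₀ ℕ, α = β + Finsupp.single j 1 ∧ β.degree = k ∧ β.support ⊆ I := by
  obtain ⟨j, hj⟩ : α.support.Nonempty := Finsupp.support_nonempty_iff.2 (by rintro rfl; simp at h)
  have h1 : α - Finsupp.single j 1 + Finsupp.single j 1 = α := tsub_add_cancel_of_le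
    (Finsupp.single_le_iff.2 (Nat.one_le_iff_ne_zero.2 (Finsupp.mem_support_iff.1 hj)))
  refine ⟨j, hα hj, _, h1.symm, ?_, Finsupp.support_tsub.trans hα⟩
  rw [← h1, map_add, Finsupp.degree_single] at h
  omega

theorem der_G (h : DualSys E p I g Δ) {i : ι} (hi : i ∈ I) (k : ℕ) : ∀ α : ι →₀ ℕ, α.degree = k →
    α.support ⊆ I → G g α ∈ p ^ k ∧
      E i (G g α) - Δ * (α i * G g (α - Finsupp.single i 1)) ∈ p ^ k := by
  induction k with
  | zero => simp
  | succ k ih =>
    intro α h1 h2
    obtain ⟨j, hj, β, rfl, h3, h4⟩ := exists_add h1 h2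
    obtain ⟨h5, h6⟩ := ih β h3 h4
    rw [G_add, pow_succ]
    refine ⟨Ideal.mul_mem_mul h5 (h.2.1 j hj), ?_⟩
    have h7 := add_mem (Ideal.mul_mem_mul h5 (h.2.2 j hj i hi)) (Ideal.mul_mem_mul h6 (h.2.1 j hj))
    convert h7 using 1
    rw [Derivation.leibniz, smul_eq_mul, smul_eq_mul]
    by_cases hij : j = i
    · subst hij
      rw [if_pos rfl, add_tsub_cancel_right, Finsupp.add_apply, Finsupp.single_eq_same]
      by_cases h0 : β j = 0
      · simp [h0]; ring
      · have : G g β = G g (β - Finsupp.single j 1) * g j := by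
          rw [← G_add, tsub_add_cancel_of_le (Finsupp.single_le_iff.2 (by omega))]
        push_cast
        linear_combination (-Δ * β j) * this
    · have : β + Finsupp.single j 1 - Finsupp.single i 1 =
          β - Finsupp.single i 1 + Finsupp.single j 1 := by
        ext l
        simp only [Finsupp.coe_tsub, Finsupp.coe_add, Pi.sub_apply, Pi.add_apply,
          Finsupp.single_apply]
        split_ifs <;> simp_all
      rw [if_neg hij, this, G_add, Finsupp.add_apply, Finsupp.single_eq_of_ne (Ne.symm hij)]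
      push_cast
      ring

theorem claim (w : ι → ℕ) (h : DualSys E p I g Δ) (k : ℕ) : ∀ H : MvPolynomial ι B,
    (∀ α ∈ H.support, α.degree = k ∧ α.support ⊆ I) → ∀ r ∈ p ^ (k + 1), ∀ α : ι →₀ ℕ,
    α.degree = k → α.support ⊆ I → ∃ l : List ι, (l.map w).sum = Finsupp.weight w α ∧
      ∃ n : ℕ, n ≠ 0 ∧ word E l (aeval g H + r) - Δ ^ k * (n * coeff α H) ∈ p := by
  induction k with
  | zero =>
    intro H hH r hr α h1 _
    obtain rfl : α = 0 := (Finsupp.degree_eq_zero_iff _).1 h1
    have : H = C (coeff 0 H) := by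
      ext β
      rw [coeff_C]
      split_ifs with h0
      · rw [h0]
      · by_contra hc
        exact h0 ((Finsupp.degree_eq_zero_iff _).1 (hH β (mem_support_iff.2 hc)).1).symm
    refine ⟨[], by simp, 1, one_ne_zero, ?_⟩
    rw [this]
    simpa using hr
  | succ k ih =>
    intro H hH r hr α h1 h2
    obtain ⟨i, hi, β, rfl, h3, h4⟩ := exists_add h1 h2
    have h5 : E i (aeval g H) - aeval g (C Δ * pderiv i H) ∈ p ^ (k + 1) := by
      rw [H.as_sum]
      simp only [map_sum, mul_sum, ← sum_sub_distrib]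
      refine Ideal.sum_mem _ fun α hα => ?_
      obtain ⟨h6, h7⟩ := der_G h hi (k + 1) α (hH α hα).1 (hH α hα).2
      have := add_mem (Ideal.mul_mem_left _ (coeff α H) h7) (Ideal.mul_mem_right (E i (coeff α H)) _ h6)
      convert this using 1
      rw [pderiv_monomial, map_mul, aeval_C, aeval_monomial, aeval_monomial, Derivation.leibniz]
      simp only [Algebra.algebraMap_self, RingHom.id_apply, smul_eq_mul, G]
      ring
    obtain ⟨l, hl, n, hn, h6⟩ := ih (C Δ * pderiv i H) (by
      intro α hα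
      rw [mem_support_iff, coeff_C_mul, coeff_pderiv] at hα
      obtain ⟨h6, h7⟩ := hH _ (mem_support_iff.2 (left_ne_zero_of_mul (right_ne_zero_of_mul hα)))
      rw [map_add, Finsupp.degree_single] at h6
      exact ⟨by omega, (Finsupp.support_mono le_self_add).trans h7⟩)
      _ (add_mem h5 (der_pow (E i) _ hr)) β h3 h4
    refine ⟨i :: l, by simp [hl, Finsupp.weight_single, add_comm], n * (β i + 1), by positivity, ?_⟩
    convert h6 using 2
    · rw [word_cons, map_add]; congr 1; ring
    · rw [coeff_C_mul, coeff_pderiv]; push_cast; ring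

end Low

open Low in
theorem lowStmt : LowStmt := by
  classical
  intro A B ι _ _ _ _ _ E w p hp hA I g Δ h Y
  rw [linearIndependent_iff']
  intro s c hc
  by_contra hne
  push Not at hne
  obtain ⟨α, hα, hmin⟩ := (s.filter fun α => c α ≠ 0).exists_min_image (fun α => α.1.degree)
    (by obtain ⟨α, h1, h2⟩ := hne; exact ⟨α, mem_filter.2 ⟨h1, h2⟩⟩)
  obtain ⟨hα1, hα2⟩ := mem_filter.1 hα
  have hf : ∑ β ∈ s, algebraMap A B (c β) * G g β.1 ∈ Jet E w p (Y + 1) := by
    rw [← Ideal.Quotient.eq_zero_iff_mem, map_sum, ← hc]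
    exact sum_congr rfl fun β _ => by rw [← Algebra.smul_def]; rfl
  obtain ⟨l, hl, n, hn, h1⟩ := claim w h α.1.degree
    (∑ β ∈ s.filter fun β => β.1.degree = α.1.degree, monomial β.1 (algebraMap A B (c β))) (by
      intro γ hγ
      obtain ⟨β, hβ, h2⟩ := mem_biUnion.1 (support_sum hγ)
      obtain rfl := mem_singleton.1 (support_monomial_subset h2)
      exact ⟨(mem_filter.1 hβ).2, β.2.1⟩)
    (∑ β ∈ s.filter fun β => ¬ β.1.degree = α.1.degree, algebraMap A B (c β) * G g β.1) (by
      refine Ideal.sum_mem _ fun β hβ => ?_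
      obtain ⟨h2, h3⟩ := mem_filter.1 hβ
      by_cases h0 : c β = 0
      · simp [h0]
      have h4 := hmin β (mem_filter.2 ⟨h2, h0⟩)
      obtain ⟨k, hk⟩ : ∃ k, β.1.degree = k + 1 := ⟨β.1.degree - 1, by omega⟩
      obtain ⟨i, hi, -⟩ := exists_add hk β.2.1
      exact Ideal.mul_mem_left _ _ (Ideal.pow_le_pow_right (by omega)
        (der_G h hi _ β.1 rfl β.2.1).1)) α.1 rfl α.2.1
  have h0 : coeff α.1 (∑ β ∈ s.filter fun β => β.1.degree = α.1.degree,
      monomial β.1 (algebraMap A B (c β))) = algebraMap A B (c α) := by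
    rw [coeff_sum, sum_eq_single α (fun β _ hβ => by
      rw [coeff_monomial, if_neg fun h => hβ (Subtype.ext h)]) (by simp [hα1]), coeff_monomial,
      if_pos rfl]
  rw [h0, map_sum] at h1
  simp only [aeval_monomial, Algebra.algebraMap_self, RingHom.id_apply] at h1
  have h2 := sum_filter_add_sum_filter_not s (fun β => β.1.degree = α.1.degree)
    fun β => algebraMap A B (c β) * G g β.1
  simp only [G] at h1 h2 hf
  rw [h2] at h1
  have h3 := sub_mem (hf l (by rw [hl]; exact Nat.lt_succ_of_le α.2.2)) h1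
  rw [sub_sub_cancel] at h3
  rcases hp.mem_or_mem h3 with h4 | h4
  · exact h.1 (hp.mem_of_pow_mem _ h4)
  rcases hp.mem_or_mem h4 with h5 | h5
  · refine hp.ne_top (Ideal.eq_top_of_isUnit_mem _ h5 ?_)
    rw [← map_natCast (algebraMap ℂ B)]
    exact (IsUnit.mk0 _ (Nat.cast_ne_zero.2 hn)).map _
  · exact hα2 (hA _ h5)

end Crest.Agent.R11
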