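import Crest.Agent.R11.Defs

/-!
# Row 11: the multiplicity estimate along an isolated prime (`MultStmt`)
-/

set_option autoImplicit false

namespace Crest.Agent.R11

open MvPolynomial Filter

namespace Mult

attribute [local instance] FractionRing.liftAlgebra in
theorem rank_lt_of_alg (A S : Type) [CommRing A] [IsDomain A] [CommRing S] [IsDomain S]
    [Algebra A S] [FaithfulSMul A S] [Algebra.IsAlgebraic A S] [Algebra.FiniteType A S] :
    Module.rank A S < Cardinal.aleph0 := by
  rw [← Algebra.IsAlgebraic.rank_fractionRing A S]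
  have h1 : Algebra.EssFiniteType A (FractionRing S) :=
    have : Algebra.EssFiniteType S (FractionRing S) :=
      Algebra.EssFiniteType.of_isLocalization _ (nonZeroDivisors S)
    Algebra.EssFiniteType.comp A S _
  have h2 : Algebra.EssFiniteType (FractionRing A) (FractionRing S) :=
    Algebra.EssFiniteType.of_comp A _ _
  have h3 : Module.Finite (FractionRing A) (FractionRing S) :=
    Algebra.finite_of_essFiniteType_of_isAlgebraic
  exact Module.rank_lt_aleph0 _ _

theorem rank_quot_lt {A B : Type} [CommRing A] [IsDomain A] [CommRing B] [Algebra A B]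
    {p : Ideal B} (hp : p.IsPrime) (hinj : ∀ c : A, algebraMap A B c ∈ p → c = 0)
    (halg : Algebra.IsAlgebraic A (B ⧸ p)) (hft : Algebra.FiniteType A (B ⧸ p)) :
    Module.rank A (B ⧸ p) < Cardinal.aleph0 := by
  have hfaith : FaithfulSMul A (B ⧸ p) := by
    rw [faithfulSMul_iff_algebraMap_injective, injective_iff_map_eq_zero]
    exact fun c hc => hinj c (Ideal.Quotient.eq_zero_iff_mem.1 hc)
  exact rank_lt_of_alg A (B ⧸ p)

theorem finrank_zero_of_mem {A B : Type} [CommRing A] [CommRing B] [Algebra A B] {b : Ideal B}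
    {c : A} (hc : c ≠ 0) (h : algebraMap A B c ∈ b) : Module.finrank A (B ⧸ b) = 0 := by
  have : Module.rank A (B ⧸ b) = 0 := by
    rw [rank_eq_zero_iff]
    intro y
    obtain ⟨x, rfl⟩ := Ideal.Quotient.mk_surjective y
    refine ⟨c, hc, ?_⟩
    change Ideal.Quotient.mk b (c • x) = 0
    rw [Ideal.Quotient.eq_zero_iff_mem, Algebra.smul_def]
    exact b.mul_mem_right _ h
  unfold Module.finrank
  rw [this, map_zero]

theorem finrank_quot_anti {A B : Type} [CommRing A] [CommRing B] [Algebra A B] {a b : Ideal B}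
    (h : a ≤ b) (ha : Module.rank A (B ⧸ a) < Cardinal.aleph0) :
    Module.finrank A (B ⧸ b) ≤ Module.finrank A (B ⧸ a) :=
  Cardinal.toNat_le_toNat (LinearMap.rank_le_of_surjective (Ideal.Quotient.factorₐ A h).toLinearMap
    (Ideal.Quotient.factor_surjective h)) ha

theorem eventually_full {A B : Type} [CommRing A] [IsDomain A] [CommRing B] [Algebra A B]
    {V : ℕ → Submodule A B} (hV : Monotone V) (hex : ∀ x, ∃ N, x ∈ V N) {p : Ideal B}
    (hp : Module.rank A (B ⧸ p) < Cardinal.aleph0) :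
    ∀ᶠ N in atTop, Module.finrank A (B ⧸ p) ≤
      Module.finrank A ((V N).map (Ideal.Quotient.mkₐ A p).toLinearMap) := by
  obtain ⟨n, hn⟩ := Cardinal.lt_aleph0.1 hp
  obtain ⟨v, hv⟩ := Module.le_rank_iff.1 hn.ge
  choose x hx using fun i => Ideal.Quotient.mk_surjective (v i)
  choose M hM using fun i => hex (x i)
  filter_upwards [eventually_ge_atTop (Finset.univ.sup M)] with N hN
  let u : Fin n → (V N).map (Ideal.Quotient.mkₐ A p).toLinearMap := fun i =>
    ⟨v i, x i, hV ((Finset.le_sup (Finset.mem_univ i)).trans hN) (hM i), hx i⟩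
  have hu : LinearIndependent A u := LinearIndependent.of_comp (Submodule.subtype _) hv
  have h1 := Module.le_rank_iff.2 ⟨u, hu⟩
  rw [← hn] at h1
  exact Cardinal.toNat_le_toNat h1 ((Submodule.rank_le _).trans_lt hp)

theorem growth (k n : ℕ) (P Q R A S : ℝ) (hP : 0 < P) (hQ : 0 ≤ Q) (hR : 0 ≤ R) (hA : 0 ≤ A)
    (hS : 0 ≤ S)
    (h : ∀ ε > (0 : ℝ), ∀ᶠ N : ℕ in atTop,
      P * (N : ℝ) ^ k ≤ Q * ((N : ℝ) * A + S) ^ n + R * (ε * (N : ℝ) ^ n)) :
    k ≤ n ∧ (k = n → P ≤ Q * A ^ n) := by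
  have key : ∀ ε > (0 : ℝ), n ≤ k → ∀ᶠ N : ℕ in atTop,
      P * (N : ℝ) ^ (k - n) ≤ Q * (A + S / N) ^ n + R * ε := by
    intro ε hε hk
    filter_upwards [h ε hε, eventually_ge_atTop 1] with N h1 hN
    have hN' : (0 : ℝ) < N := by exact_mod_cast hN
    have e1 : (N : ℝ) * A + S = (A + S / N) * N := by field_simp
    have e2 : (N : ℝ) ^ k = (N : ℝ) ^ (k - n) * (N : ℝ) ^ n := by
      rw [← pow_add, Nat.sub_add_cancel hk]
    rw [e1, mul_pow, e2] at h1
    refine le_of_mul_le_mul_right ?_ (pow_pos hN' n)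
    linarith
  constructor
  · by_contra hk
    push Not at hk
    obtain ⟨M, hM⟩ := exists_nat_gt ((Q * (A + S) ^ n + R) / P)
    obtain ⟨N, h1, h2, h3⟩ := ((key 1 one_pos hk.le).and
      ((eventually_ge_atTop 1).and (eventually_ge_atTop M))).exists
    have hN' : (1 : ℝ) ≤ N := by exact_mod_cast h2
    have a1 : (N : ℝ) ≤ (N : ℝ) ^ (k - n) := le_self_pow₀ hN' (by omega)
    have a2 : (A + S / N) ^ n ≤ (A + S) ^ n := by
      have : S / N ≤ S := div_le_self hS hN'
      gcongr
    have a3 : (M : ℝ) ≤ N := by exact_mod_cast h3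
    rw [div_lt_iff₀ hP] at hM
    have a4 := mul_le_mul_of_nonneg_left a2 hQ
    have a5 := mul_le_mul_of_nonneg_left (a3.trans a1) hP.le
    linarith
  · rintro rfl
    refine le_of_forall_pos_le_add fun ε hε => ?_
    have t : Tendsto (fun N : ℕ => Q * (A + S / N) ^ k + R * (ε / (R + 1))) atTop
        (nhds (Q * (A + 0) ^ k + R * (ε / (R + 1)))) :=
      (((tendsto_const_nhds.add (tendsto_const_div_atTop_nhds_zero_nat S)).pow k).const_mul
        Q).add_const _
    have h1 := ge_of_tendsto t ((key (ε / (R + 1)) (by positivity) le_rfl).mono fun N hN => by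
      simpa using hN)
    have h2 : R * (ε / (R + 1)) ≤ ε := by
      rw [← mul_div_assoc, div_le_iff₀ (by positivity)]
      nlinarith
    rw [add_zero] at h1
    linarith

section poly

variable {σ : Type} [Fintype σ] [DecidableEq σ] (δ : σ → ℕ) (J : Finset σ)

/-- The span over the small ring of the monomials in the remaining variables. -/
noncomputable def WW (M : ℕ) :
    Submodule (supported ℂ (J : Set σ)) (MvPolynomial σ ℂ) :=
  Submodule.span _ ((fun α => monomial α (1 : ℂ)) '' Mon δ Jᶜ M)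

theorem WW_mono : Monotone (WW δ J) := fun _ _ h =>
  Submodule.span_mono (Set.image_mono fun _ hα => ⟨hα.1, hα.2.trans h⟩)

theorem WW_mul {M M' : ℕ} {x y : MvPolynomial σ ℂ} (hx : x ∈ WW δ J M) (hy : y ∈ WW δ J M') :
    x * y ∈ WW δ J (M + M') := by
  have := Submodule.mul_mem_mul hx hy
  rw [WW, WW, Submodule.span_mul_span] at this
  refine Submodule.span_mono ?_ this
  rintro _ ⟨_, ⟨α, hα, rfl⟩, _, ⟨β, hβ, rfl⟩, rfl⟩
  refine ⟨α + β, ⟨Finsupp.support_add.trans (Finset.union_subset hα.1 hβ.1), ?_⟩, ?_⟩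
  · rw [map_add]; exact add_le_add hα.2 hβ.2
  · simp [monomial_mul]

theorem mem_WW {M : ℕ} {f : MvPolynomial σ ℂ} (hf : f ∈ Deg δ M) : f ∈ WW δ J M := by
  rw [f.as_sum]
  refine Submodule.sum_mem _ fun α hα => ?_
  have h1 : monomial (α.filter (· ∈ J)) (coeff α f) ∈ supported ℂ (J : Set σ) := by
    rw [mem_supported]
    intro i hi
    have := vars_monomial (s := α.filter (· ∈ J)) (mem_support_iff.1 hα) ▸ Finset.mem_coe.1 hi
    rw [Finsupp.support_filter] at this
    exact (Finset.mem_filter.1 this).2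
  have e : α = α.filter (· ∈ J) + α.filter (· ∉ J) := (Finsupp.filter_add_filter_not α _).symm
  have h2 : monomial α (coeff α f) =
      (⟨_, h1⟩ : supported ℂ (J : Set σ)) • monomial (α.filter (· ∉ J)) (1 : ℂ) := by
    change _ = monomial _ _ * monomial _ _
    rw [monomial_mul, mul_one, ← e]
  rw [h2]
  refine Submodule.smul_mem _ _ (Submodule.subset_span ⟨_, ⟨?_, ?_⟩, rfl⟩)
  · intro i hi
    rw [Finsupp.support_filter] at hi
    exact Finset.mem_compl.2 (Finset.mem_filter.1 hi).2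
  · have h3 := mem_Deg.1 hf α hα
    rw [e, map_add] at h3
    omega

theorem WW_fg {M : ℕ} (h : (Mon δ Jᶜ M).Finite) : (WW δ J M).FG :=
  Submodule.fg_span (h.image _)

theorem finrank_WW {M : ℕ} (h : (Mon δ Jᶜ M).Finite) :
    Module.finrank (supported ℂ (J : Set σ)) (WW δ J M) ≤ (Mon δ Jᶜ M).ncard := by
  have hf := h.image fun α => monomial α (1 : ℂ)
  have := hf.fintype
  refine (finrank_span_le_card _).trans ?_
  rw [← Set.ncard_eq_toFinset_card']
  exact Set.ncard_image_le h

omit [Fintype σ] in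
theorem alg {p : Ideal (MvPolynomial σ ℂ)} (hJ : ∀ s ∉ J, ¬ Indep p (insert s J)) :
    Algebra.IsAlgebraic (supported ℂ (J : Set σ)) (MvPolynomial σ ℂ ⧸ p) := by
  have h0 : ∀ x : supported ℂ (J : Set σ), IsAlgebraic (supported ℂ (J : Set σ))
      (Ideal.Quotient.mk p (x : MvPolynomial σ ℂ)) := fun x => isAlgebraic_algebraMap x
  have hX : ∀ s, IsAlgebraic (supported ℂ (J : Set σ)) (Ideal.Quotient.mk p (X s)) := by
    intro s
    by_cases hs : s ∈ J
    · exact h0 ⟨X s, X_mem_supported.2 hs⟩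
    · have := hJ s hs
      unfold Indep at this
      push Not at this
      obtain ⟨R, hR, hRp, hR0⟩ := this
      have hle : supported ℂ ((insert s J : Finset σ) : Set σ) ≤
          (Algebra.adjoin (supported ℂ (J : Set σ)) {(X s : MvPolynomial σ ℂ)}).restrictScalars ℂ := by
        rw [supported_eq_adjoin_X]
        refine Algebra.adjoin_le ?_
        rintro _ ⟨i, hi, rfl⟩
        rcases Finset.mem_insert.1 (Finset.mem_coe.1 hi) with rfl | hi
        · exact Algebra.self_mem_adjoin_singleton _ _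
        · exact Subalgebra.algebraMap_mem
            (Algebra.adjoin (supported ℂ (J : Set σ)) {(X s : MvPolynomial σ ℂ)})
            ⟨X i, X_mem_supported.2 hi⟩
      have h1 : R ∈ Algebra.adjoin (supported ℂ (J : Set σ)) {(X s : MvPolynomial σ ℂ)} := hle hR
      rw [Algebra.adjoin_singleton_eq_range_aeval] at h1
      obtain ⟨q, hq⟩ := h1
      have hq' : Polynomial.aeval (X s : MvPolynomial σ ℂ) q = R := hq
      refine ⟨q, fun h => hR0 (by rw [← hq', h, map_zero]), ?_⟩
      have := Polynomial.aeval_algHom_apply (Ideal.Quotient.mkₐ (supported ℂ (J : Set σ)) p)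
        (X s : MvPolynomial σ ℂ) q
      rw [hq'] at this
      exact this.trans (Ideal.Quotient.eq_zero_iff_mem.2 hRp)
  refine ⟨fun y => ?_⟩
  obtain ⟨f, rfl⟩ := Ideal.Quotient.mk_surjective y
  induction f using MvPolynomial.induction_on with
  | C a => exact h0 ⟨C a, Subalgebra.algebraMap_mem _ a⟩
  | add f g hf hg => rw [map_add]; exact hf.add hg
  | mul_X f s hf => rw [map_mul]; exact hf.mul (hX s)

end poly

end Mult

open Mult

theorem multStmt_of (hC : CntStmt) (hP : PhiStmt) (hF : FinStmt) (hL : LowStmt) : MultStmt := by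
  intro σ _ _ E w δ hw hδ p L A a hA ha hmin hLf J hJ hJ' I g Δ hD
  have hp : p.IsPrime := hmin.1.1
  have hinj : ∀ c : supported ℂ (J : Set σ), algebraMap _ (MvPolynomial σ ℂ) c ∈ p → c = 0 :=
    fun c hc => Subtype.ext (hJ c.1 c.2 hc)
  have halg := alg J hJ'
  have hft : Algebra.FiniteType (supported ℂ (J : Set σ)) (MvPolynomial σ ℂ ⧸ p) :=
    Algebra.FiniteType.of_restrictScalars_finiteType ℂ _ _
  have hrk := rank_quot_lt hp hinj halg hft
  have hJet : ∀ Y, Module.rank (supported ℂ (J : Set σ)) (MvPolynomial σ ℂ ⧸ Jet E w p Y) <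
      Cardinal.aleph0 := fun Y => hF _ _ p _ Y hrk (pow_le_Jet hw Y)
  have hCδ := hC σ δ Jᶜ fun i _ => hδ i
  have hCw := hC σ w I fun i _ => hw i
  have hmono : Monotone fun N => WW δ J (N * A) := fun N N' h =>
    WW_mono δ J (Nat.mul_le_mul_right A h)
  have hex : ∀ x, ∃ N, x ∈ WW δ J (N * A) := fun x =>
    ⟨x.support.sup (Finsupp.weight δ), mem_WW δ J (mem_Deg.2 fun α hα =>
      (Finset.le_sup (f := Finsupp.weight δ) hα).trans (Nat.le_mul_of_pos_right _ hA))⟩
  have hpos : 1 ≤ Jᶜ.card.factorial * ∏ i ∈ Jᶜ, δ i :=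
    Nat.mul_pos (Nat.factorial_pos _) (Finset.prod_pos fun i _ => hδ i)
  have main := hP (supported ℂ (J : Set σ)) (MvPolynomial σ ℂ) (fun N => WW δ J (N * A))
    (fun N => Jet E w p (N * a)) L Jᶜ.card hmono
    (fun N M x hx y hy => by rw [add_mul]; exact WW_mul δ J hx hy) hex
    (fun N => WW_fg δ J (hCδ _).1)
    ⟨(A + ∑ i ∈ Jᶜ, δ i) ^ Jᶜ.card, fun N => by
      refine (finrank_WW δ J (hCδ _).1).trans ((Nat.le_mul_of_pos_left _ hpos).trans
        ((hCδ (N * A)).2.2.trans ?_))
      rw [← mul_pow]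
      exact Nat.pow_le_pow_left (by nlinarith [Nat.zero_le (N * ∑ i ∈ Jᶜ, δ i)]) _⟩
    (by simp only [zero_mul]; exact Jet_zero)
    (fun N M x hx y hy => by rw [add_mul]; exact Jet_mul hx hy) (fun N => hJet _)
    (fun f hf => by
      rw [one_mul, one_mul]; exact ⟨mem_WW δ J (hLf f hf).1, (hLf f hf).2⟩)
    (fun q hq hLq c => by
      by_cases hqp : q ≤ p
      · have : q = p := le_antisymm hqp (hmin.2 ⟨hq, Ideal.span_le.2 hLq⟩ hqp)
        subst this
        filter_upwards [eventually_full hmono hex hrk] with N hN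
        exact (finrank_quot_anti le_sup_left hrk).trans hN
      · obtain ⟨x, hxq, hxp⟩ := SetLike.not_le_iff_exists.1 hqp
        obtain ⟨r, hr, y, hy⟩ := (halg.1 (Ideal.Quotient.mk p x)).exists_nonzero_dvd
          (mem_nonZeroDivisors_of_ne_zero fun h => hxp (Ideal.Quotient.eq_zero_iff_mem.1 h))
        obtain ⟨y, rfl⟩ := Ideal.Quotient.mk_surjective y
        have h1 : algebraMap _ (MvPolynomial σ ℂ) r - x * y ∈ p := by
          rw [← Ideal.Quotient.eq_zero_iff_mem, map_sub, map_mul, ← hy]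
          exact sub_self _
        refine Eventually.of_forall fun N => ?_
        rw [finrank_zero_of_mem (pow_ne_zero ((N + c) * a) hr)]
        · exact Nat.zero_le _
        · rw [map_pow]
          obtain ⟨z, hz⟩ := sub_dvd_pow_sub_pow (algebraMap _ (MvPolynomial σ ℂ) r)
            (algebraMap _ (MvPolynomial σ ℂ) r - x * y) ((N + c) * a)
          rw [sub_sub_cancel, sub_eq_iff_eq_add] at hz
          rw [hz]
          exact Ideal.add_mem _ (Ideal.mem_sup_left (q.mul_mem_right _ (q.mul_mem_right _ hxq)))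
            (Ideal.mem_sup_right (pow_le_Jet hw _ (Ideal.pow_mem_pow h1 _))))
  have low : ∀ N, 1 ≤ N → (N * a) ^ I.card ≤ I.card.factorial * (∏ i ∈ I, w i) *
      Module.finrank (supported ℂ (J : Set σ)) (MvPolynomial σ ℂ ⧸ Jet E w p (N * a)) := by
    intro N hN
    obtain ⟨Y, hY⟩ : ∃ Y, N * a = Y + 1 := ⟨N * a - 1, by have := Nat.mul_pos hN ha; omega⟩
    rw [hY]
    refine (hCw Y).2.1.trans (Nat.mul_le_mul_left _ ?_)
    rw [← Nat.card_coe_set_eq]
    exact Cardinal.toNat_le_toNat (hL _ _ σ E w p hp hinj I g Δ hD Y).cardinal_le_rank (hJet _)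
  have gr := growth I.card Jᶜ.card
    (((Jᶜ.card.factorial * ∏ i ∈ Jᶜ, δ i : ℕ) : ℝ) * (a : ℝ) ^ I.card)
    ((I.card.factorial * ∏ i ∈ I, w i : ℕ) : ℝ)
    (((I.card.factorial * ∏ i ∈ I, w i : ℕ) : ℝ) * ((Jᶜ.card.factorial * ∏ i ∈ Jᶜ, δ i : ℕ) : ℝ))
    A ((∑ i ∈ Jᶜ, δ i : ℕ) : ℝ)
    (mul_pos (by exact_mod_cast hpos) (pow_pos (by exact_mod_cast ha) _)) (by positivity)
    (by positivity) (by positivity) (by positivity) (fun ε hε => by
      filter_upwards [main ε hε, eventually_ge_atTop 1] with N h1 hN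
      have h2 : (((N * a) ^ I.card : ℕ) : ℝ) ≤ _ := Nat.cast_le.2 (low N hN)
      have h3 : ((_ : ℕ) : ℝ) ≤ _ := Nat.cast_le.2
        ((Nat.mul_le_mul_left _ (finrank_WW δ J (hCδ (N * A)).1)).trans (hCδ (N * A)).2.2)
      generalize (Jᶜ.card.factorial * ∏ i ∈ Jᶜ, δ i : ℕ) = D at *
      generalize (I.card.factorial * ∏ i ∈ I, w i : ℕ) = W at *
      generalize (∑ i ∈ Jᶜ, δ i : ℕ) = S at *
      push_cast at h2 h3
      rw [mul_pow] at h2
      have hD0 : (0 : ℝ) ≤ D := by positivity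
      have hW0 : (0 : ℝ) ≤ W := by positivity
      have h4 := mul_le_mul_of_nonneg_left h2 hD0
      have h5 := mul_le_mul_of_nonneg_left h3 hW0
      have h6 := mul_le_mul_of_nonneg_left h1 (mul_nonneg hW0 hD0)
      nlinarith)
  refine ⟨gr.1, fun h => ?_⟩
  have h1 := gr.2 h
  rw [← h] at h1
  have h2 : I.card.factorial * (a ^ I.card * ∏ j ∈ Jᶜ, δ j) ≤
      I.card.factorial * (A ^ I.card * ∏ i ∈ I, w i) := by
    have : (I.card.factorial * ∏ i ∈ Jᶜ, δ i) * a ^ I.card ≤
        (I.card.factorial * ∏ i ∈ I, w i) * A ^ I.card := by exact_mod_cast h1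
    nlinarith
  exact Nat.le_of_mul_le_mul_left h2 (Nat.factorial_pos _)

end Crest.Agent.R11
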