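import Crest.Agent.R11.Defs

/-!
# Row 11: the abstract Bezout type inequality (`PhiStmt`) and `FinStmt`
-/

set_option autoImplicit false

namespace Crest.Agent.R11

open Filter

namespace Phi

section lin

variable {A : Type} [CommRing A] [IsDomain A]

theorem rank_map_add {M P : Type} [AddCommGroup M] [Module A M] [AddCommGroup P] [Module A P]
    (N : Submodule A M) (π : M →ₗ[A] P) :
    Module.rank A (N.map π) + Module.rank A (N ⊓ LinearMap.ker π : Submodule A M) =
      Module.rank A N := by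
  have h := LinearMap.rank_range_add_rank_ker (π ∘ₗ N.subtype)
  rw [LinearMap.range_comp, Submodule.range_subtype] at h
  rw [← h]
  congr 1
  have e : (LinearMap.ker (π ∘ₗ N.subtype)).map N.subtype = N ⊓ LinearMap.ker π := by
    rw [LinearMap.ker_comp, Submodule.map_comap_subtype]
  rw [← e]
  exact (Submodule.equivMapOfInjective N.subtype N.injective_subtype _).rank_eq.symm

omit [IsDomain A] in
theorem rank_range_le_of_ker_le {M N P : Type} [AddCommGroup M] [Module A M] [AddCommGroup N]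
    [Module A N] [AddCommGroup P] [Module A P] (θ : M →ₗ[A] N) (χ : M →ₗ[A] P)
    (h : LinearMap.ker θ ≤ LinearMap.ker χ) :
    Module.rank A (LinearMap.range χ) ≤ Module.rank A (LinearMap.range θ) := by
  let φ : LinearMap.range θ →ₗ[A] P :=
    (LinearMap.ker θ).liftQ χ h ∘ₗ θ.quotKerEquivRange.symm.toLinearMap
  have e : LinearMap.range φ = LinearMap.range χ := by
    simp only [φ]
    rw [LinearMap.range_comp, LinearEquiv.range, Submodule.map_top, Submodule.range_liftQ]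
  rw [← e]
  exact rank_range_le φ

end lin

section ring

variable {A B : Type} [CommRing A] [IsDomain A] [CommRing B] [Algebra A B]

/-- The quotient map as an `A`-linear map. -/
noncomputable abbrev mkL (A : Type) {B : Type} [CommRing A] [CommRing B] [Algebra A B]
    (b : Ideal B) : B →ₗ[A] B ⧸ b := (Ideal.Quotient.mkₐ A b).toLinearMap

/-- The factor map as an `A`-linear map. -/
noncomputable abbrev facL (A : Type) {B : Type} [CommRing A] [CommRing B] [Algebra A B]
    {a b : Ideal B} (h : a ≤ b) : B ⧸ a →ₗ[A] B ⧸ b := (Ideal.Quotient.factorₐ A h).toLinearMap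

omit [IsDomain A] in
theorem facL_mkL {a b : Ideal B} (h : a ≤ b) (x : B) : facL A h (mkL A a x) = mkL A b x := rfl

omit [IsDomain A] in
theorem mkL_eq_zero {b : Ideal B} {x : B} : mkL A b x = 0 ↔ x ∈ b :=
  Ideal.Quotient.eq_zero_iff_mem

omit [IsDomain A] in
theorem map_facL {a b : Ideal B} (h : a ≤ b) (W : Submodule A B) :
    (W.map (mkL A a)).map (facL A h) = W.map (mkL A b) := by
  rw [← Submodule.map_comp]; rfl

omit [IsDomain A] in
theorem range_mkL (b : Ideal B) : (⊤ : Submodule A B).map (mkL A b) = ⊤ := by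
  rw [Submodule.map_top, LinearMap.range_eq_top]
  exact Ideal.Quotient.mk_surjective

omit [IsDomain A] in
theorem rank_quot_eq (b : Ideal B) :
    Module.rank A (B ⧸ b) = Module.rank A ((⊤ : Submodule A B).map (mkL A b)) := by
  rw [range_mkL, rank_top]

omit [IsDomain A] in
theorem RK_anti {a b : Ideal B} (h : a ≤ b) (W : Submodule A B) :
    Module.rank A (W.map (mkL A b)) ≤ Module.rank A (W.map (mkL A a)) := by
  rw [← map_facL h]; exact rank_map_le _ _

omit [IsDomain A] in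
theorem rank_quot_anti {a b : Ideal B} (h : a ≤ b) :
    Module.rank A (B ⧸ b) ≤ Module.rank A (B ⧸ a) := by
  rw [rank_quot_eq, rank_quot_eq]; exact RK_anti h _

theorem Lh {a c : Ideal B} {g : B} (h : ∀ x ∈ c, x * g ∈ a) :
    Module.rank A (B ⧸ a) ≤
      Module.rank A (B ⧸ (a ⊔ Ideal.span {g})) + Module.rank A (B ⧸ c) := by
  have h1 := rank_map_add (A := A) ((⊤ : Submodule A B).map (mkL A a))
    (facL A (le_sup_left : a ≤ a ⊔ Ideal.span {g}))
  rw [map_facL, ← rank_quot_eq, ← rank_quot_eq] at h1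
  rw [← h1]
  refine add_le_add_right ?_ _
  let θ : B →ₗ[A] B ⧸ a := mkL A a ∘ₗ LinearMap.mulRight A g
  have h2 := rank_range_le_of_ker_le (mkL A c) θ (fun x hx => by
    rw [LinearMap.mem_ker] at hx ⊢
    exact (mkL_eq_zero (A := A)).2 (h x ((mkL_eq_zero (A := A)).1 hx)))
  rw [rank_quot_eq c, Submodule.map_top (mkL A c)]
  refine le_trans (Submodule.rank_mono ?_) h2
  rintro y ⟨⟨x, -, rfl⟩, hy⟩
  have hy' : x ∈ a ⊔ Ideal.span {g} := (mkL_eq_zero (A := A)).1 hy
  obtain ⟨u, hu, v, hv, rfl⟩ := Submodule.mem_sup.1 hy'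
  obtain ⟨r, rfl⟩ := Ideal.mem_span_singleton'.1 hv
  refine ⟨r, ?_⟩
  show mkL A a (r * g) = mkL A a (u + r * g)
  rw [map_add, mkL_eq_zero.2 hu, zero_add]

theorem LH {b c : Ideal B} {g : B} {W W' : Submodule A B} (hW : ∀ x ∈ W, x * g ∈ W')
    (h : ∀ x, x * g ∈ b → x ∈ c) :
    Module.rank A (W'.map (mkL A (b ⊔ Ideal.span {g}))) + Module.rank A (W.map (mkL A c)) ≤
      Module.rank A (W'.map (mkL A b)) := by
  have h1 := rank_map_add (A := A) (W'.map (mkL A b))
    (facL A (le_sup_left : b ≤ b ⊔ Ideal.span {g}))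
  rw [map_facL] at h1
  rw [← h1]
  refine add_le_add_right ?_ _
  let θ : W →ₗ[A] B ⧸ b := mkL A b ∘ₗ LinearMap.mulRight A g ∘ₗ W.subtype
  have h2 := rank_range_le_of_ker_le θ (mkL A c ∘ₗ W.subtype) (fun x hx => by
    rw [LinearMap.mem_ker] at hx ⊢
    exact (mkL_eq_zero (A := A)).2 (h x ((mkL_eq_zero (A := A)).1 hx)))
  rw [LinearMap.range_comp, Submodule.range_subtype] at h2
  refine h2.trans (Submodule.rank_mono ?_)
  rintro _ ⟨x, rfl⟩
  refine ⟨⟨x * g, hW x x.2, rfl⟩, ?_⟩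
  exact (mkL_eq_zero (A := A) (b := b ⊔ Ideal.span {g}) (x := x * g)).2
    (Ideal.mem_sup_right (Ideal.mul_mem_left _ _ (Ideal.mem_span_singleton_self g)))

end ring

theorem toNat_le_add {α β γ : Cardinal.{0}} (h : γ ≤ α + β) (hα : α < Cardinal.aleph0)
    (hβ : β < Cardinal.aleph0) : γ.toNat ≤ α.toNat + β.toNat := by
  rw [← Cardinal.toNat_add hα hβ]
  exact Cardinal.toNat_le_toNat h (Cardinal.add_lt_aleph0 hα hβ)

theorem toNat_add_le {α β γ : Cardinal.{0}} (h : α + β ≤ γ) (hγ : γ < Cardinal.aleph0) :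
    α.toNat + β.toNat ≤ γ.toNat := by
  rw [← Cardinal.toNat_add ((self_le_add_right α β).trans_lt (h.trans_lt hγ))
    ((self_le_add_left β α).trans_lt (h.trans_lt hγ))]
  exact Cardinal.toNat_le_toNat h hγ

/-- Telescoping. -/
theorem tele {H H' : ℕ → ℕ} (hm : Monotone H') (h : ∀ N, H' (N + 1) + H N ≤ H (N + 1))
    (N : ℕ) : (N + 1) * H' N ≤ H (2 * N + 1) := by
  have : ∀ k, k * H' N + H N ≤ H (N + k) := by
    intro k
    induction k with
    | zero => simp
    | succ k ih =>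
      have h1 := h (N + k)
      have h2 : H' N ≤ H' (N + k + 1) := hm (by omega)
      rw [← Nat.add_assoc, Nat.succ_mul]
      omega
  have h3 := this (N + 1)
  rw [show N + (N + 1) = 2 * N + 1 by ring] at h3
  omega

theorem sum_up {h H h' H' : ℕ → ℕ} {d : ℕ} (h1 : ∀ N, h (N + 1) ≤ h' (N + 1) + h N)
    (h2 : ∀ N, H' (N + 1) + H N ≤ H (N + 1))
    (h3 : ∀ ε > (0 : ℝ), ∀ᶠ N in atTop, (h' N : ℝ) ≤ H' N + ε * (N : ℝ) ^ d) :
    ∀ ε > (0 : ℝ), ∀ᶠ N in atTop, (h N : ℝ) ≤ H N + ε * (N : ℝ) ^ (d + 1) := by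
  intro ε hε
  obtain ⟨N0, hN0⟩ := eventually_atTop.1 (h3 (ε / 2) (by positivity))
  have key : ∀ k, (h (N0 + k) : ℝ) ≤ H (N0 + k) + h N0 + ε / 2 * ((N0 + k : ℕ) : ℝ) ^ (d + 1) := by
    intro k
    induction k with
    | zero =>
      have : (0 : ℝ) ≤ ε / 2 * ((N0 + 0 : ℕ) : ℝ) ^ (d + 1) := by positivity
      have h0 : (0 : ℝ) ≤ H (N0 + 0) := by positivity
      simp only [Nat.add_zero] at *
      linarith
    | succ k ih =>
      have a1 : (h (N0 + k + 1) : ℝ) ≤ h' (N0 + k + 1) + h (N0 + k) := by exact_mod_cast h1 _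
      have a2 : (H' (N0 + k + 1) : ℝ) + H (N0 + k) ≤ H (N0 + k + 1) := by exact_mod_cast h2 _
      have a3 := hN0 (N0 + k + 1) (by omega)
      have a4 : ((N0 + k : ℕ) : ℝ) ^ (d + 1) + ((N0 + k + 1 : ℕ) : ℝ) ^ d ≤
          ((N0 + k + 1 : ℕ) : ℝ) ^ (d + 1) := by
        have b1 : ((N0 + k : ℕ) : ℝ) ^ d ≤ ((N0 + k + 1 : ℕ) : ℝ) ^ d := by
          exact pow_le_pow_left₀ (by positivity) (by exact_mod_cast Nat.le_succ _) d
        have b2 : (0 : ℝ) ≤ ((N0 + k : ℕ) : ℝ) := by positivity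
        have b3 : ((N0 + k + 1 : ℕ) : ℝ) = ((N0 + k : ℕ) : ℝ) + 1 := by push_cast; ring
        rw [pow_succ, pow_succ]
        have b4 := mul_le_mul_of_nonneg_right b1 b2
        rw [b3] at *
        nlinarith
      rw [← Nat.add_assoc]
      have a5 := mul_le_mul_of_nonneg_left a4 (by positivity : (0 : ℝ) ≤ ε / 2)
      linarith
  obtain ⟨M, hM⟩ := exists_nat_ge (2 * (h N0 : ℝ) / ε)
  filter_upwards [eventually_ge_atTop N0, eventually_ge_atTop M, eventually_ge_atTop 1]
    with N hN hN' hN1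
  obtain ⟨k, rfl⟩ := Nat.exists_eq_add_of_le hN
  have a1 := key k
  have a2 : (h N0 : ℝ) ≤ ε / 2 * ((N0 + k : ℕ) : ℝ) ^ (d + 1) := by
    have b1 : (M : ℝ) ≤ ((N0 + k : ℕ) : ℝ) := by exact_mod_cast hN'
    have b2 : ((N0 + k : ℕ) : ℝ) ≤ ((N0 + k : ℕ) : ℝ) ^ (d + 1) :=
      le_self_pow₀ (by exact_mod_cast hN1) (by omega)
    have b3 : 2 * (h N0 : ℝ) / ε ≤ ((N0 + k : ℕ) : ℝ) ^ (d + 1) := hM.trans (b1.trans b2)
    rw [div_le_iff₀ hε] at b3
    linarith
  linarith

section main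

variable {A B : Type} [CommRing A] [IsDomain A] [CommRing B] [Algebra A B]
  (V : ℕ → Submodule A B) (J : ℕ → Ideal B)

/-- The local Hilbert function. -/
noncomputable def hh (A : Type) {B : Type} [CommRing A] [CommRing B] [Algebra A B]
    (J : ℕ → Ideal B) (b : Ideal B) (N : ℕ) : ℕ := Module.finrank A (B ⧸ (b ⊔ J N))

/-- The global Hilbert function. -/
noncomputable def HH (b : Ideal B) (N : ℕ) : ℕ := Module.finrank A ((V N).map (mkL A b))

variable {V J}

theorem RK_lt (hfg : ∀ N, (V N).FG) (b : Ideal B) (N : ℕ) :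
    Module.rank A ((V N).map (mkL A b)) < Cardinal.aleph0 := by
  have : Module.Finite A ((V N).map (mkL A b)) := Module.Finite.iff_fg.2 ((hfg N).map _)
  exact Module.rank_lt_aleph0 _ _

omit [IsDomain A] in
theorem rk_lt (hJ : ∀ N, Module.rank A (B ⧸ J N) < Cardinal.aleph0) (b : Ideal B) (N : ℕ) :
    Module.rank A (B ⧸ (b ⊔ J N)) < Cardinal.aleph0 :=
  (rank_quot_anti le_sup_right).trans_lt (hJ N)

theorem HH_mono (hV : Monotone V) (hfg : ∀ N, (V N).FG) (b : Ideal B) : Monotone (HH V b) :=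
  fun _ N' h => Cardinal.toNat_le_toNat (Submodule.rank_mono (Submodule.map_mono (hV h)))
    (RK_lt hfg b N')

theorem HH_anti (hfg : ∀ N, (V N).FG) {a b : Ideal B} (h : a ≤ b) (N : ℕ) :
    HH V b N ≤ HH V a N :=
  Cardinal.toNat_le_toNat (RK_anti h _) (RK_lt hfg a N)

theorem HH_step (hmul : ∀ N M, ∀ x ∈ V N, ∀ y ∈ V M, x * y ∈ V (N + M)) (hfg : ∀ N, (V N).FG)
    {b c : Ideal B} {g : B} {c0 : ℕ} (hg : g ∈ V c0) (h : ∀ x, x * g ∈ b → x ∈ c) (N : ℕ) :
    HH V (b ⊔ Ideal.span {g}) (N + c0) + HH V c N ≤ HH V b (N + c0) :=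
  toNat_add_le (LH (fun x hx => hmul N c0 x hx g hg) h) (RK_lt hfg b _)

theorem hh_step (hJ : ∀ N, Module.rank A (B ⧸ J N) < Cardinal.aleph0)
    {b c : Ideal B} {g : B} {N M : ℕ} (h : ∀ x ∈ c, x * g ∈ b) (h' : ∀ x ∈ J M, x * g ∈ J N) :
    hh A J b N ≤ hh A J (b ⊔ Ideal.span {g}) N + hh A J c M := by
  have h1 := Lh (A := A) (a := b ⊔ J N) (c := c ⊔ J M) (g := g) (fun x hx => by
    obtain ⟨u, hu, v, hv, rfl⟩ := Submodule.mem_sup.1 hx
    rw [add_mul]
    exact Ideal.add_mem _ (Ideal.mem_sup_left (h u hu)) (Ideal.mem_sup_right (h' v hv)))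
  rw [sup_right_comm] at h1
  exact toNat_le_add h1 (rk_lt hJ _ _) (rk_lt hJ _ _)

theorem hh_eq_zero (hex : ∀ x, ∃ N, x ∈ V N) (hfg : ∀ N, (V N).FG) {b : Ideal B}
    (h : ∀ N, HH V b N = 0) (N : ℕ) : hh A J b N = 0 := by
  have : Module.rank A (B ⧸ b) = 0 := by
    rw [rank_eq_zero_iff]
    intro y
    obtain ⟨x, rfl⟩ := Ideal.Quotient.mk_surjective y
    obtain ⟨M, hM⟩ := hex x
    have h0 : Module.rank A ((V M).map (mkL A b)) = 0 := by
      have := h M
      unfold HH Module.finrank at this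
      rcases Cardinal.toNat_eq_zero.1 this with h0 | h0
      · exact h0
      · exact absurd (RK_lt hfg b M) (not_lt.2 h0)
    obtain ⟨a, ha, ha'⟩ := rank_eq_zero_iff.1 h0 ⟨mkL A b x, x, hM, rfl⟩
    exact ⟨a, ha, congrArg Subtype.val ha'⟩
  have h2 : Module.rank A (B ⧸ (b ⊔ J N)) = 0 :=
    le_antisymm (this ▸ rank_quot_anti le_sup_left) (zero_le)
  unfold hh Module.finrank
  rw [h2, map_zero]

theorem hh_zero (hJ0 : J 0 = ⊤) (b : Ideal B) : hh A J b 0 = 0 := by
  unfold hh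
  have : Subsingleton (B ⧸ (b ⊔ J 0)) := Ideal.Quotient.subsingleton_iff.2 (by simp [hJ0])
  exact Module.finrank_zero_of_subsingleton

end main

/-- Either an associated prime contains `L` or some element of `L` is a nonzero divisor. -/
theorem dicho {B : Type} [CommRing B] [IsNoetherianRing B] [Algebra ℂ B] (L : Submodule ℂ B)
    (b : Ideal B) :
    (∃ (q : Ideal B) (g : B), q.IsPrime ∧ (∀ f ∈ L, f ∈ q) ∧ g ∉ b ∧ ∀ x, x * g ∈ b ↔ x ∈ q) ∨
      ∃ f ∈ L, ∀ x, x * f ∈ b → x ∈ b := by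
  by_cases h : ∃ q ∈ associatedPrimes B (B ⧸ b), ∀ f ∈ L, f ∈ q
  · left
    obtain ⟨q, hq, hL⟩ := h
    rw [AssociatedPrimes.mem_iff, isAssociatedPrime_iff] at hq
    obtain ⟨hp, y, hy⟩ := hq
    obtain ⟨g, rfl⟩ := Ideal.Quotient.mk_surjective y
    have hx : ∀ x, x * g ∈ b ↔ x ∈ q := fun x => by
      rw [hy, Submodule.mem_colon_singleton, Submodule.mem_bot, ← Ideal.Quotient.eq_zero_iff_mem]
      rfl
    refine ⟨q, g, hp, hL, fun hg => hp.ne_top ?_, hx⟩
    rw [Ideal.eq_top_iff_one, ← hx, one_mul]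
    exact hg
  · right
    push Not at h
    have : Finite (associatedPrimes B (B ⧸ b)) := (associatedPrimes.finite B (B ⧸ b)).to_subtype
    obtain ⟨f, hf⟩ := Submodule.exists_forall_notMem_of_forall_ne_top
      (fun q : associatedPrimes B (B ⧸ b) => (q.1.restrictScalars ℂ).comap L.subtype) (fun q hq => by
        obtain ⟨f, hf, hfq⟩ := h q.1 q.2
        have : (⟨f, hf⟩ : L) ∈ (q.1.restrictScalars ℂ).comap L.subtype := hq ▸ Submodule.mem_top
        exact hfq this)
    refine ⟨f, f.2, fun x hx => ?_⟩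
    by_contra hxb
    have hz : (f : B) ∈ ⋃ p ∈ associatedPrimes B (B ⧸ b), (p : Set B) := by
      rw [biUnion_associatedPrimes_eq_zero_divisors]
      refine ⟨Ideal.Quotient.mk b x, fun h0 => hxb (Ideal.Quotient.eq_zero_iff_mem.1 h0), ?_⟩
      rw [mul_comm, ← Ideal.Quotient.eq_zero_iff_mem] at hx
      exact hx
    obtain ⟨q, hq, hfq⟩ := Set.mem_iUnion₂.1 hz
    exact hf ⟨q, hq⟩ hfq

end Phi

open Phi

theorem phiStmt : PhiStmt := by
  intro A B _ _ _ _ _ _ V J L n hV hmul hex hfg hC hJ0 hJmul hJ hL hq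
  have main : ∀ d : ℕ, ∀ b : Ideal B, (∃ C : ℕ, ∀ N, HH V b N ≤ C * (N + 1) ^ d) →
      ∀ ε > (0 : ℝ), ∀ᶠ N in atTop, (hh A J b N : ℝ) ≤ HH V b N + ε * (N : ℝ) ^ d := by
    -- the first case is common
    have case1 : ∀ (d : ℕ) (b q : Ideal B) (g : B), q.IsPrime → (∀ f ∈ L, f ∈ q) →
        (∀ x, x * g ∈ b ↔ x ∈ q) →
        (∀ ε > (0 : ℝ), ∀ᶠ N in atTop, (hh A J (b ⊔ Ideal.span {g}) N : ℝ) ≤
          HH V (b ⊔ Ideal.span {g}) N + ε * (N : ℝ) ^ d) →
        ∀ ε > (0 : ℝ), ∀ᶠ N in atTop, (hh A J b N : ℝ) ≤ HH V b N + ε * (N : ℝ) ^ d := by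
      intro d b q g hp hLq hx ih ε hε
      obtain ⟨c0, hc0⟩ := hex g
      obtain ⟨N0, hN0⟩ := eventually_atTop.1 (hq q hp hLq c0)
      filter_upwards [ih ε hε, eventually_ge_atTop (N0 + c0)] with N h1 h2
      obtain ⟨M, rfl⟩ : ∃ M, N = M + c0 := ⟨N - c0, by omega⟩
      have a1 : hh A J q (M + c0) ≤ HH V q M := hN0 M (by omega)
      have a2 := hh_step (A := A) hJ (b := b) (c := q) (g := g) (N := M + c0) (M := M + c0)
        (fun x h => (hx x).2 h) (fun x h => Ideal.mul_mem_right _ _ h)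
      have a3 := HH_step hmul hfg hc0 (fun x h => (hx x).1 h) M
      have a1' : (hh A J q (M + c0) : ℝ) ≤ HH V q M := by exact_mod_cast a1
      have a2' : (hh A J b (M + c0) : ℝ) ≤
        hh A J (b ⊔ Ideal.span {g}) (M + c0) + hh A J q (M + c0) := by exact_mod_cast a2
      have a3' : (HH V (b ⊔ Ideal.span {g}) (M + c0) : ℝ) + HH V q M ≤ HH V b (M + c0) := by
        exact_mod_cast a3
      linarith
    have lt_sup : ∀ (b : Ideal B) (g : B), g ∉ b → b < b ⊔ Ideal.span {g} := fun b g hg =>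
      lt_of_le_of_ne le_sup_left fun h => hg
        (h ▸ Ideal.mem_sup_right (Ideal.mem_span_singleton_self g))
    have step1 : ∀ (b : Ideal B) (f : B), f ∈ L → ∀ N,
        hh A J b (N + 1) ≤ hh A J (b ⊔ Ideal.span {f}) (N + 1) + hh A J b N := fun b f hf N =>
      hh_step hJ (fun x h => Ideal.mul_mem_right _ _ h) (fun x h => hJmul N 1 x h f (hL f hf).2)
    intro d
    induction d with
    | zero =>
      intro b
      induction b using WellFoundedGT.induction with
      | _ b ih =>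
      rintro ⟨C, hC⟩
      rcases dicho L b with ⟨q, g, hp, hLq, hg, hx⟩ | ⟨f, hf, hx⟩
      · exact case1 0 b q g hp hLq hx (ih _ (lt_sup b g hg)
          ⟨C, fun N => (HH_anti hfg le_sup_left N).trans (hC N)⟩)
      · have t := tele (HH_mono hV hfg (b ⊔ Ideal.span {f}))
          (HH_step hmul hfg (hL f hf).1 hx)
        have z : ∀ N, HH V (b ⊔ Ideal.span {f}) N = 0 := by
          intro N
          have b1 := (t (N + C)).trans (hC _)
          have b2 := HH_mono hV hfg (b ⊔ Ideal.span {f}) (Nat.le_add_right N C)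
          rw [pow_zero, mul_one] at b1
          by_contra h0
          have : 1 ≤ HH V (b ⊔ Ideal.span {f}) (N + C) := by omega
          nlinarith
        have z' : ∀ N, hh A J b N = 0 := by
          intro N
          induction N with
          | zero => exact hh_zero hJ0 b
          | succ N ihN =>
            have := step1 b f hf N
            rw [hh_eq_zero hex hfg z, ihN] at this
            omega
        intro ε hε
        refine Eventually.of_forall fun N => ?_
        rw [z' N, Nat.cast_zero]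
        positivity
    | succ d ihd =>
      intro b
      induction b using WellFoundedGT.induction with
      | _ b ih =>
      rintro ⟨C, hC⟩
      rcases dicho L b with ⟨q, g, hp, hLq, hg, hx⟩ | ⟨f, hf, hx⟩
      · exact case1 _ b q g hp hLq hx (ih _ (lt_sup b g hg)
          ⟨C, fun N => (HH_anti hfg le_sup_left N).trans (hC N)⟩)
      · have t := tele (HH_mono hV hfg (b ⊔ Ideal.span {f}))
          (HH_step hmul hfg (hL f hf).1 hx)
        refine sum_up (step1 b f hf) (HH_step hmul hfg (hL f hf).1 hx) (ihd _ ⟨C * 2 ^ (d + 1), ?_⟩)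
        intro N
        have b1 := (t N).trans (hC _)
        refine Nat.le_of_mul_le_mul_left (b1.trans (le_of_eq ?_)) (Nat.succ_pos N)
        rw [show 2 * N + 1 + 1 = 2 * (N + 1) by ring, mul_pow]
        ring
  have e1 : ∀ N, HH V ⊥ N = Module.finrank A (V N) := fun N =>
    (Submodule.equivMapOfInjective (mkL A (⊥ : Ideal B)) (by
      rw [injective_iff_map_eq_zero]
      intro x hx
      exact mkL_eq_zero.1 hx) (V N)).finrank_eq.symm
  have e2 : ∀ N, hh A J ⊥ N = Module.finrank A (B ⧸ J N) := fun N => by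
    unfold hh; rw [bot_sup_eq]
  obtain ⟨C, hC⟩ := hC
  have := main n ⊥ ⟨C, fun N => (e1 N).symm ▸ hC N⟩
  simpa only [e1, e2] using this

theorem finStmt : FinStmt := by
  intro A B _ _ _ _ _ p J Y hp
  induction J using WellFoundedGT.induction with
  | _ J ih =>
  intro hY
  classical
  have hex : ∃ i, p ^ i ≤ J := ⟨Y, hY⟩
  have hi := Nat.find_spec hex
  rcases h0 : Nat.find hex with _ | i
  · rw [h0, pow_zero, Ideal.one_eq_top, top_le_iff] at hi
    have : Subsingleton (B ⧸ J) := Ideal.Quotient.subsingleton_iff.2 hi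
    rw [rank_subsingleton']
    exact Cardinal.aleph0_pos
  · rw [h0] at hi
    have hn : ¬ p ^ i ≤ J := Nat.find_min hex (by omega)
    obtain ⟨g, hg, hgJ⟩ := SetLike.not_le_iff_exists.1 hn
    have h1 := Lh (A := A) (a := J) (c := p) (g := g) (fun x hx => hi (by
      rw [pow_succ']; exact Ideal.mul_mem_mul hx hg))
    refine h1.trans_lt (Cardinal.add_lt_aleph0 (ih _ ?_ (hY.trans le_sup_left)) hp)
    exact lt_of_le_of_ne le_sup_left fun h => hgJ
      (h ▸ Ideal.mem_sup_right (Ideal.mem_span_singleton_self g))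

end Crest.Agent.R11
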