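import Crest.Agent.R11.Defs

/-!
# Row 11: structure of a prime along which a linear system vanishes to high order
-/

set_option autoImplicit false
set_option linter.unusedSectionVars false

namespace Crest.Agent.R11

open MvPolynomial

namespace Struct

section general

variable {σ : Type}

local notation "B" => MvPolynomial σ ℂ

theorem mem_supp {J : Set σ} {R : B} :
    R ∈ supported ℂ J ↔ ∀ α ∈ R.support, ∀ s, α s ≠ 0 → s ∈ J := by
  rw [mem_supported]
  constructor
  · intro h α hα s hs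
    exact h (Finset.mem_coe.2 ((mem_vars_iff_mem_support s).2
      ⟨α, hα, Finsupp.mem_support_iff.2 hs⟩))
  · intro h s hs
    obtain ⟨α, hα, h'⟩ := (mem_vars_iff_mem_support s).1 (Finset.mem_coe.1 hs)
    exact h α hα s (Finsupp.mem_support_iff.1 h')

theorem mem_support_pderiv {j : σ} {R : B} {α : σ →₀ ℕ} (h : α ∈ (pderiv j R).support) :
    α + Finsupp.single j 1 ∈ R.support := by
  rw [mem_support_iff] at h ⊢
  rw [coeff_pderiv] at h
  exact left_ne_zero_of_mul h

theorem pderiv_supp {J : Set σ} {R : B} (h : R ∈ supported ℂ J) (j : σ) :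
    pderiv j R ∈ supported ℂ J := by
  rw [mem_supp] at h ⊢
  intro α hα s hs
  refine h _ (mem_support_pderiv hα) s ?_
  simp only [Finsupp.coe_add, Pi.add_apply]
  omega

theorem pderiv_zero_of_supp {J : Set σ} {R : B} (h : R ∈ supported ℂ J) {j : σ} (hj : j ∉ J) :
    pderiv j R = 0 :=
  pderiv_eq_zero_of_notMem_vars fun h' => hj (mem_supported.1 h (Finset.mem_coe.2 h'))

theorem sub_add_single {α : σ →₀ ℕ} {j : σ} (h : α j ≠ 0) :
    α - Finsupp.single j 1 + Finsupp.single j 1 = α :=
  tsub_add_cancel_of_le (Finsupp.single_le_iff.2 (by omega))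

theorem eq_zero_of_pderiv {j : σ} {R : B} (h : pderiv j R = 0) {α : σ →₀ ℕ}
    (hα : α ∈ R.support) : α j = 0 := by
  by_contra hn
  have h1 := coeff_pderiv (i := j) R (α - Finsupp.single j 1)
  rw [h, sub_add_single hn, coeff_zero] at h1
  rcases mul_eq_zero.1 h1.symm with h2 | h2
  · exact mem_support_iff.1 hα h2
  · exact Nat.cast_add_one_ne_zero _ h2

theorem totalDegree_pderiv_lt {j : σ} {R : B} (h : pderiv j R ≠ 0) :
    (pderiv j R).totalDegree < R.totalDegree := by
  have key : ∀ α ∈ (pderiv j R).support, (α.sum fun _ e => e) < R.totalDegree := by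
    intro α hα
    have h1 := le_totalDegree (mem_support_pderiv hα)
    rw [Finsupp.sum_add_index' (fun _ => rfl) (fun _ _ _ => rfl),
      Finsupp.sum_single_index rfl] at h1
    omega
  obtain ⟨α, hα⟩ := support_nonempty.2 h
  exact (Finset.sup_lt_iff (lt_of_le_of_lt (Nat.zero_le _) (key α hα))).2 key

/-- Minimal degree lemma. -/
theorem minDeg (U : Set B) (J₀ : Set σ) (hU : ∀ R ∈ U, ∀ j ∈ J₀, pderiv j R ∈ U) :
    ∀ (n : ℕ) (R : B), R.totalDegree = n → R ∈ U → R ≠ 0 →
      ∃ R' ∈ U, R' ≠ 0 ∧ ∀ α ∈ R'.support, ∀ j ∈ J₀, α j = 0 := by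
  intro n
  induction n using Nat.strong_induction_on with
  | _ n ih =>
    intro R hn hR h0
    by_cases h : ∀ j ∈ J₀, pderiv j R = 0
    · exact ⟨R, hR, h0, fun α hα j hj => eq_zero_of_pderiv (h j hj) hα⟩
    · push Not at h
      obtain ⟨j, hj, h1⟩ := h
      exact ih _ (hn ▸ totalDegree_pderiv_lt h1) _ rfl (hU R hR j hj) h1

variable (p : Ideal (MvPolynomial σ ℂ)) [p.IsPrime]

/-- The residue field. -/
abbrev κ : Type := FractionRing (MvPolynomial σ ℂ ⧸ p)

/-- The map to the residue field. -/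
noncomputable def φ : B →+* κ p := (algebraMap (B ⧸ p) (κ p)).comp (Ideal.Quotient.mk p)

theorem φ_eq_zero {f : B} : φ p f = 0 ↔ f ∈ p := by
  simp only [φ, RingHom.comp_apply]
  rw [IsFractionRing.to_map_eq_zero_iff, Ideal.Quotient.eq_zero_iff_mem]

theorem exists_div (k : κ p) : ∃ a b : B, b ∉ p ∧ φ p b * k = φ p a := by
  obtain ⟨a, b, hb, rfl⟩ := IsFractionRing.div_surjective (A := B ⧸ p) k
  obtain ⟨a, rfl⟩ := Ideal.Quotient.mk_surjective a
  obtain ⟨b, rfl⟩ := Ideal.Quotient.mk_surjective b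
  have hb' : b ∉ p := fun h =>
    nonZeroDivisors.ne_zero hb (Ideal.Quotient.eq_zero_iff_mem.2 h)
  refine ⟨a, b, hb', ?_⟩
  have : φ p b ≠ 0 := fun h => hb' ((φ_eq_zero p).1 h)
  exact mul_div_cancel₀ _ this

variable (E : σ → Derivation ℂ (MvPolynomial σ ℂ) (MvPolynomial σ ℂ))

/-- The conormal vector of `g`. -/
noncomputable def vec (g : B) : σ → κ p := fun s => φ p (E s g)

/-- The conormal space. -/
noncomputable def NN : Submodule (κ p) (σ → κ p) := Submodule.span (κ p) (vec p E '' p)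

theorem vec_mem {g : B} (hg : g ∈ p) : vec p E g ∈ NN p E := Submodule.subset_span ⟨g, hg, rfl⟩

theorem vec_add (f g : B) : vec p E (f + g) = vec p E f + vec p E g := by
  ext s; simp [vec]

theorem vec_mul (b : B) {g : B} (hg : g ∈ p) : vec p E (b * g) = φ p b • vec p E g := by
  ext s
  simp [vec, Derivation.leibniz, (φ_eq_zero p).2 hg]

theorem denom {n : σ → κ p} (hn : n ∈ NN p E) : ∃ s ∉ p, ∃ g ∈ p, φ p s • n = vec p E g := by
  have hp : p.IsPrime := inferInstance
  induction hn using Submodule.span_induction with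
  | mem x hx =>
    obtain ⟨g, hg, rfl⟩ := hx
    exact ⟨1, (Ideal.ne_top_iff_one p).1 hp.ne_top, g, hg, by simp⟩
  | zero =>
    exact ⟨1, (Ideal.ne_top_iff_one p).1 hp.ne_top, 0, p.zero_mem, by ext s; simp [vec]⟩
  | add x y _ _ hx hy =>
    obtain ⟨s, hs, g, hg, h⟩ := hx
    obtain ⟨s', hs', g', hg', h'⟩ := hy
    refine ⟨s * s', fun h => (hp.mem_or_mem h).elim hs hs', s' * g + s * g',
      p.add_mem (p.mul_mem_left _ hg) (p.mul_mem_left _ hg'), ?_⟩
    rw [vec_add, vec_mul p E _ hg, vec_mul p E _ hg', ← h, ← h', map_mul, smul_add, smul_smul,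
      smul_smul, mul_comm (φ p s')]
  | smul k x _ hx =>
    obtain ⟨s, hs, g, hg, h⟩ := hx
    obtain ⟨a, b, hb, hk⟩ := exists_div p k
    refine ⟨b * s, fun h => (hp.mem_or_mem h).elim hb hs, a * g, p.mul_mem_left _ hg, ?_⟩
    rw [vec_mul p E _ hg, ← h, ← hk, map_mul, smul_smul, smul_smul]
    congr 1; ring

theorem valid_basis {k : Type} [Field k] [Fintype σ] [DecidableEq σ] {N : Submodule k (σ → k)}
    {I : Finset σ} (h : Valid N I) (i : σ) :
    ∃ n ∈ N, ∀ i' ∈ I, n i' = if i = i' then 1 else 0 := by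
  let π : N →ₗ[k] (I → k) := (LinearMap.funLeft k k (Subtype.val : I → σ)).comp N.subtype
  have hinj : Function.Injective π := by
    rw [← LinearMap.ker_eq_bot, LinearMap.ker_eq_bot']
    intro n hn
    exact Subtype.ext (h.1 n n.2 fun i hi => congrFun hn ⟨i, hi⟩)
  have hsurj : Function.Surjective π :=
    (LinearMap.injective_iff_surjective_of_finrank_eq_finrank (by simp [← h.2])).1 hinj
  obtain ⟨n, hn⟩ := hsurj fun i' => if i = i'.1 then 1 else 0
  exact ⟨n, n.2, fun i' hi' => congrFun hn ⟨i', hi'⟩⟩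

theorem dual [Fintype σ] [DecidableEq σ] {I : Finset σ} (h : Valid (NN p E) I) :
    ∃ g Δ, DualSys E p I g Δ := by
  have hp : p.IsPrime := inferInstance
  choose n hn hn' using valid_basis h
  choose s hs g hg hsg using fun i => denom p E (hn i)
  refine ⟨fun i => (∏ l ∈ Finset.univ.erase i, s l) * g i, ∏ l, s l, ?_,
    fun i _ => p.mul_mem_left _ (hg i), fun i _ i' hi' => ?_⟩
  · intro h
    obtain ⟨l, _, hl⟩ := (Ideal.IsPrime.prod_mem_iff (hp := hp)).1 h
    exact hs l hl
  · rw [← φ_eq_zero, map_sub]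
    have h1 := congrFun (vec_mul p E (∏ l ∈ Finset.univ.erase i, s l) (hg i)) i'
    rw [← hsg, smul_smul, ← map_mul, Finset.prod_erase_mul _ _ (Finset.mem_univ i)] at h1
    simp only [vec, Pi.smul_apply, smul_eq_mul, hn' i i' hi'] at h1
    rw [h1]
    split_ifs <;> simp

theorem indep_of_valid [Fintype σ] [DecidableEq σ] {I : Finset σ}
    (h : Valid (NN p fun s => pderiv s) I) : Indep p Iᶜ := by
  intro R hR hRp
  by_contra h0
  obtain ⟨R', ⟨h1, h2⟩, h3, h4⟩ := minDeg {R | R ∈ supported ℂ ((Iᶜ : Finset σ) : Set σ) ∧ R ∈ p}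
    Set.univ (by
      rintro R ⟨h1, h2⟩ j -
      refine ⟨pderiv_supp h1 j, ?_⟩
      have h5 := h.1 _ (vec_mem p _ h2) fun i hi => by
        simp only [vec]
        rw [pderiv_zero_of_supp h1 (by simpa using hi), map_zero]
      exact (φ_eq_zero p).1 (congrFun h5 j)) _ R rfl ⟨hR, hRp⟩ h0
  have h5 : R' = C (coeff 0 R') := by
    ext α
    by_cases hα : α = 0
    · simp [hα]
    · rw [coeff_C, if_neg (Ne.symm hα)]
      by_contra hn
      exact hα (Finsupp.ext fun j => h4 α (mem_support_iff.2 hn) j trivial)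
  have h6 : coeff 0 R' ≠ 0 := fun h => h3 (by rw [h5, h, map_zero])
  rw [h5] at h2
  exact (inferInstance : p.IsPrime).ne_top
    (p.eq_top_of_isUnit_mem h2 ((IsUnit.mk0 _ h6).map C))

omit [p.IsPrime] in
theorem exists_maximal [Fintype σ] [DecidableEq σ] {J₀ : Finset σ} (h : Indep p J₀) :
    ∃ J, J₀ ⊆ J ∧ Indep p J ∧ ∀ s ∉ J, ¬Indep p (insert s J) := by
  classical
  obtain ⟨J, hJ, hmax⟩ := Finset.exists_max_image
    (Finset.univ.filter fun J : Finset σ => J₀ ⊆ J ∧ Indep p J) Finset.card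
    ⟨J₀, by simp [h]⟩
  simp only [Finset.mem_filter, Finset.mem_univ, true_and] at hJ hmax
  refine ⟨J, hJ.1, hJ.2, fun s hs hi => ?_⟩
  have := hmax _ ⟨hJ.1.trans (Finset.subset_insert s J), hi⟩
  rw [Finset.card_insert_of_notMem hs] at this
  omega

theorem root_of_supp {y : σ} {R : B} (hR : R ∈ supported ℂ ({y} : Set σ)) (hp : R ∈ p)
    (h0 : R ≠ 0) : ∃ x : ℂ, X y - C x ∈ p := by
  rw [supported, Set.image_singleton, Algebra.adjoin_singleton_eq_range_aeval] at hR
  obtain ⟨q, rfl⟩ := hR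
  have hq : q ≠ 0 := fun h => h0 (by simp [h])
  have halg : IsAlgebraic ℂ (Ideal.Quotient.mkₐ ℂ p (X y)) := by
    refine ⟨q, hq, ?_⟩
    rw [Polynomial.aeval_algHom_apply]
    exact Ideal.Quotient.eq_zero_iff_mem.2 hp
  obtain ⟨x, hx⟩ := minpoly.mem_range_of_degree_eq_one ℂ _
    (IsAlgClosed.degree_eq_one_of_irreducible ℂ (minpoly.irreducible halg.isIntegral))
  refine ⟨x, Ideal.Quotient.eq.1 ?_⟩
  exact hx.symm

theorem exists_of_closed {J : Finset σ} (hn : ¬Indep p J) (J₀ : Set σ)
    (hcl : ∀ g ∈ p, ∀ s ∈ J₀, pderiv s g ∈ p) :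
    ∃ R ∈ p, R ≠ 0 ∧ ∀ α ∈ R.support, ∀ s, α s ≠ 0 → s ∈ J ∧ s ∉ J₀ := by
  simp only [Indep, not_forall] at hn
  obtain ⟨R, hR, hRp, h0⟩ := hn
  obtain ⟨R', ⟨h1, h2⟩, h3, h4⟩ := minDeg {R | R ∈ supported ℂ (J : Set σ) ∧ R ∈ p} J₀
    (fun R hR j hj => ⟨pderiv_supp hR.1 j, hcl R hR.2 j hj⟩) _ R rfl ⟨hR, hRp⟩ h0
  exact ⟨R', h2, h3, fun α hα s hs => ⟨mem_supp.1 h1 α hα s hs, fun h => hs (h4 α hα s h)⟩⟩

theorem root_of_closed [Fintype σ] [DecidableEq σ] {I : Finset σ} {y : σ}
    (hn : ¬Indep p (insert y Iᶜ)) (hcl : ∀ g ∈ p, ∀ s ∉ I, pderiv s g ∈ p) :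
    ∃ x : ℂ, X y - C x ∈ p := by
  obtain ⟨R, h2, h3, h4⟩ := exists_of_closed p hn {s | s ∉ I} hcl
  refine root_of_supp p (mem_supp.2 fun α hα s hs => ?_) h2 h3
  obtain ⟨h5, h6⟩ := h4 α hα s hs
  exact (Finset.mem_insert.1 h5).resolve_right fun h => h6 (Finset.mem_compl.1 h)

end general

section special

variable {m : ℕ} (c : Fin m → ℂ)

local notation "B" => MvPolynomial (Option (Fin m)) ℂ

theorem der_sum {ι : Type} (s : Finset ι) (D : ι → Derivation ℂ B B) (g : B) :
    (∑ i ∈ s, D i) g = ∑ i ∈ s, D i g := by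
  classical
  induction s using Finset.induction_on with
  | empty => simp
  | insert i s hi ih => simp [Finset.sum_insert hi, ih]

theorem Dv_some (l : Fin m) : Dv c (some l) = pderiv (some l) := rfl

theorem Dv_none (g : B) :
    Dv c none g = X none * pderiv none g + ∑ j, C (c j) * pderiv (some j) g := by
  have : Dv c none = (X none : B) • pderiv none + ∑ j, (C (c j) : B) • pderiv (some j) := by
    refine derivation_ext fun o => ?_
    rw [Dv, mkDerivation_X]
    rcases o with _ | l
    · simp [der_sum, pderiv_X]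
    · simp [der_sum, pderiv_X, Pi.single_apply]
  rw [this]
  simp [der_sum]

theorem coeff_X_pderiv (s : Option (Fin m)) (R : B) (α : Option (Fin m) →₀ ℕ) :
    coeff α (X s * pderiv s R) = α s * coeff α R := by
  rw [coeff_X_mul']
  split_ifs with h
  · have h' := Finsupp.mem_support_iff.1 h
    rw [coeff_pderiv, sub_add_single h', mul_comm]
    congr 1
    simp only [Finsupp.coe_tsub, Pi.sub_apply, Finsupp.single_eq_same]
    rw [← Nat.cast_add_one, Nat.sub_add_cancel (by omega)]
  · simp [Finsupp.notMem_support_iff.1 h]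

theorem coeff_Dv {j : Fin m} {R : B} (hR : R ∈ supported ℂ ({none, some j} : Set (Option (Fin m))))
    (α : Option (Fin m) →₀ ℕ) :
    coeff α (Dv c none R) = α none * coeff α R +
      c j * (coeff (α + Finsupp.single (some j) 1) R * (α (some j) + 1)) := by
  rw [Dv_none, coeff_add, coeff_X_pderiv, Finset.sum_eq_single j, coeff_C_mul, coeff_pderiv]
  · intro l _ hl
    rw [pderiv_zero_of_supp hR (by simpa using hl), mul_zero]
  · simp

/-- A `Dv none` stable ideal without polynomials in `w` alone has none in `w, z_j`. -/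
theorem no_two {j : Fin m} (hc : c j ≠ 0) (p : Ideal B) (hD : ∀ g ∈ p, Dv c none g ∈ p)
    (hI : ∀ R ∈ supported ℂ ({none} : Set (Option (Fin m))), R ∈ p → R = 0) :
    ∀ (n : ℕ) (S : Finset (Option (Fin m) →₀ ℕ)), S.card = n →
      (∀ α, α + Finsupp.single (some j) 1 ∈ S → α ∈ S) →
      ∀ R ∈ supported ℂ ({none, some j} : Set (Option (Fin m))), R ∈ p → R.support ⊆ S → R = 0 := by
  intro n
  induction n with
  | zero =>
    intro S hS _ R _ _ h
    rw [Finset.card_eq_zero.1 hS, Finset.subset_empty, support_eq_empty] at h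
    exact h
  | succ n ih =>
    intro S hS hcl R hR hRp hRS
    obtain ⟨β, hβ, hmax⟩ := Finset.exists_max_image S (fun α => α (some j))
      (Finset.card_pos.1 (by omega))
    have hβ' : β + Finsupp.single (some j) 1 ∉ S := fun h => by
      have := hmax _ h
      simp at this
    have hco : ∀ α, coeff α (Dv c none R - C (β none : ℂ) * R) =
        ((α none : ℂ) - β none) * coeff α R +
          c j * (coeff (α + Finsupp.single (some j) 1) R * (α (some j) + 1)) := by
      intro α
      rw [coeff_sub, coeff_Dv c hR, coeff_C_mul]; ring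
    have hsub : ∀ α ∈ (Dv c none R - C (β none : ℂ) * R).support,
        α ∈ R.support ∨ α + Finsupp.single (some j) 1 ∈ R.support := by
      intro α hα
      by_contra hn
      simp only [not_or, notMem_support_iff] at hn
      exact mem_support_iff.1 hα (by rw [hco, hn.1, hn.2]; simp)
    have h0 : Dv c none R - C (β none : ℂ) * R = 0 := by
      refine ih (S.erase β) (by rw [Finset.card_erase_of_mem hβ]; omega) ?_ _ ?_
        (p.sub_mem (hD R hRp) (p.mul_mem_left _ hRp)) ?_
      · intro α hα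
        have h1 := Finset.mem_of_mem_erase hα
        exact Finset.mem_erase.2 ⟨fun h => hβ' (h ▸ h1), hcl α h1⟩
      · refine mem_supp.2 fun α hα s hs => ?_
        rcases hsub α hα with h | h
        · exact mem_supp.1 hR α h s hs
        · refine mem_supp.1 hR _ h s ?_
          simp only [Finsupp.coe_add, Pi.add_apply]
          omega
      · intro α hα
        refine Finset.mem_erase.2 ⟨?_, (hsub α hα).elim (fun h => hRS h) fun h => hcl α (hRS h)⟩
        rintro rfl
        refine mem_support_iff.1 hα ?_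
        rw [hco, notMem_support_iff.1 fun h => hβ' (hRS h)]
        simp
    by_contra hR0
    obtain ⟨γ, hγ, hγm⟩ := Finset.exists_max_image R.support (fun α => α (some j))
      (support_nonempty.2 hR0)
    have hγ' : coeff (γ + Finsupp.single (some j) 1) R = 0 := notMem_support_iff.1 fun h => by
      have := hγm _ h
      simp at this
    have hγ0 := mem_support_iff.1 hγ
    have e1 : (γ none : ℂ) - β none = 0 := by
      have h1 := hco γ
      rw [h0, hγ', coeff_zero] at h1
      simpa [hγ0] using h1.symm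
    have e2 : γ (some j) = 0 := by
      by_contra hn
      have h1 := hco (γ - Finsupp.single (some j) 1)
      have h2 : (γ - Finsupp.single (some j) 1 : Option (Fin m) →₀ ℕ) none = γ none := by simp
      rw [h0, sub_add_single hn, coeff_zero, h2, e1, zero_mul, zero_add] at h1
      exact mul_ne_zero hc (mul_ne_zero hγ0 (Nat.cast_add_one_ne_zero _)) h1.symm
    refine hR0 (hI R (mem_supp.2 fun α hα s hs => ?_) hRp)
    rcases mem_supp.1 hR α hα s hs with h | h
    · exact h
    · have h1 := hγm α hα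
      rw [Set.mem_singleton_iff.1 h] at hs
      omega

theorem no_two' {j : Fin m} (hc : c j ≠ 0) (p : Ideal B) (hD : ∀ g ∈ p, Dv c none g ∈ p)
    (hI : ∀ R ∈ supported ℂ ({none} : Set (Option (Fin m))), R ∈ p → R = 0) (R : B)
    (hR : R ∈ supported ℂ ({none, some j} : Set (Option (Fin m)))) (hp : R ∈ p) : R = 0 := by
  refine no_two c hc p hD hI _ (R.support.biUnion Finset.Iic) rfl ?_ R hR hp ?_
  · intro α hα
    obtain ⟨β, hβ, h⟩ := Finset.mem_biUnion.1 hα
    exact Finset.mem_biUnion.2 ⟨β, hβ, Finset.mem_Iic.2 (le_self_add.trans (Finset.mem_Iic.1 h))⟩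
  · exact fun α hα => Finset.mem_biUnion.2 ⟨α, hα, Finset.mem_Iic.2 le_rfl⟩

theorem one_le_of_fast {Γ : ℕ} {e : Fin m → ℕ} (hΓ : 2 ≤ Γ) (h : Fast Γ e) (j : Fin m) :
    1 ≤ e j := by
  induction j using WellFoundedLT.induction with
  | _ j ih =>
    have h1 : 1 ≤ ∏ i ∈ Finset.univ.filter (· < j), e i :=
      Finset.one_le_prod' fun i hi => ih i (Finset.mem_filter.1 hi).2
    have h2 := h j
    nlinarith

/-- The change of coordinates on conormal vectors. -/
def Tr {k : Type} [Field k] (u : k) (c : Fin m → k) :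
    (Option (Fin m) → k) →ₗ[k] (Option (Fin m) → k) where
  toFun n o := o.elim (u * n none + ∑ j, c j * n (some j)) fun j => n (some j)
  map_add' x y := by
    ext (_ | j)
    · simp [mul_add, Finset.sum_add_distrib]; ring
    · simp
  map_smul' a x := by
    ext (_ | j)
    · simp [mul_add, Finset.mul_sum, mul_left_comm]
    · simp

theorem Tr_injective {k : Type} [Field k] {u : k} (hu : u ≠ 0) (c : Fin m → k) :
    Function.Injective (Tr u c) := by
  rw [← LinearMap.ker_eq_bot, LinearMap.ker_eq_bot']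
  intro n hn
  have h1 : ∀ j, n (some j) = 0 := fun j => congrFun hn (some j)
  have h2 : u * n none + ∑ j, c j * n (some j) = 0 := congrFun hn none
  ext (_ | j)
  · simpa [h1, hu] using h2
  · exact h1 j

theorem NN_Dv (p : Ideal B) [p.IsPrime] :
    NN p (Dv c) = (NN p fun s => pderiv s).map (Tr (φ p (X none)) fun j => φ p (C (c j))) := by
  rw [NN, NN, Submodule.map_span, Set.image_image]
  congr 2
  ext g (_ | j)
  · simp [vec, Tr, Dv_none]
  · simp [vec, Tr, Dv]

end special

end Struct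

open Struct in
theorem structStmt_of (hM : MultStmt) (hL : LinStmt) : StructStmt := by
  intro m c e ρ Γ A a hc hΓ hF ha haA hρ hΓA p L hp hL' hbot hX
  have hpp : p.IsPrime := hp.1.1
  have he := one_le_of_fast hΓ hF
  have hρ1 : 1 ≤ ρ := by
    rcases Nat.eq_zero_or_pos ρ with h | h
    · simp [h] at hρ
    · exact h
  have hw : ∀ i, 1 ≤ wv e i := by
    rintro (_ | j)
    exacts [le_rfl, he j]
  have hδ : ∀ i, 1 ≤ wd ρ e i := by
    rintro (_ | j)
    exacts [hρ1, he j]
  have hu : φ p (X none) ≠ 0 := fun h => hX ((φ_eq_zero p).1 h)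
  have hmax : ∀ I, Valid (NN p fun s => pderiv s) I → ∀ s ∉ Iᶜ, ¬Indep p (insert s Iᶜ) := by
    intro I hI
    obtain ⟨J, hJ, hJ1, hJ2⟩ := exists_maximal p (indep_of_valid p hI)
    obtain ⟨g, Δ, hg⟩ := dual p _ hI
    have h1 := (hM _ (fun s => pderiv s) (fun _ => 1) (wd ρ e) (fun _ => le_rfl) hδ p L A 1
      (ha.trans haA) le_rfl hp
      (fun f hf => ⟨(hL' f hf).1, le_Jet_one (fun _ => le_rfl) (Jet_le ha (hL' f hf).2)⟩)
      J hJ1 hJ2 I g Δ hg).1
    have h2 : Jᶜ = I := Finset.eq_of_subset_of_card_le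
      (by simpa using Finset.compl_subset_compl.2 hJ) h1
    have h3 : Iᶜ = J := by rw [← h2, compl_compl]
    rw [h3]
    exact hJ2
  have hrk : Module.finrank (κ p) (NN p (Dv c)) =
      Module.finrank (κ p) (NN p fun s => pderiv s) := by
    rw [NN_Dv]
    exact (Submodule.equivMapOfInjective _ (Tr_injective hu _) _).finrank_eq.symm
  have key := hL (κ p) m (NN p (Dv c)) (NN p fun s => pderiv s) (φ p (X none))
    (fun j => φ p (C (c j))) e ρ Γ A a hu ?_ hΓ hF ha haA hρ hΓA ?_
  rotate_left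
  · intro n
    rw [NN_Dv, Submodule.mem_map]
    refine exists_congr fun n' => and_congr_right fun _ => ?_
    constructor
    · rintro rfl
      exact ⟨rfl, fun _ => rfl⟩
    · rintro ⟨h1, h2⟩
      ext (_ | j)
      exacts [h1.symm, (h2 j).symm]
  · intro I I' hI hI'
    obtain ⟨g, Δ, hg⟩ := dual p _ hI
    have h1 := (hM _ (Dv c) (wv e) (wd ρ e) hw hδ p L A a (ha.trans haA) ha hp hL' I'ᶜ
      (indep_of_valid p hI') (hmax I' hI') I g Δ hg).2
    rw [compl_compl] at h1
    exact h1 (by rw [hI.2, hI'.2, hrk])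
  rcases key with ⟨I, hI, hn, hz⟩ | ⟨I, hI, hn, ⟨j, hj⟩, hz⟩
  · exfalso
    have hz' : ∀ g ∈ p, ∀ s ∉ I, Dv c s g ∈ p := fun g hg s hs =>
      (φ_eq_zero p).1 (hz _ (vec_mem p _ hg) s hs)
    have hind := indep_of_valid p hI
    rcases I.eq_empty_or_nonempty with h | ⟨i, hi⟩
    · refine hbot ((Submodule.eq_bot_iff _).2 fun R hR => hind R ?_ hR)
      simp [h]
    · rcases i with _ | j
      · exact hn hi
      obtain ⟨R, h2, h3, h4⟩ := exists_of_closed p (hmax I hI (some j) (by simpa using hi))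
        {s | s ∉ I ∧ s ≠ none} (by
          rintro R hR (_ | l) hl
          · exact absurd rfl hl.2
          · have h7 := hz' R hR (some l) hl.1
            rwa [Dv_some] at h7)
      refine h3 (no_two' c (hc j) p (fun g hg => hz' g hg none hn) (fun R hR hp => hind R ?_ hp)
        R (mem_supp.2 fun α hα s hs => ?_) h2)
      · exact supported_mono (by simpa using hn) hR
      · obtain ⟨h5, h6⟩ := h4 α hα s hs
        rcases Finset.mem_insert.1 h5 with h5 | h5
        · exact Or.inr h5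
        · by_contra h7
          exact h6 ⟨Finset.mem_compl.1 h5, fun h => h7 (Or.inl h)⟩
  · have hz' : ∀ g ∈ p, ∀ s ∉ I, pderiv s g ∈ p := fun g hg s hs =>
      (φ_eq_zero p).1 (hz _ (vec_mem p _ hg) s hs)
    exact ⟨root_of_closed p (hmax I hI none (by simpa using hn)) hz', j,
      root_of_closed p (hmax I hI (some j) (by simpa using hj)) hz'⟩

end Crest.Agent.R11
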