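import Crest.Agent.R11.Defs

/-!
# Row 11: the chain of primes and the zero estimate
-/

set_option autoImplicit false

namespace Crest.Agent.R11

open MvPolynomial Filter

namespace ZeroAux

section deg

variable {σ : Type} {δ : σ → ℕ}

theorem Deg_mono {Y Y' : ℕ} (h : Y ≤ Y') : Deg δ Y ≤ Deg δ Y' :=
  fun _ hf => mem_Deg.2 fun α hα => (mem_Deg.1 hf α hα).trans h

theorem monomial_mem_Deg {Y : ℕ} {α : σ →₀ ℕ} (h : Finsupp.weight δ α ≤ Y) (r : ℂ) :
    monomial α r ∈ Deg δ Y := monomial_mem_restrictSupport ℂ |>.2 (Or.inl h)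

theorem Deg_mul {Y Y' : ℕ} {f g : MvPolynomial σ ℂ} (hf : f ∈ Deg δ Y) (hg : g ∈ Deg δ Y') :
    f * g ∈ Deg δ (Y + Y') := by
  classical
  refine mem_Deg.2 fun α hα => ?_
  obtain ⟨a, ha, b, hb, rfl⟩ := Finset.mem_add.1 (support_mul f g hα)
  rw [map_add]
  exact add_le_add (mem_Deg.1 hf a ha) (mem_Deg.1 hg b hb)

theorem C_mem_Deg (r : ℂ) (Y : ℕ) : (C r : MvPolynomial σ ℂ) ∈ Deg δ Y :=
  monomial_mem_Deg (by simp) r

theorem X_mem_Deg (i : σ) : (X i : MvPolynomial σ ℂ) ∈ Deg δ (δ i) :=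
  monomial_mem_Deg (by simp [Finsupp.weight_single]) 1

theorem Deg_pow {Y : ℕ} {f : MvPolynomial σ ℂ} (hf : f ∈ Deg δ Y) (n : ℕ) :
    f ^ n ∈ Deg δ (n * Y) := by
  induction n with
  | zero => simpa using C_mem_Deg (δ := δ) 1 0
  | succ n ih => rw [pow_succ, Nat.succ_mul]; exact Deg_mul ih hf

theorem Deg_prod {ι : Type} (s : Finset ι) {Y : ι → ℕ} {f : ι → MvPolynomial σ ℂ}
    (hf : ∀ i ∈ s, f i ∈ Deg δ (Y i)) : ∏ i ∈ s, f i ∈ Deg δ (∑ i ∈ s, Y i) := by
  classical
  induction s using Finset.induction_on with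
  | empty => simpa using C_mem_Deg (δ := δ) 1 0
  | insert a s ha ih =>
    rw [Finset.prod_insert ha, Finset.sum_insert ha]
    exact Deg_mul (hf a (by simp)) (ih fun i hi => hf i (by simp [hi]))

theorem exists_mem_Deg (f : MvPolynomial σ ℂ) : ∃ Y, f ∈ Deg δ Y :=
  ⟨f.support.sup (Finsupp.weight δ), mem_Deg.2 fun _ hα => Finset.le_sup hα⟩

theorem Deg_eq [Fintype σ] (Y : ℕ) : Deg δ Y = restrictSupport ℂ (Mon δ Finset.univ Y) := by
  unfold Deg Mon
  congr 1
  ext α
  simp

theorem finite_Deg [Fintype σ] {Y : ℕ} (h : (Mon δ Finset.univ Y).Finite) :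
    Module.Finite ℂ (Deg δ Y) := by
  rw [Deg_eq]
  have := h.to_subtype
  exact Module.Finite.of_basis (basisRestrictSupport ℂ _)

theorem finrank_Deg [Fintype σ] (Y : ℕ) :
    Module.finrank ℂ (Deg δ Y) = (Mon δ Finset.univ Y).ncard := by
  rw [Deg_eq, Module.finrank_eq_nat_card_basis (basisRestrictSupport ℂ _)]
  rfl

theorem weight_sub_le (α : σ →₀ ℕ) (β : σ →₀ ℕ) :
    Finsupp.weight δ (α - β) ≤ Finsupp.weight δ α := by
  have h : α - β ≤ α := tsub_le_self
  obtain ⟨γ, hγ⟩ := exists_add_of_le h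
  conv_rhs => rw [hγ, map_add]
  exact Nat.le_add_right _ _

end deg

section jets

variable {B ι : Type} [CommRing B] [Algebra ℂ B] {E : ι → Derivation ℂ B B} {w : ι → ℕ}
  {p : Ideal B}

theorem Jet_pow {Y : ℕ} {f : B} (hf : f ∈ Jet E w p Y) (n : ℕ) : f ^ n ∈ Jet E w p (n * Y) := by
  induction n with
  | zero => rw [zero_mul, Jet_zero]; trivial
  | succ n ih => rw [pow_succ, Nat.succ_mul]; exact Jet_mul ih hf

theorem Jet_prod {κ : Type} (s : Finset κ) {Y : κ → ℕ} {f : κ → B}
    (hf : ∀ i ∈ s, f i ∈ Jet E w p (Y i)) : ∏ i ∈ s, f i ∈ Jet E w p (∑ i ∈ s, Y i) := by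
  classical
  induction s using Finset.induction_on with
  | empty => rw [Finset.sum_empty, Jet_zero]; trivial
  | insert a s ha ih =>
    rw [Finset.prod_insert ha, Finset.sum_insert ha]
    exact Jet_mul (hf a (by simp)) (ih fun i hi => hf i (by simp [hi]))

/-- The span of the derivatives of `P` of weight at most `Y`. -/
def LL (E : ι → Derivation ℂ B B) (w : ι → ℕ) (P : B) (Y : ℕ) : Submodule ℂ B :=
  Submodule.span ℂ {f | ∃ l : List ι, (l.map w).sum ≤ Y ∧ f = word E l P}

theorem word_mem_LL {P : B} {Y : ℕ} {l : List ι} (h : (l.map w).sum ≤ Y) :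
    word E l P ∈ LL E w P Y := Submodule.subset_span ⟨l, h, rfl⟩

theorem LL_le_ideal {P : B} {Y : ℕ} {I : Ideal B}
    (h : ∀ l : List ι, (l.map w).sum ≤ Y → word E l P ∈ I) : ∀ f ∈ LL E w P Y, f ∈ I := by
  have : LL E w P Y ≤ I.restrictScalars ℂ := Submodule.span_le.2 (by
    rintro _ ⟨l, hl, rfl⟩; exact h l hl)
  exact fun f hf => this hf

theorem LL_le {P : B} {Y : ℕ} {V : Submodule ℂ B}
    (h : ∀ l : List ι, (l.map w).sum ≤ Y → word E l P ∈ V) : LL E w P Y ≤ V :=
  Submodule.span_le.2 (by rintro _ ⟨l, hl, rfl⟩; exact h l hl)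

end jets

variable {m : ℕ}

@[simp] theorem Dv_none_X_none (c : Fin m → ℂ) : Dv c none (X none) = X none := by
  simp [Dv, mkDerivation_X]

@[simp] theorem Dv_none_X_some (c : Fin m → ℂ) (j : Fin m) :
    Dv c none (X (some j)) = C (c j) := by
  simp [Dv, mkDerivation_X]

@[simp] theorem Dv_some_X_none (c : Fin m → ℂ) (j : Fin m) : Dv c (some j) (X none) = 0 := by
  simp [Dv, pderiv_X]

theorem Dv_some_X_some (c : Fin m → ℂ) (i j : Fin m) :
    Dv c (some i) (X (some j)) = if j = i then 1 else 0 := by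
  simp [Dv, pderiv_X, Pi.single_apply]

theorem Dv_mem_Deg (c : Fin m → ℂ) (δ : Option (Fin m) → ℕ) {Y : ℕ} (o : Option (Fin m))
    {f : MvPolynomial (Option (Fin m)) ℂ} (hf : f ∈ Deg δ Y) : Dv c o f ∈ Deg δ Y := by
  rw [f.as_sum, map_sum]
  refine Submodule.sum_mem _ fun α hα => ?_
  have h := mem_Deg.1 hf α hα
  cases o with
  | some j =>
    simp only [Dv, pderiv_monomial]
    exact monomial_mem_Deg ((weight_sub_le _ _).trans h) _
  | none =>
    simp only [Dv, mkDerivation_monomial]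
    refine Submodule.smul_mem _ _ (Submodule.sum_mem _ fun i hi => ?_)
    cases i with
    | none =>
      have h1 : α - Finsupp.single none 1 + Finsupp.single none 1 = α :=
        tsub_add_cancel_of_le (Finsupp.single_le_iff.2
          (Nat.one_le_iff_ne_zero.2 (Finsupp.mem_support_iff.1 hi)))
      simp only [Option.elim, smul_eq_mul, X, monomial_mul, h1]
      exact monomial_mem_Deg h _
    | some j =>
      simp only [Option.elim, smul_eq_mul]
      rw [mul_comm, C_mul_monomial]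
      exact monomial_mem_Deg ((weight_sub_le _ _).trans h) _

theorem word_mem_Deg (c : Fin m → ℂ) (δ : Option (Fin m) → ℕ) {Y : ℕ}
    (l : List (Option (Fin m))) {f : MvPolynomial (Option (Fin m)) ℂ} (hf : f ∈ Deg δ Y) :
    word (Dv c) l f ∈ Deg δ Y := by
  induction l generalizing f with
  | nil => exact hf
  | cons i l ih => exact ih (Dv_mem_Deg c δ i hf)

theorem mem_mx {γ : Fin m → ℂ} {f : MvPolynomial (Option (Fin m)) ℂ} :
    f ∈ mx γ ↔ eval (fun o : Option (Fin m) => o.elim 1 γ) f = 0 := RingHom.mem_ker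

theorem mx_isMaximal (γ : Fin m → ℂ) : (mx γ).IsMaximal :=
  RingHom.ker_isMaximal_of_surjective _ fun x => ⟨C x, by simp⟩

theorem one_le_e {Γ : ℕ} {e : Fin m → ℕ} (hΓ : 2 ≤ Γ) (h : Fast Γ e) (j : Fin m) : 1 ≤ e j := by
  induction j using WellFoundedLT.induction with
  | ind j ih =>
    refine le_trans ?_ (h j)
    refine Nat.mul_pos (by omega) (Finset.prod_pos fun i hi => ih i ?_)
    simpa using hi

theorem one_le_wv {e : Fin m → ℕ} (h : ∀ j, 1 ≤ e j) (o : Option (Fin m)) : 1 ≤ wv e o := by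
  cases o with
  | none => exact le_rfl
  | some j => exact h j

theorem one_le_wd {ρ : ℕ} {e : Fin m → ℕ} (hρ : 1 ≤ ρ) (h : ∀ j, 1 ≤ e j) (o : Option (Fin m)) :
    1 ≤ wd ρ e o := by
  cases o with
  | none => exact hρ
  | some j => exact h j

theorem krull : ringKrullDim (MvPolynomial (Option (Fin m)) ℂ) = (m + 1 : ℕ) := by
  rw [MvPolynomial.ringKrullDim_of_isNoetherianRing, ringKrullDim_eq_zero_of_field]
  simp

theorem exists_log (c : Fin m → ℂ) (n : ℕ) : ∃ g : MvPolynomial (Option (Fin m)) ℂ,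
    g ∈ Ideal.span {(X none - 1 : MvPolynomial (Option (Fin m)) ℂ)} ∧
    (∀ j, Dv c (some j) g = 0) ∧ Dv c none g = 1 - (1 - X none) ^ n := by
  induction n with
  | zero => exact ⟨0, by simp, by simp, by simp⟩
  | succ n ih =>
    obtain ⟨g, hg, h1, h2⟩ := ih
    refine ⟨g - ((n + 1 : ℂ)⁻¹) • (1 - X none) ^ (n + 1), ?_, fun j => ?_, ?_⟩
    · refine Ideal.sub_mem _ hg ?_
      rw [smul_eq_C_mul, pow_succ]
      refine Ideal.mul_mem_left _ _ (Ideal.mul_mem_left _ _ ?_)
      rw [← neg_sub (X none) 1]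
      exact neg_mem (Ideal.mem_span_singleton_self _)
    · rw [map_sub, h1, Derivation.map_smul, Derivation.leibniz_pow]
      simp
    · have hn : (n + 1 : ℂ) ≠ 0 := by exact_mod_cast Nat.succ_ne_zero n
      rw [map_sub, h2, Derivation.map_smul, Derivation.leibniz_pow]
      simp only [map_sub, Derivation.map_one_eq_zero, Dv_none_X_none, Nat.add_sub_cancel]
      rw [← Nat.cast_smul_eq_nsmul ℂ, smul_smul, Nat.cast_succ, inv_mul_cancel₀ hn, one_smul,
        smul_eq_mul]
      ring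

theorem X_none_mem_mx (γ : Fin m → ℂ) : (X none - 1 : MvPolynomial (Option (Fin m)) ℂ) ∈ mx γ :=
  mem_mx.2 (by simp)

theorem X_some_mem_mx (γ : Fin m → ℂ) (j : Fin m) :
    (X (some j) - C (γ j) : MvPolynomial (Option (Fin m)) ℂ) ∈ mx γ := mem_mx.2 (by simp)

theorem exists_nn (c γ : Fin m → ℂ) {e : Fin m → ℕ} (he : ∀ j, 1 ≤ e j) (o : Option (Fin m)) :
    ∃ n ∈ Jet (Dv c) (wv e) (mx γ) (wv e o), n - (X o - C (o.elim 1 γ)) ∈
      Ideal.span {(X none - 1 : MvPolynomial (Option (Fin m)) ℂ)} := by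
  cases o with
  | none => exact ⟨X none - 1, le_Jet_one (one_le_wv he) (X_none_mem_mx γ), by simp⟩
  | some j =>
    obtain ⟨g, hg, h1, h2⟩ := exists_log c (e j)
    have hsp : Ideal.span {(X none - 1 : MvPolynomial (Option (Fin m)) ℂ)} ≤ mx γ :=
      (Ideal.span_singleton_le_iff_mem _).2 (X_none_mem_mx γ)
    refine ⟨X (some j) - C (γ j) - C (c j) * g, mem_Jet_of ?_ fun i => ?_, ?_⟩
    · exact Ideal.sub_mem _ (X_some_mem_mx γ j) (Ideal.mul_mem_left _ _ (hsp hg))
    · cases i with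
      | none =>
        have : Dv c none (X (some j) - C (γ j) - C (c j) * g) = C (c j) * (1 - X none) ^ e j := by
          rw [← smul_eq_C_mul, map_sub, map_sub, Derivation.map_smul, h2, derivation_C,
            Dv_none_X_some, smul_eq_C_mul]
          ring
        rw [this]
        refine Ideal.mul_mem_left _ _ (Jet_anti (Nat.sub_le _ _) (pow_le_Jet (one_le_wv he) _
          (Ideal.pow_mem_pow ?_ _)))
        rw [← neg_sub]
        exact neg_mem (X_none_mem_mx γ)
      | some i =>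
        have : Dv c (some i) (X (some j) - C (γ j) - C (c j) * g) = if j = i then 1 else 0 := by
          rw [← smul_eq_C_mul, map_sub, map_sub, Derivation.map_smul, h1, derivation_C,
            Dv_some_X_some]
          simp
        rw [this]
        split_ifs with hji
        · subst hji
          rw [Nat.sub_self, Jet_zero]; trivial
        · exact zero_mem _
    · have : X (some j) - C (γ j) - C (c j) * g - (X (some j) - C ((some j).elim 1 γ)) =
          -(C (c j) * g) := by simp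
      rw [this]
      exact neg_mem (Ideal.mul_mem_left _ _ hg)

/-- Polynomials of small degree surject onto the quotient. -/
theorem surj (c γ : Fin m → ℂ) {e : Fin m → ℕ} (he : ∀ j, 1 ≤ e j) (ρ : ℕ) {D Y : ℕ}
    (hY : Y ≤ D) (T : Ideal (MvPolynomial (Option (Fin m)) ℂ)) (h1 : X none - 1 ∈ T)
    (h2 : Jet (Dv c) (wv e) (mx γ) Y ≤ T) (f : MvPolynomial (Option (Fin m)) ℂ) :
    ∃ v ∈ Deg (wd ρ e) D, f - v ∈ T := by
  choose n hn hn' using exists_nn c γ he
  set pt : Option (Fin m) → ℂ := fun o => o.elim 1 γ with hpt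
  have hf : f = aeval (fun o => X o - C (pt o)) (aeval (fun o => X o + C (pt o)) f :
      MvPolynomial (Option (Fin m)) ℂ) := by
    have : (aeval (fun o => X o - C (pt o)) : MvPolynomial (Option (Fin m)) ℂ →ₐ[ℂ] _).comp
        (aeval fun o => X o + C (pt o)) = AlgHom.id ℂ (MvPolynomial (Option (Fin m)) ℂ) := by
      ext o : 1
      simp
    exact (AlgHom.congr_fun this f).symm
  rw [hf]
  generalize (aeval (fun o => X o + C (pt o)) f : MvPolynomial (Option (Fin m)) ℂ) = g
  induction g using MvPolynomial.induction_on' with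
  | add p p' hp hp' =>
    obtain ⟨v, hv, hvT⟩ := hp
    obtain ⟨v', hv', hvT'⟩ := hp'
    refine ⟨v + v', add_mem hv hv', ?_⟩
    rw [map_add, add_sub_add_comm]
    exact add_mem hvT hvT'
  | monomial α r =>
    rw [aeval_monomial, Finsupp.prod_fintype _ _ (by simp), algebraMap_eq]
    have hw : ∀ δ : Option (Fin m) → ℕ, Finsupp.weight δ α = ∑ o, α o * δ o := fun δ => by
      rw [Finsupp.weight_apply, Finsupp.sum_fintype _ _ (by simp)]
      simp
    by_cases hD : Finsupp.weight (wd ρ e) α ≤ D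
    · refine ⟨_, ?_, by rw [sub_self]; exact zero_mem _⟩
      rw [← smul_eq_C_mul]
      refine Submodule.smul_mem _ _ (Deg_mono hD ?_)
      rw [hw]
      exact Deg_prod _ fun o _ => Deg_pow (sub_mem (X_mem_Deg o) (C_mem_Deg _ _)) _
    refine ⟨0, zero_mem _, ?_⟩
    rw [sub_zero]
    refine Ideal.mul_mem_left _ _ ?_
    by_cases h0 : α none = 0
    · have hsp : Ideal.span {(X none - 1 : MvPolynomial (Option (Fin m)) ℂ)} ≤ T :=
        (Ideal.span_singleton_le_iff_mem _).2 h1
      have hq : Ideal.Quotient.mk T (∏ o, (X o - C (pt o)) ^ α o) =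
          Ideal.Quotient.mk T (∏ o, n o ^ α o) := by
        rw [map_prod, map_prod]
        refine Finset.prod_congr rfl fun o _ => ?_
        rw [map_pow, map_pow, Ideal.Quotient.eq.2 (hsp (hn' o))]
      rw [← Ideal.Quotient.eq_zero_iff_mem, hq, Ideal.Quotient.eq_zero_iff_mem]
      refine h2 (Jet_anti ?_ (Jet_prod _ fun o _ => Jet_pow (hn o) (α o)))
      have : ∑ o, α o * wv e o = Finsupp.weight (wd ρ e) α := by
        rw [hw, Fintype.sum_option, Fintype.sum_option, h0]
        simp [wv, wd]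
      omega
    · rw [Fintype.prod_option]
      refine Ideal.mul_mem_right _ _ (Ideal.pow_mem_of_mem _ ?_ _ (Nat.pos_of_ne_zero h0))
      simpa [hpt] using h1

theorem finrank_quot_le {B : Type} [CommRing B] [Algebra ℂ B] {q T : Ideal B} (h : q ≤ T)
    (V : Submodule ℂ B) [Module.Finite ℂ V] (hs : ∀ f, ∃ v ∈ V, f - v ∈ T) :
    Module.finrank ℂ (B ⧸ T) ≤
      Module.finrank ℂ (V.map (Ideal.Quotient.mkₐ ℂ q).toLinearMap) := by
  refine LinearMap.finrank_le_finrank_of_surjective
    (f := (Ideal.Quotient.factorₐ ℂ h).toLinearMap ∘ₗ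
      (V.map (Ideal.Quotient.mkₐ ℂ q).toLinearMap).subtype) fun x => ?_
  obtain ⟨f, rfl⟩ := Ideal.Quotient.mk_surjective x
  obtain ⟨v, hv, hT⟩ := hs f
  exact ⟨⟨Ideal.Quotient.mk q v, v, hv, rfl⟩, (Ideal.Quotient.eq.2 hT).symm⟩

/-- The Chinese remainder theorem as an algebra isomorphism. -/
noncomputable def crt {B : Type} [CommRing B] [Algebra ℂ B] {K : ℕ} (J : Fin K → Ideal B)
    (h : Pairwise (Function.onFun IsCoprime J)) : (B ⧸ ⨅ k, J k) ≃ₐ[ℂ] ∀ k, B ⧸ J k :=
  AlgEquiv.ofRingEquiv (f := Ideal.quotientInfRingEquivPiQuotient J h) fun _ => rfl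

theorem finite_mx (γ : Fin m → ℂ) :
    Module.Finite ℂ (MvPolynomial (Option (Fin m)) ℂ ⧸ mx γ) := by
  refine Module.Finite.of_surjective (Algebra.linearMap ℂ _) fun x => ?_
  obtain ⟨f, rfl⟩ := Ideal.Quotient.mk_surjective x
  refine ⟨eval (fun o : Option (Fin m) => o.elim 1 γ) f, ?_⟩
  rw [Algebra.linearMap_apply, ← Ideal.Quotient.mk_algebraMap, Ideal.Quotient.eq, mem_mx]
  simp

theorem dualSys (c γ : Fin m → ℂ) : DualSys (Dv c) (mx γ) Finset.univ
    (fun o => o.elim (X none - 1) fun j => X (some j) - C (γ j) - C (c j) * (X none - 1)) 1 := by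
  refine ⟨fun h => by simpa using mem_mx.1 h, fun o _ => ?_, fun o _ o' _ => ?_⟩
  · cases o <;> exact mem_mx.2 (by simp)
  · rw [mem_mx]
    cases o with
    | none => cases o' <;> simp
    | some j =>
      cases o' with
      | none => simp
      | some i =>
        simp only [Option.elim, map_sub, Derivation.leibniz, Dv_some_X_some, derivation_C,
          Dv_some_X_none, Derivation.map_one_eq_zero]
        simp

theorem sup_Jet_eq_top (c γ : Fin m → ℂ) {e : Fin m → ℕ} (he : ∀ j, 1 ≤ e j)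
    {q : Ideal (MvPolynomial (Option (Fin m)) ℂ)} (h : ¬ q ≤ mx γ) (Y : ℕ) :
    q ⊔ Jet (Dv c) (wv e) (mx γ) Y = ⊤ := by
  have h1 : q ⊔ mx γ = ⊤ := (mx_isMaximal γ).out.2 _ (right_lt_sup.2 h)
  exact top_unique ((Ideal.sup_pow_eq_top (n := Y) h1).symm.le.trans
    (sup_le_sup_left (pow_le_Jet (one_le_wv he) Y) _))

theorem final_ineq {n F Kρ y A s : ℕ} (hF : 0 < F) {u v : ℕ → ℕ}
    (h1 : ∀ᶠ N in atTop, Kρ * (N * y) ^ n ≤ F * u N) (h2 : ∀ N, F * v N ≤ (N * A + s) ^ n)
    (h3 : ∀ ε > (0 : ℝ), ∀ᶠ N in atTop, (u N : ℝ) ≤ v N + ε * (N : ℝ) ^ n) :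
    Kρ * y ^ n ≤ A ^ n := by
  by_contra hcon
  have hlt : (A : ℝ) ^ n + 1 ≤ Kρ * (y : ℝ) ^ n := by exact_mod_cast not_le.1 hcon
  have hF' : (0 : ℝ) < F := by exact_mod_cast hF
  have ht : Tendsto (fun N : ℕ => ((A : ℝ) + s / N) ^ n) atTop (nhds (((A : ℝ) + 0) ^ n)) :=
    (tendsto_const_nhds.add (tendsto_const_div_atTop_nhds_zero_nat (s : ℝ))).pow n
  rw [add_zero] at ht
  have h4 := ht.eventually (gt_mem_nhds (show (A : ℝ) ^ n < A ^ n + 1 / 2 by linarith))
  obtain ⟨N, ⟨⟨a1, a3⟩, a4⟩, hN⟩ :=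
    (((h1.and (h3 (1 / (2 * F)) (by positivity))).and h4).and (eventually_ge_atTop 1)).exists
  have hN' : (0 : ℝ) < N := by exact_mod_cast hN
  have a1' : (Kρ : ℝ) * ((N : ℝ) * y) ^ n ≤ F * u N := by exact_mod_cast a1
  have a2' : (F : ℝ) * v N ≤ ((N : ℝ) * A + s) ^ n := by exact_mod_cast h2 N
  have e1 : ((N : ℝ) * A + s) ^ n = (N : ℝ) ^ n * ((A : ℝ) + s / N) ^ n := by
    rw [← mul_pow]; congr 1; field_simp
  have hNn : (0 : ℝ) < (N : ℝ) ^ n := by positivity
  have a5 : (F : ℝ) * u N ≤ F * v N + 1 / 2 * (N : ℝ) ^ n := by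
    have := mul_le_mul_of_nonneg_left a3 hF'.le
    have e2 : (F : ℝ) * (v N + 1 / (2 * F) * (N : ℝ) ^ n) = F * v N + 1 / 2 * (N : ℝ) ^ n := by
      field_simp
    linarith
  rw [mul_pow] at a1'
  rw [e1] at a2'
  have a6 := mul_lt_mul_of_pos_left a4 hNn
  have a7 := mul_le_mul_of_nonneg_left hlt hNn.le
  nlinarith

end ZeroAux

open ZeroAux in
theorem chainStmt_of (h : StructStmt) : ChainStmt := by
  intro m c e ρ Γ A a hc hΓ hF ha haA hA hpow P hP0 hP q γ hq hqm hPq
  by_contra hcon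
  have key : ∀ i : ℕ, ∀ p : Ideal (MvPolynomial (Option (Fin m)) ℂ), p.IsPrime → p ≤ q →
      (∀ f ∈ LL (Dv c) (wv e) P (i * a), f ∈ p) → ((i + 1 : ℕ) : ℕ∞) ≤ p.height := by
    intro i
    induction i with
    | zero =>
      intro p hp _ hL
      have hPp : P ∈ p := hL P (word_mem_LL (l := []) (by simp))
      have hlt : (⊥ : Ideal (MvPolynomial (Option (Fin m)) ℂ)) < p :=
        bot_lt_iff_ne_bot.2 fun h0 => hP0 (by simpa [h0] using hPp)
      have := Ideal.height_add_one_le_of_lt_of_isPrime hlt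
      exact le_trans (by simp) this
    | succ i ih =>
      intro p hp hpq hL
      have hL' : ∀ f ∈ LL (Dv c) (wv e) P (i * a), f ∈ p :=
        LL_le_ideal fun l hl => hL _ (word_mem_LL (hl.trans (by nlinarith)))
      obtain ⟨p', hp', hle⟩ := Ideal.exists_minimalPrimes_le
        (I := Ideal.span (LL (Dv c) (wv e) P (i * a) : Set (MvPolynomial (Option (Fin m)) ℂ)))
        (J := p) (Ideal.span_le.2 fun f hf => hL' f hf)
      have hp'p : p'.IsPrime := hp'.1.1
      have hLp' : ∀ f ∈ LL (Dv c) (wv e) P (i * a), f ∈ p' :=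
        fun f hf => hp'.1.2 (Ideal.subset_span hf)
      rcases hle.lt_or_eq with hlt | rfl
      · have h1 := ih p' hp'p (hle.trans hpq) hLp'
        have h2 := Ideal.height_add_one_le_of_lt_of_isPrime hlt
        refine le_trans ?_ h2
        rw [Nat.cast_succ (i + 1)]
        gcongr
      · exfalso
        have hm : p' ≤ mx γ := hpq.trans hqm
        have hJ : ∀ f ∈ LL (Dv c) (wv e) P (i * a), f ∈ Jet (Dv c) (wv e) p' a := by
          refine LL_le_ideal fun l hl => mem_Jet.2 fun l' hl' => ?_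
          rw [← word_append]
          refine hL _ (word_mem_LL ?_)
          rw [List.map_append, List.sum_append, Nat.succ_mul]
          omega
        obtain ⟨⟨x, hx⟩, j, x', hx'⟩ := h m c e ρ Γ A a hc hΓ hF ha haA hA hpow p' _ hp'
          (fun f hf => ⟨LL_le (fun l _ => word_mem_Deg c _ l hP) hf, hJ f hf⟩)
          (fun h0 => hP0 (by simpa [h0] using hLp' P (word_mem_LL (l := []) (by simp))))
          (fun hX => by simpa using mem_mx.1 (hm hX))
        have e1 : x = 1 := by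
          have := mem_mx.1 (hm hx)
          simp only [map_sub, eval_X, eval_C, Option.elim] at this
          exact (sub_eq_zero.1 this).symm
        have e2 : x' = γ j := by
          have := mem_mx.1 (hm hx')
          simp only [map_sub, eval_X, eval_C, Option.elim] at this
          exact (sub_eq_zero.1 this).symm
        subst e1 e2
        exact hcon ⟨hpq (by simpa using hx), j, hpq hx'⟩
  have h1 := key (m + 1) q hq le_rfl (LL_le_ideal fun l hl => mem_Jet.1 hPq l (by omega))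
  have h2 := Ideal.height_le_ringKrullDim_of_isPrime (I := q)
  rw [krull] at h2
  have h3 : q.height ≤ ((m + 1 : ℕ) : ℕ∞) := by exact_mod_cast h2
  have h4 := h1.trans h3
  norm_cast at h4
  omega

open ZeroAux in
theorem zeroStmt_of (hC : CntStmt) (hP : PhiStmt) (hF : FinStmt) (hL : LowStmt)
    (hCh : ChainStmt) : ZeroStmt := by
  intro m c e ρ Γ A a hc hΓ hFa ha haA hA hpow P hP0 hPD K A' γ hγ hA' hPJ
  set y := A' - (m + 1) * a with hy
  rcases Nat.eq_zero_or_pos y with hy0 | hy0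
  · simp [hy0]
  have he := one_le_e hΓ hFa
  have hρ : 1 ≤ ρ := by
    rcases Nat.eq_zero_or_pos ρ with h | h
    · simp [h] at hA
    · exact h
  have hA1 : 1 ≤ A := ha.trans haA
  have hma : 1 ≤ (m + 1) * a := Nat.mul_pos (by omega) ha
  have hyA : y < A := by omega
  have hCd := hC _ (wd ρ e) Finset.univ fun o _ => one_le_wd hρ he o
  have hCv := hC _ (wv e) Finset.univ fun o _ => one_le_wv he o
  have hcard : (Finset.univ : Finset (Option (Fin m))).card = m + 1 := by simp
  rw [hcard] at hCd hCv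
  have hfin : ∀ Y, Module.Finite ℂ (Deg (wd ρ e) Y) := fun Y => finite_Deg (hCd Y).1
  have hchain := hCh m c e ρ Γ A a hc hΓ hFa ha haA hA hpow P hP0 hPD
  -- primes through one point miss the other points
  have hsep : ∀ (q : Ideal (MvPolynomial (Option (Fin m)) ℂ)) (k k' : Fin K) (j : Fin m),
      X (some j) - C (γ k j) ∈ q → k' ≠ k → ¬ q ≤ mx (γ k') := by
    intro q k k' j hj hk hle
    have := mem_mx.1 (hle hj)
    simp only [map_sub, eval_X, eval_C, Option.elim] at this
    exact hk (hγ j (sub_eq_zero.1 this))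
  have hcop : ∀ Y, Pairwise (Function.onFun IsCoprime
      fun k => Jet (Dv c) (wv e) (mx (γ k)) Y) := by
    intro Y k k' hk
    obtain ⟨-, j, hj⟩ := hchain (mx (γ k)) (γ k) (mx_isMaximal _).isPrime le_rfl
      (Jet_anti (by omega) (hPJ k))
    have h1 : mx (γ k) ⊔ mx (γ k') = ⊤ :=
      (mx_isMaximal _).out.2 _ (right_lt_sup.2 (hsep _ k k' j hj hk.symm))
    exact Ideal.isCoprime_iff_sup_eq.2 (top_unique
      ((Ideal.pow_sup_pow_eq_top (m := Y) (n := Y) h1).symm.le.trans
        (sup_le_sup (pow_le_Jet (one_le_wv he) Y) (pow_le_Jet (one_le_wv he) Y))))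
  have hfinJ : ∀ k Y, Module.Finite ℂ (MvPolynomial (Option (Fin m)) ℂ ⧸
      Jet (Dv c) (wv e) (mx (γ k)) Y) := fun k Y => by
    have := finite_mx (γ k)
    exact Module.rank_lt_aleph0_iff.1 (hF ℂ _ (mx (γ k)) _ Y (Module.rank_lt_aleph0 _ _)
      (pow_le_Jet (one_le_wv he) Y))
  have hmain := hP ℂ (MvPolynomial (Option (Fin m)) ℂ) (fun N => Deg (wd ρ e) (N * A))
    (fun N => ⨅ k, Jet (Dv c) (wv e) (mx (γ k)) (N * y)) (LL (Dv c) (wv e) P ((m + 1) * a))
    (m + 1) (fun N M h => Deg_mono (Nat.mul_le_mul_right A h))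
    (fun N M f hf g hg => by simpa only [add_mul] using Deg_mul hf hg)
    (fun f => by
      obtain ⟨Y, hY⟩ := exists_mem_Deg (δ := wd ρ e) f
      exact ⟨Y, Deg_mono (Nat.le_mul_of_pos_right Y hA1) hY⟩)
    (fun N => Module.Finite.iff_fg.1 (hfin _))
    ⟨(A + ∑ o, wd ρ e o) ^ (m + 1), fun N => by
      rw [finrank_Deg, ← mul_pow]
      have h1 := (hCd (N * A)).2.2
      have h2 : 0 < (m + 1).factorial * ∏ o, wd ρ e o :=
        Nat.mul_pos (Nat.factorial_pos _) (Finset.prod_pos fun o _ => one_le_wd hρ he o)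
      refine (Nat.le_mul_of_pos_left _ h2).trans (h1.trans (Nat.pow_le_pow_left ?_ _))
      nlinarith [Nat.zero_le (N * ∑ o, wd ρ e o)]⟩
    (by simp [Jet_zero])
    (fun N M f hf g hg => by
      simp only [Submodule.mem_iInf, add_mul] at hf hg ⊢
      exact fun k => Jet_mul (hf k) (hg k))
    (fun N => by
      have : Module.Finite ℂ (MvPolynomial (Option (Fin m)) ℂ ⧸
          ⨅ k, Jet (Dv c) (wv e) (mx (γ k)) (N * y)) :=
        Module.Finite.equiv (crt _ (hcop (N * y))).toLinearEquiv.symm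
      exact Module.rank_lt_aleph0 _ _)
    (fun f hf => ⟨by
      rw [one_mul]; exact LL_le (fun l _ => word_mem_Deg c _ l hPD) hf, by
      refine LL_le_ideal (fun l hl => ?_) f hf
      simp only [Submodule.mem_iInf, one_mul]
      exact fun k => Jet_anti (by omega) (Jet_word (hPJ k) l)⟩)
    (fun q hq hLq c₀ => by
      have hPq : P ∈ Jet (Dv c) (wv e) q ((m + 1) * a + 1) :=
        mem_Jet.2 fun l hl => hLq _ (word_mem_LL (by omega))
      by_cases hex : ∃ k, q ≤ mx (γ k)
      · obtain ⟨k, hk⟩ := hex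
        obtain ⟨h1, j, hj⟩ := hchain q (γ k) hq hk hPq
        filter_upwards [eventually_ge_atTop (c₀ * y)] with N hN
        have := hfin (N * A)
        refine finrank_quot_le le_sup_left _ (surj c (γ k) he ρ (Y := (N + c₀) * y) (by nlinarith)
          _ (Ideal.mem_sup_left h1) fun x hx => ?_)
        have htop : q ⊔ ⨅ k' ∈ Finset.univ.erase k,
            Jet (Dv c) (wv e) (mx (γ k')) ((N + c₀) * y) = ⊤ :=
          Ideal.sup_iInf_eq_top fun k' hk' =>
            sup_Jet_eq_top c _ he (hsep q k k' j hj (Finset.ne_of_mem_erase hk')) _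
        obtain ⟨u, hu, v, hv, huv⟩ := Submodule.mem_sup.1 ((Ideal.eq_top_iff_one _).1 htop)
        have hx' : x = x * u + x * v := by rw [← mul_add, huv, mul_one]
        rw [hx']
        refine Submodule.add_mem_sup (Ideal.mul_mem_left _ _ hu) ?_
        simp only [Submodule.mem_iInf] at hv ⊢
        intro k'
        by_cases hk' : k' = k
        · subst hk'
          exact Ideal.mul_mem_right _ _ hx
        · exact Ideal.mul_mem_left _ _ (hv k' (by simp [hk']))
      · push Not at hex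
        refine Eventually.of_forall fun N => ?_
        have htop : q ⊔ ⨅ k' ∈ (Finset.univ : Finset (Fin K)),
            Jet (Dv c) (wv e) (mx (γ k')) ((N + c₀) * y) = ⊤ :=
          Ideal.sup_iInf_eq_top fun k' _ => sup_Jet_eq_top c _ he (hex k') _
        simp only [Finset.mem_univ, iInf_pos] at htop
        have := hfin (N * A)
        exact finrank_quot_le le_sup_left _ fun f => ⟨0, zero_mem _, by rw [htop]; trivial⟩)
  have hprod : ∏ o, wd ρ e o = ρ * ∏ o, wv e o := by
    rw [Fintype.prod_option, Fintype.prod_option]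
    simp [wd, wv]
  refine final_ineq (F := (m + 1).factorial * ∏ o, wd ρ e o) (s := ∑ o, wd ρ e o)
    (Nat.mul_pos (Nat.factorial_pos _) (Finset.prod_pos fun o _ => one_le_wd hρ he o))
    ?_ (fun N => ?_) hmain
  · filter_upwards [eventually_ge_atTop 1] with N hN
    have hNy : N * y - 1 + 1 = N * y := Nat.sub_add_cancel (Nat.mul_pos hN hy0)
    have hlow : ∀ k, (Mon (wv e) Finset.univ (N * y - 1)).ncard ≤
        Module.finrank ℂ (MvPolynomial (Option (Fin m)) ℂ ⧸
          Jet (Dv c) (wv e) (mx (γ k)) (N * y)) := by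
      intro k
      have h1 := hL ℂ _ _ (Dv c) (wv e) (mx (γ k)) (mx_isMaximal _).isPrime
        (fun x hx => by simpa using mem_mx.1 hx) _ _ _ (dualSys c (γ k)) (N * y - 1)
      have := hfinJ k (N * y - 1 + 1)
      have := (hCv (N * y - 1)).1.fintype
      have h2 := h1.fintype_card_le_finrank
      rw [hNy, ← Nat.card_eq_fintype_card] at h2
      exact h2
    have hsum : K * (Mon (wv e) Finset.univ (N * y - 1)).ncard ≤
        Module.finrank ℂ (MvPolynomial (Option (Fin m)) ℂ ⧸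
          ⨅ k, Jet (Dv c) (wv e) (mx (γ k)) (N * y)) := by
      rw [(crt _ (hcop (N * y))).toLinearEquiv.finrank_eq, Module.finrank_pi_fintype]
      simpa using Finset.sum_le_sum fun k (_ : k ∈ (Finset.univ : Finset (Fin K))) => hlow k
    have h1 := (hCv (N * y - 1)).2.1
    rw [hNy] at h1
    rw [hprod]
    calc K * ρ * (N * y) ^ (m + 1)
        ≤ K * ρ * ((m + 1).factorial * (∏ o, wv e o) *
          (Mon (wv e) Finset.univ (N * y - 1)).ncard) := Nat.mul_le_mul_left _ h1
      _ = (m + 1).factorial * (ρ * ∏ o, wv e o) *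
          (K * (Mon (wv e) Finset.univ (N * y - 1)).ncard) := by ring
      _ ≤ _ := Nat.mul_le_mul_left _ hsum
  · rw [finrank_Deg]
    exact (hCd (N * A)).2.2

end Crest.Agent.R11
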